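import Vale.Agent.P150.Two

/-! Integrated Bakry-Emery criterion and the Poincare inequality.
`pair_ineq`: apply `sum_pair` for `i` and for `j` to the numerators: `∑ x, F x = (1/4) ∑ x, ∑ s t, F (up i s (up j t x))`.
For fixed `x` put `x₀ = up i true (up j true x)` (or keep `x`), `h' = loc i` and `k' = loc j` with the mutual term
removed; `Wt (up i s (up j t x)) = c exp (h' s + k' t + J i j s t)` with `c > 0` (`Wt_up`, `loc_up`),
`mw i = tanh (h' + J t)`, `dd i f (up i s (up j t x)) = a + c' t`, `dd j f (..) = b + c' s` with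
`c' = dd j (dd i f) x` (`up_eq`, `dd_comm`, `free_dd`); apply `two_spin`.
`be`: `Lw_eq`, expand the square; diagonal terms by `Ex_D_sq`; with `u i = v i * dd i f`,
`∑_{i ≠ j} J i j u i u j = ∑_{i j} J i j u i u j ≤ Λ ∑ u i²` pointwise; `Λ v + 2 R m² ≤ max Λ (2R)` as `v + m² = 1`.
`poi_of_be`: the linear map `f ↦ Lw w f` maps the subspace `{f | Ex w f = 0}` to itself (`Ex_L` with `g = 1`) and is
injective there (`Lw f = 0 → Dir f = 0 → dd i f = 0 → f` constant), hence surjective
(`LinearMap.injective_iff_surjective`).  For centred `g = Lw f`: `Ex g² = Ex (g Lw f) ≤ √(Dir g) √(Dir f)`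
(`Ex_L`, Cauchy-Schwarz, or `2 x y ≤ t x² + y²/t`) and `κ Dir f ≤ Ex g²`. -/

namespace Vale.Agent.P150

open Finset Real

variable {n : ℕ} {w : Cfg n → ℝ} {J : Matrix (Fin n) (Fin n) ℝ} {Λ R η κ : ℝ}

lemma pair_ineq (hJ : Good J Λ R η) (hη : η ≤ 1 / 100) (h : Fin n → ℝ) (f : Cfg n → ℝ) {i j : Fin n}
    (hij : i ≠ j) :
    -J i j ^ 2 * Ex (Wt J h) (fun x =>
      (mw (Wt J h) i x ^ 2 + 100 * η) * (1 - mw (Wt J h) i x ^ 2) * dd i f x ^ 2 +
        (mw (Wt J h) j x ^ 2 + 100 * η) * (1 - mw (Wt J h) j x ^ 2) * dd j f x ^ 2) ≤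
    Ex (Wt J h) fun x => ((mw (Wt J h) i x - sp (x i)) * (mw (Wt J h) j x - sp (x j)) +
      J i j * (1 - mw (Wt J h) i x ^ 2) * (1 - mw (Wt J h) j x ^ 2)) * (dd i f x * dd j f x) := by
  have hS : 0 < ∑ x, Wt J h x := Pos.sum_pos Wt_pos
  unfold Ex
  rw [← mul_div_assoc, div_le_div_iff_of_pos_right hS, mul_sum, ← sub_nonneg, ← sum_sub_distrib,
    sum_pair i, sum_pair j]
  refine sum_nonneg fun x _ => ?_
  have hi : ∀ s t, up i s (up j t x) i = s := fun s t => up_same _ _
  have hj : ∀ s t, up i s (up j t x) j = t := fun s t => by rw [up_ne hij.symm, up_same]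
  have hli : ∀ t, loc J h i (up j t x) = (loc J h i x - J i j * sp (x j)) + J i j * sp t :=
    fun t => by rw [loc_up hij.symm]; ring
  have hmi : ∀ s t, mw (Wt J h) i (up i s (up j t x)) =
      tanh ((loc J h i x - J i j * sp (x j)) + J i j * sp t) := fun s t => by
    rw [mw_Wt hJ.symm hJ.diag, free_loc hJ.diag, hli]
  have hmj : ∀ s t, mw (Wt J h) j (up i s (up j t x)) =
      tanh ((loc J h j x - J i j * sp (x i)) + J i j * sp s) := fun s t => by
    rw [mw_Wt hJ.symm hJ.diag, up_comm hij, free_loc hJ.diag, loc_up hij, hJ.symm j i]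
    congr 1; ring
  have hdi : ∀ s t, dd i f (up i s (up j t x)) =
      (dd i f x - sp (x j) * dd j (dd i f) x) + dd j (dd i f) x * sp t := fun s t => by
    rw [free_dd, up_eq (f := dd i f)]; ring
  have hdj : ∀ s t, dd j f (up i s (up j t x)) =
      (dd j f x - sp (x i) * dd j (dd i f) x) + dd j (dd i f) x * sp s := fun s t => by
    rw [up_comm hij, free_dd, up_eq (f := dd j f), dd_comm hij]; ring
  have hw : ∀ s t, Wt J h (up i s (up j t x)) = (Wt J h x * exp (-(sp (x j) * loc J h j x +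
      sp (x i) * (loc J h i x - J i j * sp (x j))))) *
      exp ((loc J h i x - J i j * sp (x j)) * sp s + (loc J h j x - J i j * sp (x i)) * sp t +
        J i j * sp s * sp t) := fun s t => by
    rw [Wt_up hJ.symm hJ.diag, Wt_up hJ.symm hJ.diag, hli, up_ne hij, mul_assoc, mul_assoc,
      ← exp_add, ← exp_add]
    congr 2; ring
  have hc : 0 < Wt J h x * exp (-(sp (x j) * loc J h j x +
      sp (x i) * (loc J h i x - J i j * sp (x j)))) := mul_pos (Wt_pos x) (exp_pos _)
  have key := mul_nonneg hc.le (sub_nonneg.2 (two_spin (h := loc J h i x - J i j * sp (x j))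
    (k := loc J h j x - J i j * sp (x i)) (dd i f x - sp (x j) * dd j (dd i f) x)
    (dd j f x - sp (x i) * dd j (dd i f) x) (dd j (dd i f) x) (hJ.ent i j) hη))
  simp only [hi, hj, hmi, hmj, hdi, hdj, hw]
  simp only [Fintype.sum_bool] at key
  linarith

lemma sum_sq_be (a : Fin n → ℝ) :
    (∑ i, a i) ^ 2 = ∑ i, a i ^ 2 + ∑ i, ∑ j ∈ univ.erase i, a i * a j := by
  rw [sq, sum_mul_sum, ← sum_add_distrib]
  refine sum_congr rfl fun i _ => ?_
  rw [← add_sum_erase _ _ (mem_univ i), sq]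

theorem be (hJ : Good J Λ R η) (hη : η ≤ 1 / 100) (h : Fin n → ℝ) (f : Cfg n → ℝ) :
    (1 - max Λ (2 * R) - 200 * η * R) * Dir (Wt J h) f ≤
      Ex (Wt J h) fun x => Lw (Wt J h) f x ^ 2 := by
  have hw : Pos (Wt J h) := Wt_pos
  set w := Wt J h with hwd
  let A : Fin n → Cfg n → ℝ := fun i x =>
    (mw w i x ^ 2 + 100 * η) * (1 - mw w i x ^ 2) * dd i f x ^ 2
  let u : Fin n → Cfg n → ℝ := fun i x => (1 - mw w i x ^ 2) * dd i f x
  have hv : ∀ i x, 0 ≤ 1 - mw w i x ^ 2 := fun i x => sub_nonneg.2 (mw_sq_lt hw x).le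
  rcases Nat.eq_zero_or_pos n with rfl | hn
  · simp only [Dir, univ_eq_empty, sum_empty, mul_zero]
    exact Ex_nonneg hw fun x => sq_nonneg _
  have hη0 : 0 ≤ η := (abs_nonneg _).trans (hJ.ent ⟨0, hn⟩ ⟨0, hn⟩)
  have hA : ∀ i, 0 ≤ Ex w (A i) := fun i => Ex_nonneg hw fun x =>
    mul_nonneg (mul_nonneg (by positivity) (hv i x)) (sq_nonneg _)
  have e1 : Ex w (fun x => Lw w f x ^ 2) = Dir w f + ∑ i, ∑ j ∈ univ.erase i,
      Ex w fun x => (mw w i x - sp (x i)) * dd i f x * ((mw w j x - sp (x j)) * dd j f x) := by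
    simp only [Lw_eq hw, sum_sq_be]
    rw [Ex_add, Ex_sum, Ex_sum, Dir]
    congr 1
    · refine sum_congr rfl fun i _ => ?_
      simp only [mul_pow]
      exact Ex_D_sq hw fun b x => by rw [free_dd]
    · exact sum_congr rfl fun i _ => Ex_sum _ _
  have e2 : ∀ i, ∀ j ∈ univ.erase i, -(J i j ^ 2 * Ex w (A i)) - J j i ^ 2 * Ex w (A j) -
      Ex w (fun x => J i j * u i x * u j x) ≤
      Ex w fun x => (mw w i x - sp (x i)) * dd i f x * ((mw w j x - sp (x j)) * dd j f x) := by
    intro i j hj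
    have h1 := pair_ineq hJ hη h f (ne_of_mem_erase hj).symm
    rw [← hwd, Ex_add] at h1
    have h2 : (Ex w fun x => ((mw w i x - sp (x i)) * (mw w j x - sp (x j)) +
        J i j * (1 - mw w i x ^ 2) * (1 - mw w j x ^ 2)) * (dd i f x * dd j f x)) =
        (Ex w fun x => (mw w i x - sp (x i)) * dd i f x * ((mw w j x - sp (x j)) * dd j f x)) +
          Ex w fun x => J i j * u i x * u j x := by
      rw [← Ex_add]
      congr 1
      funext x
      simp only [u]
      ring
    rw [h2] at h1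
    rw [hJ.symm j i]
    linarith
  have e3 : ∑ i, ∑ j ∈ univ.erase i, J i j ^ 2 * Ex w (A i) ≤ R * ∑ i, Ex w (A i) := by
    rw [mul_sum]
    refine sum_le_sum fun i _ => ?_
    rw [← sum_mul]
    refine mul_le_mul_of_nonneg_right (le_trans ?_ (hJ.row i)) (hA i)
    exact sum_le_sum_of_subset_of_nonneg (erase_subset _ _) fun _ _ _ => sq_nonneg _
  have e4 : ∑ i, ∑ j ∈ univ.erase i, J j i ^ 2 * Ex w (A j) ≤ R * ∑ i, Ex w (A i) := by
    refine le_trans (sum_le_sum fun i _ => sum_le_sum_of_subset_of_nonneg (erase_subset i univ)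
      fun j _ _ => mul_nonneg (sq_nonneg _) (hA j)) ?_
    rw [sum_comm, mul_sum]
    refine sum_le_sum fun j _ => ?_
    rw [← sum_mul]
    exact mul_le_mul_of_nonneg_right (hJ.row j) (hA j)
  have e5 : ∑ i, ∑ j ∈ univ.erase i, Ex w (fun x => J i j * u i x * u j x) ≤
      Λ * ∑ i, Ex w fun x => u i x ^ 2 := by
    have : ∑ i, ∑ j ∈ univ.erase i, Ex w (fun x => J i j * u i x * u j x) =
        Ex w fun x => ∑ i, ∑ j, J i j * u i x * u j x := by
      rw [Ex_sum]
      refine sum_congr rfl fun i _ => ?_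
      rw [← Ex_sum]
      congr 1
      funext x
      rw [← add_sum_erase _ _ (mem_univ i), hJ.diag i]
      ring
    rw [this, ← Ex_sum, ← Ex_mul]
    exact Ex_mono hw fun x => (le_abs_self _).trans (hJ.op fun i => u i x)
  have e6 : Λ * (∑ i, Ex w fun x => u i x ^ 2) + 2 * R * ∑ i, Ex w (A i) ≤
      (max Λ (2 * R) + 200 * η * R) * Dir w f := by
    rw [Dir, mul_sum, mul_sum, mul_sum, ← sum_add_distrib]
    refine sum_le_sum fun i _ => ?_
    rw [← Ex_mul, ← Ex_mul, ← Ex_mul, ← Ex_add]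
    refine Ex_mono hw fun x => ?_
    have h1 := mul_le_mul_of_nonneg_right (le_max_left Λ (2 * R)) (hv i x)
    have h2 := mul_le_mul_of_nonneg_right (le_max_right Λ (2 * R)) (sq_nonneg (mw w i x))
    have h3 := mul_le_mul_of_nonneg_right (add_le_add h1 h2)
      (mul_nonneg (hv i x) (sq_nonneg (dd i f x)))
    simp only [A, u]
    nlinarith
  have e7 := sum_le_sum fun i (_ : i ∈ univ) => sum_le_sum (e2 i)
  simp only [sum_sub_distrib, sum_neg_distrib] at e7
  rw [e1]
  linarith

lemma const_of_dd_be {f : Cfg n → ℝ} (h : ∀ i x, dd i f x = 0) (x y : Cfg n) : f x = f y := by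
  have key : ∀ s : Finset (Fin n), f (fun k => if k ∈ s then y k else x k) = f x := by
    intro s
    induction s using Finset.induction_on with
    | empty => simp
    | insert i s _ ih =>
      have e : (fun k => if k ∈ insert i s then y k else x k) =
          up i (y i) fun k => if k ∈ s then y k else x k := by
        funext k
        by_cases hk : k = i
        · subst hk; simp
        · rw [up_ne hk]; simp [hk]
      rw [e, up_eq (f := f), h, ih]; ring
  simpa using (key univ).symm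

/-- the generator as a linear map -/
noncomputable def LwL (w : Cfg n → ℝ) : (Cfg n → ℝ) →ₗ[ℝ] Cfg n → ℝ where
  toFun f := fun x => Lw w f x + Ex w f
  map_add' f g := by
    funext x
    have : Ex w (f + g) = Ex w f + Ex w g := Ex_add
    simp only [Lw, Qw, Pi.add_apply, this]
    rw [add_add_add_comm, ← sum_add_distrib]
    congr 1
    exact sum_congr rfl fun i _ => by ring
  map_smul' c f := by
    funext x
    have : Ex w (c • f) = c * Ex w f := Ex_mul c
    simp only [Lw, Qw, Pi.smul_apply, smul_eq_mul, this, RingHom.id_apply]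
    rw [mul_add, mul_sum]
    congr 1
    exact sum_congr rfl fun i _ => by ring

lemma Ex_Lw_be (hw : Pos w) (f : Cfg n → ℝ) : Ex w (Lw w f) = 0 := by
  have := Ex_L (f := f) (g := fun _ => 1) hw
  simp only [one_mul, dd, sub_self, zero_div, zero_mul, mul_zero, Ex_const hw] at this
  simpa using this

lemma LwL_surj (hw : Pos w) : Function.Surjective (LwL w) := by
  rw [← LinearMap.injective_iff_surjective, injective_iff_map_eq_zero]
  intro f hf
  have h1 : ∀ x, Lw w f x + Ex w f = 0 := fun x => congrFun hf x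
  have h2 : Ex w f = 0 := by
    have : Ex w (fun x => Lw w f x + Ex w f) = 0 := by simp only [h1, Ex_const hw]
    rw [Ex_add, Ex_const hw] at this
    have h3 := Ex_Lw_be hw f
    linarith
  have h3 : Dir w f = 0 := by
    rw [Dir_eq hw]
    have : ∀ x, Lw w f x = 0 := fun x => by linarith [h1 x]
    simp only [this, mul_zero, Ex_const hw, neg_zero]
  have hv : ∀ i x, 0 < 1 - mw w i x ^ 2 := fun i x => sub_pos.2 (mw_sq_lt hw x)
  have h4 : ∀ i x, dd i f x = 0 := by
    intro i x
    have h5 := (sum_eq_zero_iff_of_nonneg fun i _ => Ex_nonneg hw fun x =>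
      mul_nonneg (hv i x).le (sq_nonneg (dd i f x))).1 h3 i (mem_univ _)
    rw [Ex, div_eq_zero_iff] at h5
    have h6 := (sum_eq_zero_iff_of_nonneg fun x _ => mul_nonneg (hw x).le
      (mul_nonneg (hv i x).le (sq_nonneg (dd i f x)))).1 (h5.resolve_right hw.sum_pos.ne') x
      (mem_univ _)
    simpa [(hw x).ne', (hv i x).ne'] using h6
  funext x
  have h5 : f = fun _ => f x := funext fun y => const_of_dd_be h4 y x
  rw [h5, Ex_const hw] at h2
  exact h2

theorem poi_of_be (hw : Pos w) (hκ : 0 < κ)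
    (h : ∀ f, κ * Dir w f ≤ Ex w fun x => Lw w f x ^ 2) : Poi w κ := by
  intro g
  obtain ⟨f, hf⟩ := LwL_surj hw fun x => g x - Ex w g
  have h1 : ∀ x, Lw w f x + Ex w f = g x - Ex w g := fun x => congrFun hf x
  have h2 : Ex w f = 0 := by
    have : Ex w (fun x => Lw w f x + Ex w f) = Ex w fun x => g x - Ex w g := by simp only [h1]
    rw [Ex_add, Ex_sub, Ex_const hw, Ex_const hw] at this
    have h3 := Ex_Lw_be hw f
    linarith
  have h3 : ∀ x, Lw w f x = g x - Ex w g := fun x => by linarith [h1 x]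
  have h4 := h f
  simp only [h3] at h4
  rw [← Var_eq hw] at h4
  have h5 : Var w g = Ex w fun x => g x * Lw w f x := by
    simp only [h3, mul_sub, mul_comm (g _) (Ex w g)]
    rw [Ex_sub, Ex_mul, Var]
    simp only [sq]
  have h6 : 2 * κ * Var w g ≤ Dir w g + κ ^ 2 * Dir w f := by
    rw [h5, Ex_L hw, Dir, Dir, mul_neg, mul_sum, mul_sum, ← sum_neg_distrib, ← sum_add_distrib]
    refine sum_le_sum fun i _ => ?_
    rw [← neg_mul, ← Ex_mul, ← Ex_mul, ← Ex_add]
    refine Ex_mono hw fun x => ?_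
    have := mul_nonneg (sub_pos.2 (mw_sq_lt (i := i) hw x)).le (sq_nonneg (dd i g x + κ * dd i f x))
    nlinarith
  nlinarith

theorem poi (hJ : Good J Λ R η) (hη : η ≤ 1 / 100) (hκ : 0 < κ)
    (hk : κ ≤ 1 - max Λ (2 * R) - 200 * η * R) (h : Fin n → ℝ) : Poi (Wt J h) κ :=
  poi_of_be Wt_pos hκ fun f =>
    (mul_le_mul_of_nonneg_right hk (Dir_nonneg Wt_pos)).trans (be hJ hη h f)

end Vale.Agent.P150
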