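import Vale.Agent.P150.Defs

/-! Heat-bath operators for a general positive weight on the cube.
`sum_pair`: the map flipping coordinate `i` is an involution (`Equiv.sum_comp`), and
`F (up i true x) + F (up i false x) = F x + F (flip x)`.
`Ex_Q`: `sum_pair` on both numerators.  `Q_eq`: cases on `x i` (`Function.update_eq_self`), `field_simp`.
`mw_Wt`: `Wt J h (up i b x) = c * exp (sp b * loc J h i x)` (`Wt_up`), where `c` does not depend on `b`. -/

namespace Vale.Agent.P150

open Finset Real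

variable {n : ℕ}

/-- Expectation under the normalized weight `w`. -/
noncomputable def Ex (w f : Cfg n → ℝ) : ℝ := (∑ x, w x * f x) / ∑ x, w x

/-- Set coordinate `i` to `b`. -/
def up (i : Fin n) (b : Bool) (x : Cfg n) : Cfg n := Function.update x i b

/-- Conditional expectation given all spins but `i`. -/
noncomputable def Qw (w : Cfg n → ℝ) (i : Fin n) (f : Cfg n → ℝ) (x : Cfg n) : ℝ :=
  (w (up i true x) * f (up i true x) + w (up i false x) * f (up i false x)) /
    (w (up i true x) + w (up i false x))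

/-- Conditional mean of spin `i`. -/
noncomputable def mw (w : Cfg n → ℝ) (i : Fin n) (x : Cfg n) : ℝ :=
  (w (up i true x) - w (up i false x)) / (w (up i true x) + w (up i false x))

/-- Discrete derivative. -/
noncomputable def dd (i : Fin n) (f : Cfg n → ℝ) (x : Cfg n) : ℝ :=
  (f (up i true x) - f (up i false x)) / 2

/-- The generator acting on functions. -/
noncomputable def Lw (w f : Cfg n → ℝ) (x : Cfg n) : ℝ := ∑ i, (Qw w i f x - f x)

/-- The Dirichlet form. -/
noncomputable def Dir (w f : Cfg n → ℝ) : ℝ := ∑ i, Ex w fun x => (1 - mw w i x ^ 2) * dd i f x ^ 2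

/-- Variance. -/
noncomputable def Var (w f : Cfg n → ℝ) : ℝ := Ex w (fun x => f x ^ 2) - Ex w f ^ 2

/-- Entropy. -/
noncomputable def Ent (w f : Cfg n → ℝ) : ℝ := Ex w (fun x => f x * log (f x)) - Ex w f * log (Ex w f)

/-- Sum of the mean conditional single-site entropies. -/
noncomputable def DE (w f : Cfg n → ℝ) : ℝ :=
  ∑ i, (Ex w (fun x => f x * log (f x)) - Ex w fun x => Qw w i f x * log (Qw w i f x))

/-- Positive functions. -/
def Pos (w : Cfg n → ℝ) : Prop := ∀ x, 0 < w x

/-- `f` does not depend on coordinate `i`. -/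
def Free (i : Fin n) (f : Cfg n → ℝ) : Prop := ∀ b x, f (up i b x) = f x

/-- Poincare inequality. -/
def Poi (w : Cfg n → ℝ) (κ : ℝ) : Prop := ∀ f, κ * Var w f ≤ Dir w f

/-- Approximate tensorization of entropy. -/
def AT (w : Cfg n → ℝ) (C : ℝ) : Prop := ∀ f, Pos f → Ent w f ≤ C * DE w f

/-- Ising weight with interaction `J` and field `h`. -/
noncomputable def Wt (J : Matrix (Fin n) (Fin n) ℝ) (h : Fin n → ℝ) (x : Cfg n) : ℝ :=
  exp (1 / 2 * ∑ i, ∑ j, J i j * sp (x i) * sp (x j) + ∑ i, h i * sp (x i))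

/-- Local field. -/
noncomputable def loc (J : Matrix (Fin n) (Fin n) ℝ) (h : Fin n → ℝ) (i : Fin n) (x : Cfg n) : ℝ :=
  h i + ∑ j, J i j * sp (x j)

/-- Deterministic conditions on the interaction. -/
structure Good (J : Matrix (Fin n) (Fin n) ℝ) (Λ R η : ℝ) : Prop where
  symm : ∀ i j, J i j = J j i
  diag : ∀ i, J i i = 0
  op : ∀ u : Fin n → ℝ, |∑ i, ∑ j, J i j * u i * u j| ≤ Λ * ∑ i, u i ^ 2
  row : ∀ i, ∑ j, J i j ^ 2 ≤ R
  ent : ∀ i j, |J i j| ≤ η

/-- The single-site kernel as a matrix. -/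
noncomputable def Qm (w : Cfg n → ℝ) (i : Fin n) : Matrix (Cfg n) (Cfg n) ℝ :=
  Matrix.of fun x y => if ∀ j, j ≠ i → y j = x j then w y / (w (up i true x) + w (up i false x)) else 0

/-- The generator as a matrix. -/
noncomputable def Lm (w : Cfg n → ℝ) : Matrix (Cfg n) (Cfg n) ℝ := ∑ i, (Qm w i - 1)

/-- The semigroup. -/
noncomputable def Pt (w : Cfg n → ℝ) (t : ℝ) : Matrix (Cfg n) (Cfg n) ℝ := NormedSpace.exp (t • Lm w)

variable {w f g : Cfg n → ℝ} {i j : Fin n} {J : Matrix (Fin n) (Fin n) ℝ} {h : Fin n → ℝ}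
  {Λ R η : ℝ}

lemma sp_sq (b : Bool) : sp b ^ 2 = 1 := by
  cases b <;> simp [sp]

lemma abs_sp (b : Bool) : |sp b| = 1 := by
  cases b <;> simp [sp]

@[simp] lemma up_same (b : Bool) (x : Cfg n) : up i b x i = b := by
  simp [up]

lemma up_ne (hij : j ≠ i) (b : Bool) (x : Cfg n) : up i b x j = x j := by
  simp [up, Function.update_of_ne hij]

@[simp] lemma up_up (b b' : Bool) (x : Cfg n) : up i b (up i b' x) = up i b x := by
  simp [up]

@[simp] lemma up_self (x : Cfg n) : up i (x i) x = x := by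
  simp [up]

lemma up_comm (hij : i ≠ j) (b b' : Bool) (x : Cfg n) :
    up i b (up j b' x) = up j b' (up i b x) := by
  unfold up
  exact Function.update_comm hij.symm _ _ _

lemma flip_invol_bas (i : Fin n) :
    Function.Involutive (fun x : Cfg n => up i (!(x i)) x) := by
  intro x
  simp

lemma up_pair_bas (F : Cfg n → ℝ) (x : Cfg n) :
    F (up i true x) + F (up i false x) = F x + F (up i (!(x i)) x) := by
  have hx : up i (x i) x = x := up_self x
  cases hb : x i
  · rw [hb] at hx
    simp [hx, add_comm]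
  · rw [hb] at hx
    simp [hx]

lemma sum_pair (i : Fin n) (F : Cfg n → ℝ) :
    ∑ x, F x = ∑ x, (F (up i true x) + F (up i false x)) / 2 := by
  have h1 : ∑ x, F (up i (!(x i)) x) = ∑ x, F x :=
    Equiv.sum_comp (flip_invol_bas i).toPerm F
  simp_rw [up_pair_bas F]
  rw [← Finset.sum_div, Finset.sum_add_distrib, h1]
  ring

lemma Pos.sum_pos (hw : Pos w) : 0 < ∑ x, w x := Finset.sum_pos (fun x _ => hw x) Finset.univ_nonempty

lemma Ex_const (hw : Pos w) (c : ℝ) : Ex w (fun _ => c) = c := by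
  unfold Ex
  rw [← Finset.sum_mul]
  field_simp [hw.sum_pos.ne']

lemma Ex_add : Ex w (fun x => f x + g x) = Ex w f + Ex w g := by
  unfold Ex
  simp_rw [mul_add]
  rw [Finset.sum_add_distrib, add_div]

lemma Ex_sub : Ex w (fun x => f x - g x) = Ex w f - Ex w g := by
  unfold Ex
  simp_rw [mul_sub]
  rw [Finset.sum_sub_distrib, sub_div]

lemma Ex_mul (c : ℝ) : Ex w (fun x => c * f x) = c * Ex w f := by
  unfold Ex
  rw [← mul_div_assoc, Finset.mul_sum]
  congr 1
  exact Finset.sum_congr rfl fun x _ => by ring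

lemma Ex_sum {ι : Type*} (s : Finset ι) (F : ι → Cfg n → ℝ) :
    Ex w (fun x => ∑ k ∈ s, F k x) = ∑ k ∈ s, Ex w (F k) := by
  unfold Ex
  simp_rw [Finset.mul_sum]
  rw [Finset.sum_comm, Finset.sum_div]

lemma Ex_mono (hw : Pos w) (hfg : ∀ x, f x ≤ g x) : Ex w f ≤ Ex w g := by
  unfold Ex
  exact div_le_div_of_nonneg_right
    (Finset.sum_le_sum fun x _ => mul_le_mul_of_nonneg_left (hfg x) (hw x).le) hw.sum_pos.le

lemma Ex_nonneg (hw : Pos w) (hf : ∀ x, 0 ≤ f x) : 0 ≤ Ex w f := 
  div_nonneg (Finset.sum_nonneg fun x _ => mul_nonneg (hw x).le (hf x)) hw.sum_pos.le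

lemma Ex_pos (hw : Pos w) (hf : Pos f) : 0 < Ex w f := 
  div_pos (Finset.sum_pos (fun x _ => mul_pos (hw x) (hf x)) Finset.univ_nonempty) hw.sum_pos

lemma Ex_eq_sum : Ex w f = ∑ x, w x / (∑ y, w y) * f x := by
  unfold Ex
  rw [Finset.sum_div]
  exact Finset.sum_congr rfl fun x _ => by ring

/-- Cauchy-Schwarz. -/
lemma Ex_cs (hw : Pos w) :
    Ex w (fun x => f x * g x) ^ 2 ≤ Ex w (fun x => f x ^ 2) * Ex w fun x => g x ^ 2 := by
  have hcs := Finset.sum_mul_sq_le_sq_mul_sq Finset.univ
    (fun x => √(w x) * f x) (fun x => √(w x) * g x)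
  have e1 : ∀ x, √(w x) * f x * (√(w x) * g x) = w x * (f x * g x) := fun x => by
    have := Real.mul_self_sqrt (hw x).le
    calc _ = (√(w x) * √(w x)) * (f x * g x) := by ring
      _ = _ := by rw [this]
  have e2 : ∀ (u : Cfg n → ℝ) x, (√(w x) * u x) ^ 2 = w x * u x ^ 2 := fun u x => by
    rw [mul_pow, Real.sq_sqrt (hw x).le]
  simp only [e1, e2] at hcs
  unfold Ex
  rw [div_pow, div_mul_div_comm, ← sq]
  exact div_le_div_of_nonneg_right hcs (sq_nonneg _)

lemma Var_eq (hw : Pos w) : Var w f = Ex w fun x => (f x - Ex w f) ^ 2 := by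
  have e : (fun x => (f x - Ex w f) ^ 2) =
      fun x => (f x ^ 2 + (-2 * Ex w f) * f x) + Ex w f ^ 2 := by
    funext x; ring
  rw [e, Ex_add, Ex_add, Ex_mul, Ex_const hw]
  unfold Var
  ring

lemma Ex_scale {c : ℝ} (hc : c ≠ 0) : Ex (fun x => c * w x) f = Ex w f := by
  unfold Ex
  simp_rw [mul_assoc]
  rw [← Finset.mul_sum, ← Finset.mul_sum, mul_div_mul_left _ _ hc]

lemma Qw_scale {c : ℝ} (hc : c ≠ 0) : Qw (fun x => c * w x) i f = Qw w i f := by
  funext x
  unfold Qw
  rw [mul_assoc, mul_assoc, ← mul_add, ← mul_add, mul_div_mul_left _ _ hc]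

lemma AT.scale {c C : ℝ} (hc : c ≠ 0) (hw : AT w C) : AT (fun x => c * w x) C := by
  intro f hf
  have := hw f hf
  unfold Ent DE at *
  simp only [Ex_scale hc, Qw_scale hc]
  exact this

lemma free_Qw : Free i (Qw w i f) := by
  intro b x
  simp [Qw]

lemma free_mw : Free i (mw w i) := by
  intro b x
  simp [mw]

lemma free_dd : Free i (dd i f) := by
  intro b x
  simp [dd]

lemma Free.dd_eq (hf : Free i f) (x : Cfg n) : dd i f x = 0 := by
  simp [dd, hf true x, hf false x]

lemma den_pos_bas (hw : Pos w) (x : Cfg n) : 0 < w (up i true x) + w (up i false x) :=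
  add_pos (hw _) (hw _)

lemma Free.Qw_eq (hw : Pos w) (hf : Free i f) : Qw w i f = f := by
  funext x
  unfold Qw
  rw [hf true x, hf false x]
  field_simp [(den_pos_bas (i := i) hw x).ne']

lemma dd_comm (hij : i ≠ j) : dd i (dd j f) = dd j (dd i f) := by
  funext x
  simp only [dd, up_comm hij]
  ring

/-- Decomposition of a function with respect to coordinate `i`. -/
lemma up_eq (b : Bool) (x : Cfg n) : f (up i b x) = f x + (sp b - sp (x i)) * dd i f x := by
  have hx : up i (x i) x = x := up_self x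
  unfold dd
  cases hb : x i <;> rw [hb] at hx <;> cases b <;> simp [sp, hx] <;> ring

lemma dd_sp (x : Cfg n) : dd i (fun y => sp (y j)) x = if i = j then 1 else 0 := by
  unfold dd
  split_ifs with hij
  · subst hij
    simp [sp]
  · simp [up_ne (Ne.symm hij)]

lemma mw_sq_lt (hw : Pos w) (x : Cfg n) : mw w i x ^ 2 < 1 := by
  unfold mw
  have h1 := hw (up i true x)
  have h2 := hw (up i false x)
  rw [div_pow, div_lt_one (by positivity)]
  nlinarith [mul_pos h1 h2]

lemma Qw_pos (hw : Pos w) (hf : Pos f) : Pos (Qw w i f) := fun x =>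
  div_pos (add_pos (mul_pos (hw _) (hf _)) (mul_pos (hw _) (hf _))) (den_pos_bas hw x)

lemma Q_eq (hw : Pos w) (x : Cfg n) : Qw w i f x = f x + (mw w i x - sp (x i)) * dd i f x := by
  have hd := (den_pos_bas (i := i) hw x).ne'
  unfold Qw mw
  rw [up_eq (f := f) true x, up_eq (f := f) false x]
  simp only [sp, if_true, Bool.false_eq_true, if_false]
  field_simp
  ring

lemma Lw_eq (hw : Pos w) (x : Cfg n) : Lw w f x = ∑ i, (mw w i x - sp (x i)) * dd i f x := by
  unfold Lw
  exact Finset.sum_congr rfl fun i _ => by rw [Q_eq hw]; ring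

lemma Ex_Q (hw : Pos w) (hg : Free i g) :
    Ex w (fun x => Qw w i f x * g x) = Ex w fun x => f x * g x := by
  unfold Ex
  congr 1
  rw [sum_pair i, sum_pair i (fun x => w x * (f x * g x))]
  refine Finset.sum_congr rfl fun x _ => ?_
  have hd := (den_pos_bas (i := i) hw x).ne'
  simp only [free_Qw true x, free_Qw false x, hg true x, hg false x]
  unfold Qw
  field_simp

lemma Ex_Q_one (hw : Pos w) : Ex w (Qw w i f) = Ex w f := by
  have := Ex_Q (i := i) (f := f) (g := fun _ => 1) hw (fun _ _ => rfl)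
  simpa using this

lemma Ex_Q_symm (hw : Pos w) :
    Ex w (fun x => Qw w i f x * g x) = Ex w fun x => f x * Qw w i g x := by
  have h1 := Ex_Q (i := i) (f := f) (g := Qw w i g) hw free_Qw
  have h2 := Ex_Q (i := i) (f := g) (g := Qw w i f) hw free_Qw
  rw [← h1]
  simp_rw [mul_comm (Qw w i f _)]
  exact h2.symm

lemma Ex_D_sq (hw : Pos w) (hg : Free i g) :
    Ex w (fun x => (mw w i x - sp (x i)) ^ 2 * g x) = Ex w fun x => (1 - mw w i x ^ 2) * g x := by
  unfold Ex
  congr 1
  rw [sum_pair i, sum_pair i (fun x => w x * ((1 - mw w i x ^ 2) * g x))]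
  refine Finset.sum_congr rfl fun x _ => ?_
  have hd := (den_pos_bas (i := i) hw x).ne'
  simp only [free_mw true x, free_mw false x, hg true x, hg false x, up_same, sp, if_true,
    Bool.false_eq_true, if_false]
  unfold mw
  field_simp
  ring

lemma Ex_D_one_bas (hw : Pos w) (hg : Free i g) :
    Ex w (fun x => (mw w i x - sp (x i)) * g x) = 0 := by
  unfold Ex
  rw [sum_pair i, div_eq_zero_iff]
  left
  refine Finset.sum_eq_zero fun x _ => ?_
  have hd := (den_pos_bas (i := i) hw x).ne'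
  simp only [free_mw true x, free_mw false x, hg true x, hg false x, up_same, sp, if_true,
    Bool.false_eq_true, if_false]
  unfold mw
  field_simp
  ring

lemma Ex_L (hw : Pos w) : Ex w (fun x => g x * Lw w f x) =
    -∑ i, Ex w fun x => (1 - mw w i x ^ 2) * (dd i g x * dd i f x) := by
  simp_rw [Lw_eq hw, Finset.mul_sum]
  rw [Ex_sum, ← Finset.sum_neg_distrib]
  refine Finset.sum_congr rfl fun i _ => ?_
  have hf1 : Free i fun x => dd i g x * dd i f x := fun b x => by
    simp only [free_dd b x]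
  have hf2 : Free i fun x => Qw w i g x * dd i f x := fun b x => by
    simp only [free_dd b x, free_Qw b x]
  rw [← Ex_D_sq hw hf1]
  have h0 := Ex_D_one_bas hw hf2
  have e : (fun x => g x * ((mw w i x - sp (x i)) * dd i f x)) = fun x =>
      (mw w i x - sp (x i)) * (Qw w i g x * dd i f x) -
        (mw w i x - sp (x i)) ^ 2 * (dd i g x * dd i f x) := by
    funext x
    rw [Q_eq hw]
    ring
  rw [e, Ex_sub, h0, zero_sub]

lemma Dir_eq (hw : Pos w) : Dir w f = -Ex w fun x => f x * Lw w f x := by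
  rw [Ex_L hw, neg_neg]
  unfold Dir
  simp_rw [sq (dd _ f _)]

lemma Dir_nonneg (hw : Pos w) : 0 ≤ Dir w f := 
  Finset.sum_nonneg fun _ _ => Ex_nonneg hw fun x =>
    mul_nonneg (sub_nonneg.2 (mw_sq_lt hw x).le) (sq_nonneg _)

lemma Dir_lin (hw : Pos w) (v : Fin n → ℝ) :
    Dir w (fun x => ∑ k, v k * sp (x k)) ≤ ∑ k, v k ^ 2 := by
  unfold Dir
  refine Finset.sum_le_sum fun k _ => ?_
  have hd : ∀ x, dd k (fun x : Cfg n => ∑ l, v l * sp (x l)) x = v k := fun x => by
    have e : dd k (fun x : Cfg n => ∑ l, v l * sp (x l)) x =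
        ∑ l, v l * dd k (fun y => sp (y l)) x := by
      unfold dd
      rw [← Finset.sum_sub_distrib, Finset.sum_div]
      exact Finset.sum_congr rfl fun l _ => by ring
    rw [e]
    simp [dd_sp]
  simp_rw [hd]
  calc _ ≤ Ex w (fun _ => v k ^ 2) := Ex_mono hw fun x => by
        nlinarith [mul_nonneg (sq_nonneg (mw w k x)) (sq_nonneg (v k))]
    _ = _ := Ex_const hw _

lemma Qm_mulVec (x : Cfg n) : (Qm w i).mulVec f x = Qw w i f x := by
  classical
  have hset : (Finset.univ.filter fun y : Cfg n => ∀ j, j ≠ i → y j = x j) =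
      {up i true x, up i false x} := by
    ext y
    simp only [Finset.mem_filter, Finset.mem_univ, true_and, Finset.mem_insert,
      Finset.mem_singleton]
    constructor
    · intro hy
      have e : y = up i (y i) x := by
        funext j
        by_cases hj : j = i
        · subst hj; simp
        · rw [up_ne hj, hy j hj]
      cases hb : y i
      · right; rw [hb] at e; exact e
      · left; rw [hb] at e; exact e
    · rintro (rfl | rfl) j hj <;> exact up_ne hj _ _
  have hne : up i true x ≠ up i false x := fun hh => by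
    have := congrFun hh i
    simp at this
  unfold Qm Qw
  simp only [Matrix.mulVec, dotProduct, Matrix.of_apply, ite_mul, zero_mul]
  rw [← Finset.sum_filter, hset, Finset.sum_pair hne]
  ring

lemma Lm_mulVec (x : Cfg n) : (Lm w).mulVec f x = Lw w f x := by
  unfold Lm Lw
  rw [Matrix.sum_mulVec, Finset.sum_apply]
  refine Finset.sum_congr rfl fun i _ => ?_
  rw [Matrix.sub_mulVec, Matrix.one_mulVec, Pi.sub_apply, Qm_mulVec]

lemma Wt_pos : Pos (Wt J h) := fun _ => Real.exp_pos _

lemma free_loc (hd : ∀ i, J i i = 0) : Free i (loc J h i) := by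
  intro b x
  unfold loc
  congr 1
  refine Finset.sum_congr rfl fun j _ => ?_
  by_cases hj : j = i
  · subst hj; simp [hd]
  · rw [up_ne hj]

lemma sp_up_bas (b : Bool) (x : Cfg n) (k : Fin n) :
    sp (up i b x k) = sp (x k) + if k = i then sp b - sp (x i) else 0 := by
  split_ifs with hk
  · subst hk; simp
  · rw [up_ne hk, add_zero]

lemma loc_up (hij : j ≠ i) (b : Bool) (x : Cfg n) :
    loc J h i (up j b x) = loc J h i x + J i j * (sp b - sp (x j)) := by
  have _ := hij
  unfold loc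
  simp_rw [sp_up_bas, mul_add, Finset.sum_add_distrib]
  simp [add_assoc]

lemma Wt_up (hs : ∀ i j, J i j = J j i) (hd : ∀ i, J i i = 0) (b : Bool) (x : Cfg n) :
    Wt J h (up i b x) = Wt J h x * exp ((sp b - sp (x i)) * loc J h i x) := by
  unfold Wt loc
  rw [← Real.exp_add]
  congr 1
  set d := sp b - sp (x i) with hdd
  have e : ∀ k l, J k l * sp (up i b x k) * sp (up i b x l) =
      J k l * sp (x k) * sp (x l) + (if l = i then J k l * sp (x k) * d else 0) +
        (if k = i then J k l * sp (x l) * d else 0) := fun k l => by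
    rw [sp_up_bas, sp_up_bas, ← hdd]
    by_cases hk : k = i <;> by_cases hl : l = i
    · subst hk; subst hl; simp [hd]
    · simp [hk, hl]; ring
    · simp [hk, hl]; ring
    · simp [hk, hl]
  simp_rw [e, sp_up_bas, ← hdd, mul_add, Finset.sum_add_distrib]
  have e3 : ∑ k, ∑ l, (if k = i then J k l * sp (x l) * d else 0) = ∑ l, J i l * sp (x l) * d := by
    rw [Finset.sum_comm]
    simp
  have e2 : ∑ k, ∑ l, (if l = i then J k l * sp (x k) * d else 0) = ∑ l, J i l * sp (x l) * d := by
    simp [hs _ i]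
  rw [e2, e3, ← Finset.sum_mul]
  simp only [mul_ite, mul_zero, Finset.sum_ite_eq', Finset.mem_univ, if_true]
  ring

lemma mw_Wt (hs : ∀ i j, J i j = J j i) (hd : ∀ i, J i i = 0) (x : Cfg n) :
    mw (Wt J h) i x = tanh (loc J h i x) := by
  unfold mw
  rw [Wt_up hs hd, Wt_up hs hd, Real.tanh_eq_sinh_div_cosh, Real.sinh_eq, Real.cosh_eq]
  set a := loc J h i x
  have e1 : exp ((sp true - sp (x i)) * a) = exp a * exp (-(sp (x i) * a)) := by
    rw [← Real.exp_add, show sp true = 1 from by simp [sp]]; congr 1; ring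
  have e2 : exp ((sp false - sp (x i)) * a) = exp (-a) * exp (-(sp (x i) * a)) := by
    rw [← Real.exp_add, show sp false = -1 from by simp [sp]]; congr 1; ring
  rw [e1, e2]
  have h1 : 0 < Wt J h x := Wt_pos x
  have h2 := Real.exp_pos a
  have h3 := Real.exp_pos (-a)
  have h4 := Real.exp_pos (-(sp (x i) * a))
  field_simp

lemma Wt_tilt (v : Fin n → ℝ) (x : Cfg n) :
    Wt J (h + v) x = Wt J h x * exp (∑ k, v k * sp (x k)) := by
  unfold Wt
  rw [← Real.exp_add]
  congr 1
  simp only [Pi.add_apply, add_mul, Finset.sum_add_distrib]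
  ring

lemma Good.smul (hJ : Good J Λ R η) {s : ℝ} (h0 : 0 ≤ s) (h1 : s ≤ 1) : Good (s • J) Λ R η := by
  refine ⟨fun i j => ?_, fun i => ?_, fun u => ?_, fun i => ?_, fun i j => ?_⟩
  · simp [hJ.symm i j]
  · simp [hJ.diag i]
  · have e : ∑ i, ∑ j, (s • J) i j * u i * u j = s * ∑ i, ∑ j, J i j * u i * u j := by
      simp only [Matrix.smul_apply, smul_eq_mul, Finset.mul_sum, mul_assoc]
    rw [e, abs_mul, abs_of_nonneg h0]
    exact (mul_le_of_le_one_left (abs_nonneg _) h1).trans (hJ.op u)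
  · refine le_trans (Finset.sum_le_sum fun j _ => ?_) (hJ.row i)
    simp only [Matrix.smul_apply, smul_eq_mul, mul_pow]
    exact mul_le_of_le_one_left (sq_nonneg _) (pow_le_one₀ h0 h1)
  · simp only [Matrix.smul_apply, smul_eq_mul, abs_mul, abs_of_nonneg h0]
    exact (mul_le_of_le_one_left (abs_nonneg _) h1).trans (hJ.ent i j)

/-- Polarization. -/
lemma Good.bil (hJ : Good J Λ R η) (a b : Fin n → ℝ) :
    2 * ∑ i, ∑ j, J i j * a i * b j ≤ Λ * (∑ i, a i ^ 2 + ∑ i, b i ^ 2) := by
  have h1 := (abs_le.1 (hJ.op fun i => a i + b i)).2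
  have h2 := (abs_le.1 (hJ.op fun i => a i - b i)).1
  have hsym : ∑ i, ∑ j, J i j * b i * a j = ∑ i, ∑ j, J i j * a i * b j := by
    rw [Finset.sum_comm]
    exact Finset.sum_congr rfl fun i _ => Finset.sum_congr rfl fun j _ => by
      rw [hJ.symm j i]; ring
  have e1 : ∑ i, ∑ j, J i j * (a i + b i) * (a j + b j) -
      ∑ i, ∑ j, J i j * (a i - b i) * (a j - b j) =
      2 * ∑ i, ∑ j, J i j * a i * b j + 2 * ∑ i, ∑ j, J i j * b i * a j := by
    simp only [Finset.mul_sum, ← Finset.sum_sub_distrib, ← Finset.sum_add_distrib]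
    exact Finset.sum_congr rfl fun i _ => Finset.sum_congr rfl fun j _ => by ring
  have e2 : ∑ i, (a i + b i) ^ 2 + ∑ i, (a i - b i) ^ 2 = 2 * (∑ i, a i ^ 2 + ∑ i, b i ^ 2) := by
    simp only [Finset.mul_sum, ← Finset.sum_add_distrib]
    exact Finset.sum_congr rfl fun i _ => by ring
  have e3 : Λ * ∑ i, (a i + b i) ^ 2 + Λ * ∑ i, (a i - b i) ^ 2 =
      2 * (Λ * (∑ i, a i ^ 2 + ∑ i, b i ^ 2)) := by
    rw [← mul_add, e2]; ring
  linarith

end Vale.Agent.P150
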