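import Mathlib

/-! Definitions used in the statement on Glauber dynamics for the Sherrington-Kirkpatrick model. -/

namespace Vale.Agent.P150

open MeasureTheory ProbabilityTheory Finset

/-- Spin configurations. -/
abbrev Cfg (n : ℕ) : Type := Fin n → Bool

/-- Pairs `i < j`. -/
abbrev Pairs (n : ℕ) : Type := {p : Fin n × Fin n // p.1 < p.2}

/-- The spin value `+1` or `-1`. -/
def sp (b : Bool) : ℝ := if b then 1 else -1

/-- The law of the disorder: i.i.d. standard Gaussians. -/
noncomputable def disorder (n : ℕ) : Measure (Pairs n → ℝ) := Measure.pi fun _ => gaussianReal 0 1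

variable {n : ℕ}

/-- The symmetric extension of the disorder. -/
def gsym (g : Pairs n → ℝ) (i j : Fin n) : ℝ :=
  if h : i < j then g ⟨(i, j), h⟩ else if h : j < i then g ⟨(j, i), h⟩ else 0

/-- The Boltzmann weight. -/
noncomputable def wt (β : ℝ) (g : Pairs n → ℝ) (x : Cfg n) : ℝ :=
  Real.exp (β / √n * ∑ p : Pairs n, g p * sp (x p.1.1) * sp (x p.1.2))

/-- The Gibbs measure. -/
noncomputable def gibbs (β : ℝ) (g : Pairs n → ℝ) (x : Cfg n) : ℝ := wt β g x / ∑ y, wt β g y

/-- The local field at site `i`. -/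
noncomputable def field (β : ℝ) (g : Pairs n → ℝ) (x : Cfg n) (i : Fin n) : ℝ :=
  β / √n * ∑ j ∈ univ.erase i, gsym g i j * sp (x j)

/-- The heat-bath update at site `i`, as a transition matrix. -/
noncomputable def heat (β : ℝ) (g : Pairs n → ℝ) (i : Fin n) : Matrix (Cfg n) (Cfg n) ℝ :=
  Matrix.of fun x y => if ∀ j, j ≠ i → y j = x j then
    Real.exp (sp (y i) * field β g x i) / (2 * Real.cosh (field β g x i)) else 0

/-- The generator of Glauber dynamics. -/
noncomputable def gen (β : ℝ) (g : Pairs n → ℝ) : Matrix (Cfg n) (Cfg n) ℝ :=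
  ∑ i, (heat β g i - 1)

/-- Total variation distance to equilibrium at time `t` from the start `x`. -/
noncomputable def tv (β : ℝ) (g : Pairs n → ℝ) (t : ℝ) (x : Cfg n) : ℝ :=
  1 / 2 * ∑ y, |NormedSpace.exp (t • gen β g) x y - gibbs β g y|

/-- The mixing time. -/
noncomputable def tmix (β : ℝ) (g : Pairs n → ℝ) : ℝ :=
  sInf {t | 0 ≤ t ∧ ∀ x, tv β g t x ≤ 1 / 4}

/-- The spectral gap of minus the generator on `L²` of the Gibbs measure. -/
noncomputable def gap (β : ℝ) (g : Pairs n → ℝ) : ℝ :=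
  sInf {r | ∃ f : Cfg n → ℝ, ∑ x, gibbs β g x * f x = 0 ∧ ∑ x, gibbs β g x * f x ^ 2 = 1 ∧
    r = ∑ x, gibbs β g x * (f x * -(gen β g).mulVec f x)}

end Vale.Agent.P150
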