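import Vale.Agent.P150.GOE
import Vale.Agent.P150.Basic

/-! The disorder is good with high probability.
`op_tail`: the map `T M = fun p => (M (i,j) + M (j,i)) / √2` from `Fin n × Fin n → ℝ` to `Pairs n → ℝ` has orthonormal rows
(`map_gam`; also `-T`), and `∑ i j, gsym (T M) i j u i u j = √2 ∑ i j, M (i,j) u i u j - √2 ∑ i, M (i,i) u i²`.
Use `goe` with `e = 0`, `ρ = √((1+δ) n)`, `ε = δ √n`, `p = 2 exp (-δ² n / 4) + exp (-δ² n / 8)` (`gauss_tail`, `chi_tail`), and a
union bound for `√2 |M (i,i)| ≤ δ √n`.  The events are open sets, hence measurable.  `2 √(1+δ) + 2 δ ≤ 2 + 3 δ`.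
`row_tail`: `∑ j, gsym g i j ²` is the sum of `g p ²` over the pairs `p` containing `i` (at most `n` of them, or bound it by
two sums); `chi_tail` with `δ = 1`.  `ent_tail`: `gauss_tail` and a union bound.
`good_whp`: `Λ = β (2 + 3 δ)`, `R = 2 β²`; all bounds are of the form `n^k exp (-c n) → 0`. -/

namespace Vale.Agent.P150

open MeasureTheory Finset Real Filter

variable {n : ℕ}

/-- The interaction matrix of the SK model. -/
noncomputable def Jm (β : ℝ) (g : Pairs n → ℝ) : Matrix (Fin n) (Fin n) ℝ :=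
  Matrix.of fun i j => β / √n * gsym g i j

lemma gsym_symm (g : Pairs n → ℝ) (i j : Fin n) : gsym g i j = gsym g j i := by
  unfold gsym
  rcases lt_trichotomy i j with h | h | h
  · rw [dif_pos h, dif_neg (not_lt.2 h.le), dif_pos h]
  · subst h; rfl
  · rw [dif_neg (not_lt.2 h.le), dif_pos h, dif_pos h]

lemma gsym_diag (g : Pairs n → ℝ) (i : Fin n) : gsym g i i = 0 := by
  unfold gsym
  rw [dif_neg (lt_irrefl i), dif_neg (lt_irrefl i)]

lemma gsym_pair_dis (g : Pairs n → ℝ) (p : Pairs n) : gsym g p.1.1 p.1.2 = g p := by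
  unfold gsym
  rw [dif_pos p.2]

lemma sum_pairs_dis (G : Fin n → Fin n → ℝ) :
    ∑ p : Pairs n, G p.1.1 p.1.2 = ∑ i, ∑ j, if i < j then G i j else 0 := by
  rw [← sum_subtype (univ.filter fun q : Fin n × Fin n => q.1 < q.2) (by simp)
    (fun q => G q.1 q.2), sum_filter, Fintype.sum_prod_type]

lemma sum_split_dis (F : Fin n → Fin n → ℝ) :
    ∑ i, ∑ j, F i j = ∑ i, F i i + ∑ p : Pairs n, (F p.1.1 p.1.2 + F p.1.2 p.1.1) := by
  rw [sum_add_distrib, sum_pairs_dis F, sum_pairs_dis (fun i j => F j i),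
    sum_comm (f := fun i j => if i < j then F j i else 0), ← sum_add_distrib, ← sum_add_distrib]
  refine sum_congr rfl fun i _ => ?_
  have : F i i = ∑ j, if i = j then F i j else 0 := by simp
  rw [this, ← sum_add_distrib, ← sum_add_distrib]
  refine sum_congr rfl fun j _ => ?_
  rcases lt_trichotomy i j with h | h | h
  · rw [if_neg h.ne, if_pos h, if_neg (not_lt.2 h.le)]; ring
  · rw [if_pos h, if_neg (not_lt.2 h.ge), if_neg (not_lt.2 h.le)]; ring
  · rw [if_neg h.ne', if_neg (not_lt.2 h.le), if_pos h]; ring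

lemma sum_gsym (g : Pairs n → ℝ) (u : Fin n → ℝ) :
    ∑ i, ∑ j, gsym g i j * u i * u j = 2 * ∑ p : Pairs n, g p * u p.1.1 * u p.1.2 := by
  rw [sum_split_dis fun i j => gsym g i j * u i * u j, mul_sum]
  simp only [gsym_diag, zero_mul, sum_const_zero, zero_add]
  refine sum_congr rfl fun p _ => ?_
  rw [gsym_symm g p.1.2 p.1.1, gsym_pair_dis]
  ring

/-- The symmetrization map. -/
noncomputable def symDis (n : ℕ) (s : ℝ) : Matrix (Pairs n) (Fin n × Fin n) ℝ :=
  Matrix.of fun p => Pi.single p.1 (s * (√2)⁻¹) + Pi.single (p.1.2, p.1.1) (s * (√2)⁻¹)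

lemma sym_mulVec_dis (s : ℝ) (M : Fin n × Fin n → ℝ) (p : Pairs n) :
    (symDis n s).mulVec M p = s * (√2)⁻¹ * (M (p.1.1, p.1.2) + M (p.1.2, p.1.1)) := by
  change dotProduct (Pi.single p.1 (s * (√2)⁻¹) + Pi.single (p.1.2, p.1.1) (s * (√2)⁻¹) : _ → ℝ)
    M = _
  rw [add_dotProduct, single_dotProduct, single_dotProduct, mul_add]

lemma sym_orth_dis {s : ℝ} (hs : s * s = 1) : symDis n s * (symDis n s).transpose = 1 := by
  ext p q
  have h0 : (symDis n s * (symDis n s).transpose) p q = (symDis n s).mulVec (symDis n s q) p := rfl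
  have h22 : (√2 : ℝ) * √2 = 2 := mul_self_sqrt (by norm_num)
  have h3 : (√2 : ℝ) ≠ 0 := by positivity
  have h2 : s * (√2)⁻¹ * (s * (√2)⁻¹ + s * (√2)⁻¹) = (1 : ℝ) := by
    field_simp
    nlinarith
  rw [h0, sym_mulVec_dis]
  obtain ⟨⟨i, j⟩, hij⟩ := p
  obtain ⟨⟨k, l⟩, hkl⟩ := q
  simp only at hij hkl
  have e1 : ((i, j) : Fin n × Fin n) ≠ (l, k) := by
    intro h
    obtain ⟨rfl, rfl⟩ := Prod.mk.inj h
    exact lt_asymm hij hkl
  have e2 : ((j, i) : Fin n × Fin n) ≠ (k, l) := by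
    intro h
    obtain ⟨rfl, rfl⟩ := Prod.mk.inj h
    exact lt_asymm hij hkl
  simp only [symDis, Matrix.of_apply, Pi.add_apply, Pi.single_eq_of_ne e1, Pi.single_eq_of_ne e2,
    add_zero, zero_add]
  by_cases h : ((i, j) : Fin n × Fin n) = (k, l)
  · obtain ⟨rfl, rfl⟩ := Prod.mk.inj h
    rw [Pi.single_eq_same, Pi.single_eq_same, Matrix.one_apply_eq]
    exact h2
  · have e3 : ((j, i) : Fin n × Fin n) ≠ (l, k) := by
      intro h'
      obtain ⟨rfl, rfl⟩ := Prod.mk.inj h'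
      exact h rfl
    rw [Pi.single_eq_of_ne h, Pi.single_eq_of_ne e3,
      Matrix.one_apply_ne fun h' => h (congrArg Subtype.val h')]
    ring

lemma sym_form_dis {s : ℝ} (hs : s * s = 1) (M : Fin n × Fin n → ℝ) (u : Fin n → ℝ) :
    s * ∑ i, ∑ j, gsym ((symDis n s).mulVec M) i j * u i * u j =
      √2 * ∑ i, ∑ j, M (i, j) * u i * u j - √2 * ∑ i, M (i, i) * u i ^ 2 := by
  have h22 : (√2 : ℝ) * √2 = 2 := mul_self_sqrt (by norm_num)
  have h3 : (√2 : ℝ) ≠ 0 := by positivity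
  have h5 : (√2 : ℝ)⁻¹ * 2 = √2 := by field_simp; nlinarith
  rw [sum_gsym, sum_split_dis fun i j => M (i, j) * u i * u j]
  have e1 : ∑ i, M (i, i) * u i * u i = ∑ i, M (i, i) * u i ^ 2 :=
    sum_congr rfl fun i _ => by ring
  rw [e1, mul_add, add_sub_cancel_left, mul_sum, mul_sum, mul_sum]
  refine sum_congr rfl fun p _ => ?_
  rw [sym_mulVec_dis]
  linear_combination
    ((√2)⁻¹ * 2 * (M (p.1.1, p.1.2) + M (p.1.2, p.1.1)) * u p.1.1 * u p.1.2) * hs +
    ((M (p.1.1, p.1.2) + M (p.1.2, p.1.1)) * u p.1.1 * u p.1.2) * h5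

lemma tail_dis {ι : Type} [Fintype ι] (l : ι) {δ : ℝ} (h0 : 0 < δ) (n : ℕ) :
    (gam ι).real {y | δ * √n < √2 * |y l|} ≤ 2 * exp (-δ ^ 2 * n / 8) := by
  have h22 : (√2 : ℝ) ^ 2 = 2 := sq_sqrt (by norm_num)
  have h3 : (0 : ℝ) < √2 := by positivity
  have h1 := gauss_tail (ι := ι) l (t := δ * √n / √2) (by positivity)
  have h2 : {y : ι → ℝ | δ * √n < √2 * |y l|} = {y | δ * √n / √2 < |y l|} := by
    ext y
    simp only [Set.mem_ofPred_eq]
    rw [div_lt_iff₀ h3, mul_comm (√2)]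
  rw [h2]
  refine h1.trans (mul_le_mul_of_nonneg_left (exp_le_exp.2 ?_) (by norm_num))
  rw [div_pow, mul_pow, h22, sq_sqrt (Nat.cast_nonneg n)]
  have : 0 ≤ δ ^ 2 * n := by positivity
  linarith

lemma op_half_dis {δ s : ℝ} (h0 : 0 < δ) (h1 : δ ≤ 1) (hs : s * s = 1) (hn : 0 < n) :
    (gam (Pairs n)).real {g | ∃ u : Fin n → ℝ,
      (2 + 3 * δ) * √n * ∑ i, u i ^ 2 < s * ∑ i, ∑ j, gsym g i j * u i * u j} ≤
      5 * n * exp (-δ ^ 2 * n / 8) := by
  have hn' : (0 : ℝ) < n := by exact_mod_cast hn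
  have hopen : IsOpen {g : Pairs n → ℝ | ∃ u : Fin n → ℝ,
      (2 + 3 * δ) * √n * ∑ i, u i ^ 2 < s * ∑ i, ∑ j, gsym g i j * u i * u j} := by
    simp only [sum_gsym, Set.ofPred_exists]
    exact isOpen_iUnion fun u => isOpen_lt (by fun_prop) (by fun_prop)
  rw [← (map_gam _ (sym_orth_dis hs)).measureReal_preimage hopen.measurableSet.nullMeasurableSet]
  set ρ := √((1 + δ) * n) with hρ
  have hρ0 : 0 < ρ := sqrt_pos.2 (by positivity)
  have hρ2 : ρ ^ 2 = (1 + δ) * n := sq_sqrt (by positivity)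
  have hρ1 : ρ ≤ (1 + δ / 2) * √n := by
    refine abs_le_of_sq_le_sq' ?_ (by positivity) |>.2
    rw [hρ2, mul_pow, sq_sqrt hn'.le]
    nlinarith [mul_nonneg (sq_nonneg δ) hn'.le]
  have hG := goe (ρ := ρ) (ε := δ * √n) (p := 3 * exp (-δ ^ 2 * n / 8)) hρ0 (by positivity) n
    (fun m hm => by
      have c1 := tail_dis (ι := Unit ⊕ Fin m) (.inl ()) h0 n
      have c2 := chi_tail (ι := Unit ⊕ Fin m) (N := n) h0 h1
        (univ.map Function.Embedding.inr) (by simpa using hm)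
      refine (measureReal_mono (s₂ := _ ∪ _) ?_).trans
        ((measureReal_union_le _ _).trans ((add_le_add c1 c2).trans (le_of_eq (by ring))))
      rintro y (hy | hy)
      · exact Or.inl (hy.trans_le (mul_le_mul_of_nonneg_left (le_abs_self _) (by positivity)))
      · refine Or.inr ?_
        rw [hρ2] at hy
        simpa using hy)
    le_rfl 0 (by simp)
  have hD : (gam (Fin n × Fin n)).real (⋃ i : Fin n, {M | δ * √n < √2 * |M (i, i)|}) ≤
      n * (2 * exp (-δ ^ 2 * n / 8)) := by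
    refine (measureReal_iUnion_fintype_le _).trans
      ((sum_le_sum fun i _ => tail_dis (i, i) h0 n).trans (le_of_eq ?_))
    simp
  refine (measureReal_mono (s₂ := _ ∪ _) ?_).trans
    ((measureReal_union_le _ _).trans ((add_le_add hG hD).trans (le_of_eq (by ring))))
  rintro M ⟨u, hu⟩
  rw [sym_form_dis hs] at hu
  by_cases hM : ∃ i, δ * √n < √2 * |M (i, i)|
  · exact Or.inr (Set.mem_iUnion.2 hM)
  · push Not at hM
    refine Or.inl ⟨u, ?_⟩
    have hS : 0 ≤ ∑ i, u i ^ 2 := sum_nonneg fun _ _ => sq_nonneg _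
    have c3 : -(√2 * ∑ i, M (i, i) * u i ^ 2) ≤ δ * √n * ∑ i, u i ^ 2 := by
      rw [mul_sum, mul_sum, ← sum_neg_distrib]
      refine sum_le_sum fun i _ => ?_
      have c4 := mul_le_mul_of_nonneg_right (hM i) (sq_nonneg (u i))
      have c5 : √2 * -M (i, i) ≤ √2 * |M (i, i)| :=
        mul_le_mul_of_nonneg_left (neg_le_abs _) (by positivity)
      have c6 := mul_le_mul_of_nonneg_right c5 (sq_nonneg (u i))
      linarith
    have c7 := mul_le_mul_of_nonneg_right hρ1 hS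
    simp only [Pi.zero_apply, mul_zero, sum_const_zero]
    nlinarith

lemma op_tail {δ : ℝ} (h0 : 0 < δ) (h1 : δ ≤ 1) :
    (disorder n).real {g | ∃ u : Fin n → ℝ,
      (2 + 3 * δ) * √n * ∑ i, u i ^ 2 < |∑ i, ∑ j, gsym g i j * u i * u j|} ≤
      10 * n * exp (-δ ^ 2 * n / 8) := by
  rcases Nat.eq_zero_or_pos n with rfl | hn
  · simp
  have c1 := op_half_dis (s := 1) h0 h1 (by norm_num) hn
  have c2 := op_half_dis (s := -1) h0 h1 (by norm_num) hn
  change (gam (Pairs n)).real _ ≤ _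
  refine (measureReal_mono (s₂ := _ ∪ _) ?_).trans
    ((measureReal_union_le _ _).trans ((add_le_add c1 c2).trans (le_of_eq (by ring))))
  rintro g ⟨u, hu⟩
  rcases lt_abs.1 hu with h | h
  · exact Or.inl ⟨u, by linarith⟩
  · exact Or.inr ⟨u, by linarith⟩

lemma row_eq_dis (g : Pairs n → ℝ) (i : Fin n) : ∑ j, gsym g i j ^ 2 =
    ∑ p ∈ univ.filter (fun p : Pairs n => p.1.1 = i ∨ p.1.2 = i), g p ^ 2 := by
  have h1 : ∑ j, gsym g i j ^ 2 = ∑ k, ∑ j, if k = i then gsym g k j ^ 2 else 0 := by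
    rw [sum_comm]; simp
  rw [h1, sum_split_dis fun k j => if k = i then gsym g k j ^ 2 else 0, sum_filter]
  simp only [gsym_diag, ne_eq, OfNat.ofNat_ne_zero, not_false_eq_true, zero_pow, ite_self,
    sum_const_zero, zero_add]
  refine sum_congr rfl fun p _ => ?_
  rw [gsym_symm g p.1.2 p.1.1, gsym_pair_dis]
  have h2 := p.2.ne
  by_cases c1 : p.1.1 = i
  · rw [if_pos c1, if_neg (fun h => h2 (c1.trans h.symm)), if_pos (Or.inl c1), add_zero]
  · by_cases c2 : p.1.2 = i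
    · rw [if_neg c1, if_pos c2, if_pos (Or.inr c2), zero_add]
    · rw [if_neg c1, if_neg c2, if_neg (not_or.2 ⟨c1, c2⟩), add_zero]

lemma row_card_dis (i : Fin n) :
    ((univ.filter (fun p : Pairs n => p.1.1 = i ∨ p.1.2 = i)).card : ℝ) ≤ n := by
  have h1 := row_eq_dis (fun _ => 1) i
  simp only [one_pow, sum_const, nsmul_eq_mul, mul_one] at h1
  rw [← h1]
  calc _ ≤ ∑ _j : Fin n, (1 : ℝ) := by
        refine sum_le_sum fun j _ => ?_
        unfold gsym
        split_ifs <;> norm_num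
    _ = n := by simp

lemma row_tail : (disorder n).real {g | ∃ i, 2 * (n : ℝ) < ∑ j, gsym g i j ^ 2} ≤
    n * exp (-(n : ℝ) / 8) := by
  change (gam (Pairs n)).real _ ≤ _
  rw [Set.ofPred_exists]
  refine (measureReal_iUnion_fintype_le _).trans
    ((sum_le_sum (g := fun _ => exp (-(n : ℝ) / 8)) fun i _ => ?_).trans (le_of_eq (by simp)))
  have h := chi_tail (ι := Pairs n) (δ := 1) (N := n) one_pos le_rfl _ (row_card_dis i)
  simp only [row_eq_dis]
  norm_num at h ⊢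
  exact h

lemma ent_tail {t : ℝ} (ht : 0 ≤ t) : (disorder n).real {g | ∃ i j, t < |gsym g i j|} ≤
    2 * n ^ 2 * exp (-t ^ 2 / 2) := by
  change (gam (Pairs n)).real _ ≤ _
  have h1 : (gam (Pairs n)).real (⋃ p : Pairs n, {g | t < |g p|}) ≤
      Fintype.card (Pairs n) * (2 * exp (-t ^ 2 / 2)) := by
    refine (measureReal_iUnion_fintype_le _).trans
      ((sum_le_sum fun p _ => gauss_tail p ht).trans (le_of_eq ?_))
    simp
  have h2 : (Fintype.card (Pairs n) : ℝ) ≤ n ^ 2 := by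
    have := Fintype.card_subtype_le fun p : Fin n × Fin n => p.1 < p.2
    rw [Fintype.card_prod, Fintype.card_fin, ← sq] at this
    exact_mod_cast this
  refine (measureReal_mono ?_).trans (h1.trans
    ((mul_le_mul_of_nonneg_right h2 (by positivity)).trans (le_of_eq (by ring))))
  rintro g ⟨i, j, h⟩
  unfold gsym at h
  split_ifs at h with c1 c2
  · exact Set.mem_iUnion.2 ⟨_, h⟩
  · exact Set.mem_iUnion.2 ⟨_, h⟩
  · rw [abs_zero] at h; exact absurd h (not_lt.2 ht)

lemma lim_dis (k : ℕ) {c : ℝ} (hc : 0 < c) :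
    Tendsto (fun n : ℕ => (n : ℝ) ^ k * exp (-(c * n))) atTop (nhds 0) := by
  have h1 : Tendsto (fun n : ℕ => c * (n : ℝ)) atTop atTop :=
    tendsto_natCast_atTop_atTop.const_mul_atTop hc
  have h2 := ((tendsto_pow_mul_exp_neg_atTop_nhds_zero k).comp h1).const_mul (c ^ k)⁻¹
  rw [mul_zero] at h2
  refine h2.congr fun n => ?_
  simp only [Function.comp, mul_pow]
  field_simp

lemma good_of_dis {β δ c : ℝ} (hβ : 0 ≤ β) (hn : 0 < n) (g : Pairs n → ℝ)
    (h1 : ∀ u : Fin n → ℝ,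
      |∑ i, ∑ j, gsym g i j * u i * u j| ≤ (2 + 3 * δ) * √n * ∑ i, u i ^ 2)
    (h2 : ∀ i, ∑ j, gsym g i j ^ 2 ≤ 2 * (n : ℝ)) (h3 : ∀ i j, |gsym g i j| ≤ c * √n) :
    Good (Jm β g) (β * (2 + 3 * δ)) (2 * β ^ 2) (β * c) := by
  have hn' : (0 : ℝ) < n := by exact_mod_cast hn
  have hs : (0 : ℝ) < √n := sqrt_pos.2 hn'
  have hb : 0 ≤ β / √n := by positivity
  refine ⟨fun i j => ?_, fun i => ?_, fun u => ?_, fun i => ?_, fun i j => ?_⟩
  · simp only [Jm, Matrix.of_apply, gsym_symm g i j]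
  · simp only [Jm, Matrix.of_apply, gsym_diag, mul_zero]
  · have e1 : ∑ i, ∑ j, Jm β g i j * u i * u j = β / √n * ∑ i, ∑ j, gsym g i j * u i * u j := by
      simp only [Jm, Matrix.of_apply, mul_sum, mul_assoc]
    rw [e1, abs_mul, abs_of_nonneg hb]
    refine (mul_le_mul_of_nonneg_left (h1 u) hb).trans (le_of_eq ?_)
    field_simp
  · have e1 : ∑ j, Jm β g i j ^ 2 = β ^ 2 / n * ∑ j, gsym g i j ^ 2 := by
      simp only [Jm, Matrix.of_apply, mul_sum, mul_pow, div_pow, sq_sqrt hn'.le]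
    rw [e1]
    refine (mul_le_mul_of_nonneg_left (h2 i) (by positivity)).trans (le_of_eq ?_)
    field_simp
  · simp only [Jm, Matrix.of_apply]
    rw [abs_mul, abs_of_nonneg hb]
    refine (mul_le_mul_of_nonneg_left (h3 i j) hb).trans (le_of_eq ?_)
    field_simp

theorem good_whp {β δ η : ℝ} (hβ : 0 ≤ β) (h0 : 0 < δ) (h1 : δ ≤ 1) (hη : 0 < η) :
    Tendsto (fun n => disorder n {g | ¬ Good (Jm β g) (β * (2 + 3 * δ)) (2 * β ^ 2) η}) atTop
      (nhds 0) := by
  set c := η / (β + 1) with hc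
  have hc0 : 0 < c := by positivity
  have hβc : β * c ≤ η := by
    rw [hc, ← mul_div_assoc, div_le_iff₀ (by positivity)]
    nlinarith
  have l1 := (lim_dis 1 (c := δ ^ 2 / 8) (by positivity)).const_mul 10
  have l2 := lim_dis 1 (c := 1 / 8) (by positivity)
  have l3 := (lim_dis 2 (c := c ^ 2 / 2) (by positivity)).const_mul 2
  have l4 := ENNReal.tendsto_ofReal ((l1.add l2).add l3)
  simp only [mul_zero, add_zero, ENNReal.ofReal_zero] at l4
  refine tendsto_of_tendsto_of_tendsto_of_le_of_le' tendsto_const_nhds l4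
    (Eventually.of_forall fun _ => zero_le) ?_
  filter_upwards [eventually_gt_atTop 0] with n hn
  have hP : IsProbabilityMeasure (disorder n) := by unfold disorder; infer_instance
  rw [← ofReal_measureReal]
  refine ENNReal.ofReal_le_ofReal ?_
  have c1 := op_tail (n := n) h0 h1
  have c2 := row_tail (n := n)
  have c3 := ent_tail (n := n) (t := c * √n) (by positivity)
  refine (measureReal_mono (s₂ := (_ ∪ _) ∪ _) ?_).trans ((measureReal_union_le _ _).trans
    ((add_le_add ((measureReal_union_le _ _).trans (add_le_add c1 c2)) c3).trans (le_of_eq ?_)))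
  · intro g hg
    by_contra hcon
    simp only [Set.mem_union, Set.mem_ofPred_eq, not_or, not_exists, not_lt] at hcon
    have hG := good_of_dis hβ hn g hcon.1.1 hcon.1.2 hcon.2
    exact hg ⟨hG.symm, hG.diag, hG.op, hG.row, fun i j => (hG.ent i j).trans hβc⟩
  · have e1 : -δ ^ 2 * n / 8 = -(δ ^ 2 / 8 * n) := by ring
    have e2 : -(n : ℝ) / 8 = -(1 / 8 * n) := by ring
    have e3 : -(c * √n) ^ 2 / 2 = -(c ^ 2 / 2 * n) := by
      rw [mul_pow, sq_sqrt (Nat.cast_nonneg n)]; ring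
    rw [e1, e2, e3]; ring

end Vale.Agent.P150
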