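import Vale.Agent.P150.Gauss

/-! The sharp norm bound for Gaussian matrices by a tridiagonalization-type recursion.
Induction on `n`, for all `e`.  `n = 0`: `Bad` is empty.  Step: replace `e` by a unit vector `e'` with
`⟨u, e⟩² ≤ ⟨u, e'⟩²` (`e / |e|`, or any unit vector if `e = 0`).  Let `O = 1 - 2 v vᵀ / |v|²`, `v = e' - e₀`
(Householder; `O = 1` if `v = 0`), symmetric orthogonal with `O e' = e₀`.  The map `M ↦ O M Oᵀ` is given by the
orthogonal matrix `O ⊗ O` on pairs (`Matrix.kroneckerMap`, `map_gam`) and pulls `Bad e₀` back to `Bad e'`.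
For `e₀`: the linear map `M ↦ (a, g, M')`, `a = M 0 0`, `g j = (M 0 (j+1) + M (j+1) 0) / √2`, `M' i j = M (i+1) (j+1)`, has
orthonormal rows, with target index `(Unit ⊕ Fin n) ⊕ (Fin n × Fin n)`; split the target measure as a product
(`measurePreserving_sumPiEquivProdPi`).  If `√2 a ≤ ε`, `∑ g² ≤ ρ²` and `M' ∉ Bad (g / ρ)` then `M ∉ Bad e₀`, because
for `u = (r, w)`: `√2 Q(u) = √2 a r² + 2 r ⟨g, w⟩ + √2 Q'(w)` and `2 r ⟨g, w⟩ ≤ ρ r² + ⟨g, w⟩² / ρ`.
The set `{(g, M') | M' ∈ Bad (g / ρ)}` is open, hence measurable; use `Measure.prod_apply` and the induction hypothesis. -/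

namespace Vale.Agent.P150

open MeasureTheory Finset Real

/-- The bad event in the recursion. -/
def Bad (n : ℕ) (ρ ε : ℝ) (e : Fin n → ℝ) : Set (Fin n × Fin n → ℝ) :=
  {M | ∃ u : Fin n → ℝ, (2 * ρ + ε) * ∑ i, u i ^ 2 <
    √2 * ∑ i, ∑ j, M (i, j) * u i * u j + ρ * (∑ i, u i * e i) ^ 2}

set_option linter.unusedSimpArgs false

section aux_goe

open Matrix

/-- A symmetric orthogonal matrix sending `e` to a multiple of the first basis vector. -/
lemma house_goe {n : ℕ} (e : Fin (n + 1) → ℝ) (he : ∑ i, e i ^ 2 ≤ 1) :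
    ∃ O : Matrix (Fin (n + 1)) (Fin (n + 1)) ℝ, Oᵀ = O ∧ O * O = 1 ∧
      ∀ u : Fin (n + 1) → ℝ, (∑ i, u i * e i) ^ 2 ≤ (O *ᵥ u) 0 ^ 2 := by
  set s := √(∑ i, e i ^ 2) with hs
  have hs0 : 0 ≤ s := sqrt_nonneg _
  have hs2 : s ^ 2 = ∑ i, e i ^ 2 := sq_sqrt (sum_nonneg fun _ _ => sq_nonneg _)
  set v : Fin (n + 1) → ℝ := e - Pi.single 0 s with hv
  set c := 2 / (v ⬝ᵥ v) with hc
  have hee : e ⬝ᵥ e = s ^ 2 := by
    rw [hs2]; exact sum_congr rfl fun i _ => (sq _).symm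
  have hvv : v ⬝ᵥ v = 2 * (v ⬝ᵥ e) := by
    simp only [hv, sub_dotProduct, dotProduct_sub, single_dotProduct, dotProduct_single,
      Pi.single_eq_same, Pi.sub_apply, hee]
    ring
  have hcc : c * (c * (v ⬝ᵥ v)) = 2 * c := by
    by_cases h0 : v ⬝ᵥ v = 0
    · rw [hc, h0]; simp
    · rw [hc]; field_simp
  have hOe : (1 - c • vecMulVec v v) *ᵥ e = Pi.single 0 s := by
    rw [sub_mulVec, one_mulVec, smul_mulVec, vecMulVec_mulVec]
    by_cases h0 : v ⬝ᵥ v = 0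
    · have hv0 : v = 0 := dotProduct_self_eq_zero.1 h0
      have : e = Pi.single 0 s := sub_eq_zero.1 (hv.symm.trans hv0)
      rw [hv0]; simpa using this
    · have h1 : c * (v ⬝ᵥ e) = 1 := by
        rw [hc]; field_simp; rw [hvv]
      ext i
      simp only [Pi.sub_apply, Pi.smul_apply, smul_eq_mul, MulOpposite.smul_eq_mul_unop,
        MulOpposite.unop_op]
      have : c * (v i * (v ⬝ᵥ e)) = v i := by rw [mul_left_comm, h1, mul_one]
      rw [this, hv]; simp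
  have hT : (1 - c • vecMulVec v v)ᵀ = 1 - c • vecMulVec v v := by
    rw [transpose_sub, transpose_one, transpose_smul, transpose_vecMulVec]
  have hOO : (1 - c • vecMulVec v v) * (1 - c • vecMulVec v v) = 1 := by
    rw [sub_mul, mul_sub, mul_sub, Matrix.one_mul, Matrix.one_mul, Matrix.mul_one,
      Matrix.smul_mul, Matrix.mul_smul, vecMulVec_mul_vecMulVec]
    ext i j
    simp only [Matrix.sub_apply, Matrix.smul_apply, vecMulVec_apply, smul_eq_mul, Pi.smul_apply]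
    linear_combination (v i * v j) * hcc
  refine ⟨_, hT, hOO, fun u => ?_⟩
  set O := 1 - c • vecMulVec v v
  have h1 : ∑ i, u i * e i = (O *ᵥ u) 0 * s := by
    have h2 : u ⬝ᵥ e = (O *ᵥ u) ⬝ᵥ (O *ᵥ e) := by
      rw [dotProduct_mulVec, ← mulVec_transpose, hT, mulVec_mulVec, hOO, one_mulVec]
    rw [hOe, dotProduct_single] at h2
    exact h2
  rw [h1, mul_pow]
  exact mul_le_of_le_one_right (sq_nonneg _) (hs2.trans_le he)

lemma conj_goe {n : ℕ} (O : Matrix (Fin n) (Fin n) ℝ) (hT : Oᵀ = O) (hO : O * O = 1)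
    (M : Fin n × Fin n → ℝ) (u : Fin n → ℝ) :
    ∑ i, (O *ᵥ u) i ^ 2 = ∑ i, u i ^ 2 ∧
      ∑ i, ∑ j, (kroneckerMap (· * ·) O O *ᵥ M) (i, j) * (O *ᵥ u) i * (O *ᵥ u) j =
        ∑ i, ∑ j, M (i, j) * u i * u j := by
  have h1 : ∀ k, ∑ i, O i k * (O *ᵥ u) i = u k := by
    intro k
    have : (Oᵀ *ᵥ (O *ᵥ u)) k = u k := by rw [hT, mulVec_mulVec, hO, one_mulVec]
    exact this
  constructor
  · have h2 : (O *ᵥ u) ⬝ᵥ (O *ᵥ u) = u ⬝ᵥ u := by
      rw [dotProduct_mulVec, ← mulVec_transpose, hT, mulVec_mulVec, hO, one_mulVec]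
    simpa only [dotProduct, ← sq] using h2
  · generalize O *ᵥ u = v at h1
    simp only [← h1]
    simp only [mulVec, dotProduct, Fintype.sum_prod_type, kroneckerMap_apply, sum_mul, mul_sum]
    calc ∑ i, ∑ j, ∑ k, ∑ l, O i k * O j l * M (k, l) * v i * v j
        = ∑ i, ∑ k, ∑ j, ∑ l, O i k * O j l * M (k, l) * v i * v j :=
          sum_congr rfl fun i _ => sum_comm
      _ = ∑ k, ∑ i, ∑ j, ∑ l, O i k * O j l * M (k, l) * v i * v j := sum_comm
      _ = ∑ k, ∑ l, ∑ j, ∑ i, O i k * O j l * M (k, l) * v i * v j := by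
          refine sum_congr rfl fun k _ => ?_
          rw [sum_comm]
          rw [show (∑ j, ∑ i, ∑ l, O i k * O j l * M (k, l) * v i * v j) =
            ∑ j, ∑ l, ∑ i, O i k * O j l * M (k, l) * v i * v j from
            sum_congr rfl fun j _ => sum_comm]
          exact sum_comm
      _ = _ := by
          refine sum_congr rfl fun k _ => sum_congr rfl fun l _ => sum_congr rfl fun j _ =>
            sum_congr rfl fun i _ => by ring

/-- The splitting map. -/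
noncomputable def splitGoe (n : ℕ) :
    Matrix ((Unit ⊕ Fin n) ⊕ (Fin n × Fin n)) (Fin (n + 1) × Fin (n + 1)) ℝ :=
  Matrix.of fun κ => match κ with
    | .inl (.inl _) => Pi.single (0, 0) 1
    | .inl (.inr j) => Pi.single (0, j.succ) (√2)⁻¹ + Pi.single (j.succ, 0) (√2)⁻¹
    | .inr p => Pi.single (p.1.succ, p.2.succ) 1

lemma split_mulVec_goe {n : ℕ} (M : Fin (n + 1) × Fin (n + 1) → ℝ) :
    (splitGoe n *ᵥ M) (.inl (.inl ())) = M (0, 0) ∧
      (∀ j, (splitGoe n *ᵥ M) (.inl (.inr j)) = (√2)⁻¹ * (M (0, j.succ) + M (j.succ, 0))) ∧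
      ∀ i j, (splitGoe n *ᵥ M) (.inr (i, j)) = M (i.succ, j.succ) := by
  refine ⟨?_, fun j => ?_, fun i j => ?_⟩
  · change (Pi.single (0, 0) 1 : _ → ℝ) ⬝ᵥ M = _
    rw [single_dotProduct, one_mul]
  · change (Pi.single (0, j.succ) (√2)⁻¹ + Pi.single (j.succ, 0) (√2)⁻¹ : _ → ℝ) ⬝ᵥ M = _
    rw [add_dotProduct, single_dotProduct, single_dotProduct, mul_add]
  · change (Pi.single (i.succ, j.succ) 1 : _ → ℝ) ⬝ᵥ M = _
    rw [single_dotProduct, one_mul]

lemma split_orth_goe (n : ℕ) : splitGoe n * (splitGoe n)ᵀ = 1 := by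
  ext κ κ'
  have h0 : (splitGoe n * (splitGoe n)ᵀ) κ κ' = (splitGoe n *ᵥ splitGoe n κ') κ := rfl
  have h2 : (√2)⁻¹ * ((√2)⁻¹ + (√2)⁻¹) = (1 : ℝ) := by
    have : (√2 : ℝ) * √2 = 2 := mul_self_sqrt (by norm_num)
    have h3 : (√2 : ℝ) ≠ 0 := by positivity
    field_simp
    nlinarith
  rw [h0]
  obtain ⟨e1, e2, e3⟩ := split_mulVec_goe (splitGoe n κ')
  rcases κ with (⟨⟨⟩⟩ | j) | ⟨i, j⟩
  · rw [e1]
    rcases κ' with (⟨⟨⟩⟩ | j') | ⟨i', j'⟩ <;>
      simp [splitGoe, Pi.single_apply, one_apply, Fin.succ_ne_zero, (Fin.succ_ne_zero _).symm]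
  · rw [e2]
    rcases κ' with (⟨⟨⟩⟩ | j') | ⟨i', j'⟩
    · simp [splitGoe, Pi.single_apply, one_apply, Fin.succ_ne_zero, (Fin.succ_ne_zero _).symm]
    · by_cases h : j = j'
      · subst h
        simpa [splitGoe, Pi.single_apply, one_apply, Fin.succ_ne_zero,
          (Fin.succ_ne_zero _).symm] using h2
      · simp [splitGoe, Pi.single_apply, one_apply, Fin.succ_ne_zero, (Fin.succ_ne_zero _).symm,
          h]
    · simp [splitGoe, Pi.single_apply, one_apply, Fin.succ_ne_zero, (Fin.succ_ne_zero _).symm]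
  · rw [e3]
    rcases κ' with (⟨⟨⟩⟩ | j') | ⟨i', j'⟩ <;>
      simp [splitGoe, Pi.single_apply, one_apply, Fin.succ_ne_zero, (Fin.succ_ne_zero _).symm]

lemma split_bad_goe {n : ℕ} {ρ ε : ℝ} (hρ : 0 < ρ) (M : Fin (n + 1) × Fin (n + 1) → ℝ)
    (u : Fin (n + 1) → ℝ) (hu : (2 * ρ + ε) * ∑ i, u i ^ 2 <
      √2 * ∑ i, ∑ j, M (i, j) * u i * u j + ρ * u 0 ^ 2)
    (ha : √2 * (splitGoe n *ᵥ M) (.inl (.inl ())) ≤ ε) :
    (fun p => (splitGoe n *ᵥ M) (.inr p)) ∈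
      Bad n ρ ε fun j => (splitGoe n *ᵥ M) (.inl (.inr j)) / ρ := by
  obtain ⟨e1, e2, e3⟩ := split_mulVec_goe M
  refine ⟨fun j => u j.succ, ?_⟩
  simp only [e3]
  rw [e1] at ha
  set G := ∑ j, u j.succ * (splitGoe n *ᵥ M) (.inl (.inr j)) with hG
  have h1 : ∑ j : Fin n, u j.succ * ((splitGoe n *ᵥ M) (.inl (.inr j)) / ρ) = G / ρ := by
    rw [hG, sum_div]; exact sum_congr rfl fun j _ => by ring
  have h22 : (√2 : ℝ) * √2 = 2 := mul_self_sqrt (by norm_num)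
  have h3 : (√2 : ℝ) ≠ 0 := by positivity
  have h2 : √2 * ∑ i, ∑ j, M (i, j) * u i * u j = √2 * M (0, 0) * u 0 ^ 2 + 2 * u 0 * G +
      √2 * ∑ i : Fin n, ∑ j : Fin n, M (i.succ, j.succ) * u i.succ * u j.succ := by
    have h4 : 2 * u 0 * G = √2 * (∑ j : Fin n, M (0, j.succ) * u 0 * u j.succ +
        ∑ j : Fin n, M (j.succ, 0) * u j.succ * u 0) := by
      rw [hG, ← sum_add_distrib, mul_sum, mul_sum]
      refine sum_congr rfl fun j _ => ?_
      rw [e2]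
      have h5 : (√2 : ℝ)⁻¹ * 2 = √2 := by field_simp; nlinarith
      linear_combination (u 0 * u j.succ * (M (0, j.succ) + M (j.succ, 0))) * h5
    rw [h4]
    simp only [Fin.sum_univ_succ, sum_add_distrib]
    ring
  rw [h1]
  rw [h2, Fin.sum_univ_succ] at hu
  have h6 : 2 * u 0 * G ≤ ρ * u 0 ^ 2 + ρ * (G / ρ) ^ 2 := by
    have h7 : G = ρ * (G / ρ) := by field_simp
    generalize G / ρ = t at h7
    rw [h7]
    nlinarith [mul_nonneg hρ.le (sq_nonneg (u 0 - t))]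
  have h8 := mul_le_mul_of_nonneg_right ha (sq_nonneg (u 0))
  linarith

lemma meas_bad_goe (n : ℕ) (ρ ε : ℝ) :
    MeasurableSet {z : (Unit ⊕ Fin n → ℝ) × (Fin n × Fin n → ℝ) |
      ∑ j, z.1 (.inr j) ^ 2 ≤ ρ ^ 2 ∧ z.2 ∈ Bad n ρ ε fun j => z.1 (.inr j) / ρ} := by
  have hc : IsClosed {z : (Unit ⊕ Fin n → ℝ) × (Fin n × Fin n → ℝ) |
      ∑ j, z.1 (.inr j) ^ 2 ≤ ρ ^ 2} := isClosed_le (by fun_prop) (by fun_prop)
  refine MeasurableSet.inter hc.measurableSet (IsOpen.measurableSet ?_)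
  have : {z : (Unit ⊕ Fin n → ℝ) × (Fin n × Fin n → ℝ) |
      z.2 ∈ Bad n ρ ε fun j => z.1 (.inr j) / ρ} = ⋃ u : Fin n → ℝ,
      {z | (2 * ρ + ε) * ∑ i, u i ^ 2 < √2 * ∑ i, ∑ j, z.2 (i, j) * u i * u j +
        ρ * (∑ i, u i * (z.1 (.inr i) / ρ)) ^ 2} := by
    ext z; simp [Bad]
  change IsOpen {z : (Unit ⊕ Fin n → ℝ) × (Fin n × Fin n → ℝ) |
      z.2 ∈ Bad n ρ ε fun j => z.1 (.inr j) / ρ}
  rw [this]
  exact isOpen_iUnion fun u => isOpen_lt (by fun_prop) (by fun_prop)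

end aux_goe

theorem goe {ρ ε p : ℝ} (hρ : 0 < ρ) (hp : 0 ≤ p) (N : ℕ)
    (h : ∀ m ≤ N, (gam (Unit ⊕ Fin m)).real
      {y | ε < √2 * y (.inl ()) ∨ ρ ^ 2 < ∑ j, y (.inr j) ^ 2} ≤ p)
    {n : ℕ} (hn : n ≤ N) (e : Fin n → ℝ) (he : ∑ i, e i ^ 2 ≤ 1) :
    (gam (Fin n × Fin n)).real (Bad n ρ ε e) ≤ n * p := by
  induction n with
  | zero =>
    have : Bad 0 ρ ε e = ∅ := by
      ext M; simp [Bad]
    rw [this]; simp
  | succ n ih =>
    obtain ⟨O, hT, hO, hOe⟩ := house_goe e he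
    have hK : Matrix.kroneckerMap (· * ·) O O * (Matrix.kroneckerMap (· * ·) O O).transpose = 1 := by
      rw [← Matrix.kroneckerMap_transpose, hT, ← Matrix.mul_kronecker_mul, hO,
        Matrix.one_kronecker_one]
    have m1 := map_gam _ hK
    have m2 := map_gam _ (split_orth_goe n)
    have m3 : MeasurePreserving (MeasurableEquiv.sumPiEquivProdPi
        (fun _ : (Unit ⊕ Fin n) ⊕ (Fin n × Fin n) => ℝ)) (gam _)
        ((gam (Unit ⊕ Fin n)).prod (gam (Fin n × Fin n))) :=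
      measurePreserving_sumPiEquivProdPi fun _ => ProbabilityTheory.gaussianReal 0 1
    have m4 := m3.comp (m2.comp m1)
    set A : Set (Unit ⊕ Fin n → ℝ) :=
      {y | ε < √2 * y (.inl ()) ∨ ρ ^ 2 < ∑ j, y (.inr j) ^ 2} with hA
    set B : Set ((Unit ⊕ Fin n → ℝ) × (Fin n × Fin n → ℝ)) :=
      {z | ∑ j, z.1 (.inr j) ^ 2 ≤ ρ ^ 2 ∧ z.2 ∈ Bad n ρ ε fun j => z.1 (.inr j) / ρ} with hB
    have hsub : Bad (n + 1) ρ ε e ⊆ (MeasurableEquiv.sumPiEquivProdPi
        (fun _ : (Unit ⊕ Fin n) ⊕ (Fin n × Fin n) => ℝ) ∘ (splitGoe n).mulVec ∘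
        (Matrix.kroneckerMap (· * ·) O O).mulVec) ⁻¹' (Prod.fst ⁻¹' A ∪ B) := by
      rintro M ⟨u, hu⟩
      obtain ⟨c1, c2⟩ := conj_goe O hT hO M u
      rw [← c1, ← c2] at hu
      have hu' := hu.trans_le (add_le_add_right (mul_le_mul_of_nonneg_left (hOe u) hρ.le) _)
      change ((splitGoe n).mulVec ((Matrix.kroneckerMap (· * ·) O O).mulVec M) ∘ Sum.inl,
        (splitGoe n).mulVec ((Matrix.kroneckerMap (· * ·) O O).mulVec M) ∘ Sum.inr) ∈
          (Prod.fst ⁻¹' A ∪ B)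
      generalize (Matrix.kroneckerMap (· * ·) O O).mulVec M = M' at hu' ⊢
      by_cases h1 : (splitGoe n).mulVec M' ∘ Sum.inl ∈ A
      · exact Or.inl h1
      · have h2 := not_or.1 h1
        exact Or.inr ⟨not_lt.1 h2.2, split_bad_goe hρ M' _ hu' (not_lt.1 h2.1)⟩
    have b1 : ((gam (Unit ⊕ Fin n)).prod (gam (Fin n × Fin n))) (Prod.fst ⁻¹' A) ≤
        ENNReal.ofReal p := by
      refine (measurePreserving_fst.measure_preimage_le A).trans ?_
      rw [← ofReal_measureReal]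
      exact ENNReal.ofReal_le_ofReal (h n (by omega))
    have b2 : ((gam (Unit ⊕ Fin n)).prod (gam (Fin n × Fin n))) B ≤ ENNReal.ofReal (n * p) := by
      rw [Measure.prod_apply (meas_bad_goe n ρ ε)]
      refine (lintegral_mono (g := fun _ => ENNReal.ofReal (n * p)) fun y => ?_).trans (by simp)
      by_cases h1 : ∑ j, y (.inr j) ^ 2 ≤ ρ ^ 2
      · have h2 := ih (by omega) (fun j => y (.inr j) / ρ) (by
          simp only [div_pow]
          rw [← sum_div, div_le_one (by positivity)]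
          exact h1)
        refine (measure_mono (t := Bad n ρ ε fun j => y (.inr j) / ρ) fun M hM => hM.2).trans ?_
        rw [← ofReal_measureReal]
        exact ENNReal.ofReal_le_ofReal h2
      · have h2 : Prod.mk y ⁻¹' {z : (Unit ⊕ Fin n → ℝ) × (Fin n × Fin n → ℝ) |
            ∑ j, z.1 (.inr j) ^ 2 ≤ ρ ^ 2 ∧ z.2 ∈ Bad n ρ ε fun j => z.1 (.inr j) / ρ} = ∅ := by
          ext M
          simp only [Set.mem_preimage, Set.mem_ofPred_eq, Set.mem_empty_iff_false, iff_false]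
          exact fun hM => h1 hM.1
        simp only [h2, measure_empty, zero_le]
    have b3 := (measure_mono hsub).trans ((m4.measure_preimage_le _).trans
      ((measure_union_le _ _).trans (add_le_add b1 b2)))
    rw [← ENNReal.ofReal_add hp (by positivity)] at b3
    refine (ENNReal.toReal_le_of_le_ofReal (by positivity) b3).trans (le_of_eq ?_)
    push_cast; ring

end Vale.Agent.P150
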