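import Vale.Agent.P150.Defs

/-! Standard Gaussian vectors.
`map_gam`: transport to `EuclideanSpace` (`map_pi_eq_stdGaussian`, `charFun_stdGaussian`, `Measure.ext_of_charFun`):
the characteristic function of the image at `t` is `exp (-|Tᵀ t|² / 2) = exp (-|t|² / 2)`.
`int_exp`: `integral_fintype_prod_eq_prod`, `Integrable.fintype_prod`, `mgf_id_gaussianReal`.
`gauss_tail`: Chernoff (`measure_ge_le_exp_mul_mgf`).  `chi_tail`: Markov for `exp (λ ∑ g²)` with `λ = δ / 4`,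
`∫ exp (λ x²) dγ = (1 - 2λ)^(-1/2) ≥ 1` (`integral_gaussian`, `integral_gaussianReal_eq_integral_smul`; a lintegral
version with `lintegral_fintype_prod`-type lemmas also works), and `-log (1 - 2λ) / 2 ≤ λ + 2 λ²`. -/

namespace Vale.Agent.P150

open MeasureTheory ProbabilityTheory Finset Real Matrix

/-- Standard Gaussian measure. -/
noncomputable def gam (ι : Type) [Fintype ι] : Measure (ι → ℝ) := Measure.pi fun _ => gaussianReal 0 1

instance (ι : Type) [Fintype ι] : IsProbabilityMeasure (gam ι) := by unfold gam; infer_instance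

variable {ι κ : Type} [Fintype ι] [Fintype κ]

lemma charFun_gam_ga (t : EuclideanSpace ℝ ι) :
    ∫ y, Complex.exp (((∑ l, y l * t l : ℝ) : ℂ) * Complex.I) ∂gam ι
      = Complex.exp (-((∑ l, t l ^ 2 : ℝ) : ℂ) / 2) := by
  have h := charFun_stdGaussian (E := EuclideanSpace ℝ ι) t
  rw [← map_pi_eq_stdGaussian, charFun_apply, integral_map (Measurable.aemeasurable (by fun_prop))
    (Measurable.aestronglyMeasurable (by fun_prop))] at h
  rw [← EuclideanSpace.real_norm_sq_eq]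
  push_cast
  rw [← h]
  unfold gam
  congr 1
  ext y
  simp [PiLp.inner_apply, mul_comm]

theorem map_gam [DecidableEq κ] (T : Matrix κ ι ℝ) (hT : T * Tᵀ = 1) :
    MeasurePreserving T.mulVec (gam ι) (gam κ) := by
  have hm : Measurable (T.mulVec : (ι → ℝ) → (κ → ℝ)) := by
    refine measurable_pi_lambda _ fun k => ?_
    simp only [mulVec, dotProduct]
    fun_prop
  refine ⟨hm, ?_⟩
  have hinj := (MeasurableEquiv.toLp 2 (κ → ℝ)).map_measurableEquiv_injective
  apply hinj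
  have hP : IsProbabilityMeasure ((gam ι).map T.mulVec) :=
    Measure.isProbabilityMeasure_map hm.aemeasurable
  apply Measure.ext_of_charFun (E := EuclideanSpace ℝ κ)
  ext t
  rw [charFun_apply, charFun_apply, integral_map (Measurable.aemeasurable (by fun_prop))
    (Measurable.aestronglyMeasurable (by fun_prop)), integral_map (Measurable.aemeasurable (by fun_prop))
    (Measurable.aestronglyMeasurable (by fun_prop)), integral_map (Measurable.aemeasurable (by fun_prop))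
    (Measurable.aestronglyMeasurable (by fun_prop))]
  have h1 := charFun_gam_ga (ι := ι) (WithLp.toLp 2 (Tᵀ.mulVec t.ofLp))
  have h2 := charFun_gam_ga (ι := κ) t
  have e : ∑ l, (Tᵀ.mulVec t.ofLp) l ^ 2 = ∑ l, t l ^ 2 := by
    have : (Tᵀ.mulVec t.ofLp) ⬝ᵥ (Tᵀ.mulVec t.ofLp) = t.ofLp ⬝ᵥ t.ofLp := by
      rw [dotProduct_mulVec, vecMul_transpose, mulVec_mulVec, hT, one_mulVec]
    simpa [dotProduct, sq] using this
  simp only at h1
  rw [e, ← h2] at h1
  have l1 : ∀ y : ι → ℝ, inner ℝ ((MeasurableEquiv.toLp 2 (κ → ℝ)) (T.mulVec y)) t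
      = ∑ l, y l * (Tᵀ.mulVec t.ofLp) l := by
    intro y
    have : y ⬝ᵥ (Tᵀ.mulVec t.ofLp) = (T.mulVec y) ⬝ᵥ t.ofLp := by
      rw [dotProduct_mulVec, vecMul_transpose]
    simp only [dotProduct] at this
    rw [this]
    simp [PiLp.inner_apply, mul_comm]
  have l2 : ∀ y : κ → ℝ, inner ℝ ((MeasurableEquiv.toLp 2 (κ → ℝ)) y) t = ∑ l, y l * t l := by
    intro y
    simp [PiLp.inner_apply, mul_comm]
  simp_rw [l1, l2]
  exact h1

lemma integrable_exp (a : ι → ℝ) : Integrable (fun y => exp (∑ l, y l * a l)) (gam ι) := by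
  simp_rw [exp_sum]
  unfold gam
  refine Integrable.fintype_prod (f := fun l (x : ℝ) => exp (x * a l)) fun l => ?_
  simpa [mul_comm] using integrable_exp_mul_gaussianReal (μ := 0) (v := 1) (a l)

lemma int_exp (a : ι → ℝ) : ∫ y, exp (∑ l, y l * a l) ∂gam ι = exp ((∑ l, a l ^ 2) / 2) := by
  simp_rw [exp_sum]
  unfold gam
  rw [integral_fintype_prod_eq_prod (f := fun l (x : ℝ) => exp (x * a l)), sum_div, exp_sum]
  refine prod_congr rfl fun l _ => ?_
  have h := congrFun (mgf_fun_id_gaussianReal (μ := 0) (v := 1)) (a l)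
  simp only [mgf] at h
  simpa [mul_comm] using h

lemma gauss_tail (l : ι) {t : ℝ} (ht : 0 ≤ t) :
    (gam ι).real {y | t < |y l|} ≤ 2 * exp (-t ^ 2 / 2) := by
  classical
  have key : ∀ σ : ℝ, σ ^ 2 = 1 → (gam ι).real {y | t ≤ σ * y l} ≤ exp (-t ^ 2 / 2) := by
    intro σ hσ
    have e : ∀ y : ι → ℝ, t * (σ * y l) = ∑ k, y k * (Pi.single l (t * σ) : ι → ℝ) k := by
      intro y
      rw [sum_eq_single l]
      · simp; ring
      · intro b _ hb; simp [hb]
      · simp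
    have hi : Integrable (fun y : ι → ℝ => exp (t * (σ * y l))) (gam ι) := by
      simp_rw [e]; exact integrable_exp _
    have h := measure_ge_le_exp_mul_mgf (X := fun y : ι → ℝ => σ * y l) (μ := gam ι) t ht hi
    refine h.trans (le_of_eq ?_)
    simp only [mgf]
    simp_rw [e]
    rw [int_exp, ← exp_add]
    congr 1
    rw [sum_eq_single l]
    · simp only [Pi.single_eq_same]
      rw [mul_pow, hσ]; ring
    · intro b _ hb; simp [hb]
    · simp
  have hsub : {y : ι → ℝ | t < |y l|} ⊆ {y | t ≤ 1 * y l} ∪ {y | t ≤ (-1) * y l} := by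
    intro y hy
    simp only [Set.mem_ofPred_eq, Set.mem_union] at hy ⊢
    rcases abs_cases (y l) with h | h
    · left; linarith [h.1]
    · right; linarith [h.1]
  calc (gam ι).real {y | t < |y l|}
      ≤ (gam ι).real ({y | t ≤ 1 * y l} ∪ {y | t ≤ (-1) * y l}) := measureReal_mono hsub
    _ ≤ (gam ι).real {y | t ≤ 1 * y l} + (gam ι).real {y | t ≤ (-1) * y l} := measureReal_union_le _ _
    _ ≤ exp (-t ^ 2 / 2) + exp (-t ^ 2 / 2) := add_le_add (key 1 (by norm_num)) (key (-1) (by norm_num))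
    _ = 2 * exp (-t ^ 2 / 2) := by ring

lemma pdf_mul_ga (c x : ℝ) :
    gaussianPDFReal 0 1 x * exp (c * x ^ 2) = (√(2 * π))⁻¹ * exp (-(1 / 2 - c) * x ^ 2) := by
  simp only [gaussianPDFReal, NNReal.coe_one, mul_one, sub_zero]
  rw [mul_assoc, ← exp_add]
  congr 2
  ring

lemma integrable_sq_ga {c : ℝ} (hc : c < 1 / 2) :
    Integrable (fun x : ℝ => exp (c * x ^ 2)) (gaussianReal 0 1) := by
  rw [gaussianReal_of_var_ne_zero _ one_ne_zero, integrable_withDensity_iff_integrable_smul'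
    (measurable_gaussianPDF _ _) (ae_of_all _ fun _ => gaussianPDF_lt_top)]
  simp_rw [toReal_gaussianPDF, smul_eq_mul, pdf_mul_ga]
  exact (integrable_exp_neg_mul_sq (by linarith)).const_mul _

lemma int_sq_ga {c : ℝ} (hc : c < 1 / 2) :
    ∫ x, exp (c * x ^ 2) ∂gaussianReal 0 1 = (√(1 - 2 * c))⁻¹ := by
  rw [integral_gaussianReal_eq_integral_smul one_ne_zero]
  simp_rw [smul_eq_mul, pdf_mul_ga]
  rw [integral_const_mul, integral_gaussian, ← sqrt_inv, ← sqrt_inv, ← sqrt_mul (by positivity)]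
  congr 1
  have : (1 / 2 - c) ≠ 0 := by linarith
  have : (1 - 2 * c) ≠ 0 := by linarith
  have := pi_pos.ne'
  field_simp

lemma int_sq_le_ga {c : ℝ} (h0 : 0 ≤ c) (hc : c ≤ 1 / 4) :
    ∫ x, exp (c * x ^ 2) ∂gaussianReal 0 1 ≤ exp (c + 2 * c ^ 2) := by
  rw [int_sq_ga (by linarith)]
  have hp : 0 < 1 - 2 * c := by linarith
  rw [inv_le_comm₀ (sqrt_pos.2 hp) (exp_pos _), ← exp_neg]
  apply le_sqrt_of_sq_le
  rw [← exp_nat_mul]
  have h1 : (1 : ℝ) + (2 * c + 4 * c ^ 2) + (2 * c + 4 * c ^ 2) ^ 2 / 2 ≤ exp (2 * c + 4 * c ^ 2) :=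
    quadratic_le_exp_of_nonneg (by positivity)
  have h2 : exp (((2 : ℕ) : ℝ) * -(c + 2 * c ^ 2)) = (exp (2 * c + 4 * c ^ 2))⁻¹ := by
    rw [← exp_neg]; congr 1; push_cast; ring
  rw [h2, inv_le_comm₀ (exp_pos _) hp, inv_le_iff_one_le_mul₀' hp]
  have h3 : 1 ≤ (1 - 2 * c) * (1 + (2 * c + 4 * c ^ 2) + (2 * c + 4 * c ^ 2) ^ 2 / 2) := by
    have : (1 - 2 * c) * (1 + (2 * c + 4 * c ^ 2) + (2 * c + 4 * c ^ 2) ^ 2 / 2) - 1
        = c ^ 2 * (2 - 4 * c - 8 * c ^ 2 - 16 * c ^ 3) := by ring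
    have h4 : 0 ≤ 2 - 4 * c - 8 * c ^ 2 - 16 * c ^ 3 := by nlinarith [mul_nonneg h0 h0, mul_nonneg h0 (mul_nonneg h0 h0)]
    nlinarith [mul_nonneg (sq_nonneg c) h4]
  exact h3.trans (mul_le_mul_of_nonneg_left h1 hp.le)

lemma chi_tail {δ N : ℝ} (h0 : 0 < δ) (h1 : δ ≤ 1) (s : Finset ι) (hN : (s.card : ℝ) ≤ N) :
    (gam ι).real {y | (1 + δ) * N < ∑ l ∈ s, y l ^ 2} ≤ exp (-δ ^ 2 * N / 8) := by
  classical
  set c : ℝ := δ / 4 with hc
  have hc0 : 0 ≤ c := by positivity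
  have hc1 : c ≤ 1 / 4 := by linarith
  have e : ∀ y : ι → ℝ, exp (c * ∑ l ∈ s, y l ^ 2) = ∏ l, exp ((if l ∈ s then c else 0) * y l ^ 2) := by
    intro y
    rw [← exp_sum, mul_sum]
    congr 1
    simp [ite_mul]
  have hlt : ∀ l, (if l ∈ s then c else 0) < 1 / 2 := by
    intro l; split_ifs <;> linarith
  have hi : Integrable (fun y : ι → ℝ => exp (c * ∑ l ∈ s, y l ^ 2)) (gam ι) := by
    simp_rw [e]
    unfold gam
    exact Integrable.fintype_prod (f := fun l (x : ℝ) => exp ((if l ∈ s then c else 0) * x ^ 2))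
      fun l => integrable_sq_ga (hlt l)
  have h := measure_ge_le_exp_mul_mgf (X := fun y : ι → ℝ => ∑ l ∈ s, y l ^ 2) (μ := gam ι)
    ((1 + δ) * N) hc0 hi
  have hsub : {y : ι → ℝ | (1 + δ) * N < ∑ l ∈ s, y l ^ 2} ⊆ {y | (1 + δ) * N ≤ ∑ l ∈ s, y l ^ 2} :=
    fun y (hy : (1 + δ) * N < ∑ l ∈ s, y l ^ 2) => (le_of_lt hy : (1 + δ) * N ≤ ∑ l ∈ s, y l ^ 2)
  refine (measureReal_mono hsub).trans (h.trans ?_)
  have hm : mgf (fun y : ι → ℝ => ∑ l ∈ s, y l ^ 2) (gam ι) c ≤ exp (N * (c + 2 * c ^ 2)) := by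
    simp only [mgf]
    simp_rw [e]
    unfold gam
    rw [integral_fintype_prod_eq_prod (f := fun l (x : ℝ) => exp ((if l ∈ s then c else 0) * x ^ 2))]
    calc ∏ l, ∫ x, exp ((if l ∈ s then c else 0) * x ^ 2) ∂gaussianReal 0 1
        ≤ ∏ l, exp (if l ∈ s then c + 2 * c ^ 2 else 0) := by
          refine prod_le_prod (fun l _ => integral_nonneg fun x => (exp_pos _).le) fun l _ => ?_
          split_ifs
          · exact int_sq_le_ga hc0 hc1
          · simp
      _ = exp ((s.card : ℝ) * (c + 2 * c ^ 2)) := by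
          rw [← exp_sum]; congr 1; simp; ring
      _ ≤ exp (N * (c + 2 * c ^ 2)) := by gcongr
  calc exp (-c * ((1 + δ) * N)) * mgf (fun y : ι → ℝ => ∑ l ∈ s, y l ^ 2) (gam ι) c
      ≤ exp (-c * ((1 + δ) * N)) * exp (N * (c + 2 * c ^ 2)) := by gcongr
    _ = exp (-δ ^ 2 * N / 8) := by
      rw [← exp_add]; congr 1; rw [hc]; ring

end Vale.Agent.P150
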