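import Vale.Agent.P150.Basic

/-! The two-spin estimate (pure algebra; numerically the constant `100` can be replaced by `1/2`).
Put `p = tanh h`, `q = tanh k`, `τ = tanh J`, `P = 1 - p²`, `Q = 1 - q²`, `T = 1 - τ²`.  Then
`exp (h s + k t + J s t) = cosh h cosh k cosh J (1 + p s)(1 + q t)(1 + τ s t)` for `s, t = ±1`, and
`m₁(t) = tanh (h + J t) = (p + τ t)/(1 + p τ t)`, `s - m₁(t) = s (1 - p s)(1 - τ s t)/(1 + p τ t)`,
`1 - m₁(t)² = P T/(1 + p τ t)²`, and symmetrically for `m₂(s)`.  Let `A(t) = (a + c t)/(1 + p τ t) = A₀ + A₁ t`,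
`B(s) = (b + c s)/(1 + q τ s) = B₀ + B₁ s`; then `A₁ = c - α`, `B₁ = c - γ` with `α = p τ A₀`, `γ = q τ B₀`.
With `E = (1/4) ∑_{s,t} (1 + p s)(1 + q t)(1 + τ s t) ·`:
* `E[(s - m₁)(t - m₂) a(t) b(s)] = P Q T (A₁ B₁ - τ A₀ B₀)` exactly;
* `E[v₁ v₂ a(t) b(s)] = P Q T² (1/4) ∑ (1 + p s)(1 + q t) A(t) B(s) κ(s,t)`, with
  `κ = (1 + τ s t)/((1 + p τ t)(1 + q τ s)) = 1 + τ (s t - p t - q s) + ρ`, `|ρ| ≤ 5 τ²`;
* so the right side is `P Q T (c² - 2 α γ + Rem)` with `|Rem| ≤ 15 |J| (c² + J² A₀² + J² B₀²)` or so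
  (use `|τ| ≤ |J|`, `|J - τ| ≤ |J|³`), hence `≥ -P Q T J² ((p² + 15 η) A₀² + (q² + 15 η) B₀²)`;
* `E[(m₁² + 100 η) v₁ a(t)²] = (1/2) ∑_t (1 + q t)(1 + p τ t) P T (m₁² + 100 η) A(t)²`, and
  `Q A₀² ≤ (1/2) ∑_t (1 + q t) A(t)²` (Cauchy-Schwarz), `(1 - η)(m₁² + 100 η) ≥ p² + 15 η` since `|m₁ - p| ≤ 2 η`.
Prove a version in the variables `p q τ J A₀ B₀ c` first; bound each remainder monomial separately. -/

namespace Vale.Agent.P150

open Finset Real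

lemma sinh_le_mul_cosh_two {x : ℝ} (hx : 0 ≤ x) : sinh x ≤ x * cosh x := by
  have hd : ∀ y : ℝ, HasDerivAt (fun y => y * cosh y - sinh y) (y * sinh y) y := by
    intro y
    have h := ((hasDerivAt_id y).mul (hasDerivAt_cosh y)).sub (hasDerivAt_sinh y)
    have e : (1 * cosh y + id y * sinh y - cosh y) = y * sinh y := by simp
    rw [e] at h
    exact h
  have hm : MonotoneOn (fun y : ℝ => y * cosh y - sinh y) (Set.Ici 0) := by
    apply monotoneOn_of_deriv_nonneg (convex_Ici 0)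
    · exact fun y _ => (hd y).continuousAt.continuousWithinAt
    · exact fun y _ => (hd y).differentiableAt.differentiableWithinAt
    · intro y hy
      rw [(hd y).deriv]
      have hy' : 0 ≤ y := by
        rw [interior_Ici] at hy
        exact le_of_lt hy
      exact mul_nonneg hy' (sinh_nonneg_iff.mpr hy')
  have h := hm (Set.mem_Ici.mpr le_rfl) (Set.mem_Ici.mpr hx) hx
  simp at h
  linarith

lemma tanh_bd_nonneg_two {x : ℝ} (hx : 0 ≤ x) (h1 : x ≤ 1) :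
    0 ≤ tanh x ∧ tanh x ≤ x ∧ x - tanh x ≤ x ^ 3 := by
  have hc := cosh_pos x
  have hc1 := one_le_cosh x
  rw [tanh_eq_sinh_div_cosh]
  refine ⟨div_nonneg (sinh_nonneg_iff.mpr hx) hc.le, ?_, ?_⟩
  · rw [div_le_iff₀ hc]; exact sinh_le_mul_cosh_two hx
  · have h2 : cosh x ≤ 1 + x ^ 2 := by
      have h3 := cosh_le_exp_half_sq x
      have h4 : |x ^ 2 / 2| ≤ 1 := by
        rw [abs_of_nonneg (by positivity)]; nlinarith
      have h5 := abs_exp_sub_one_le h4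
      rw [abs_of_nonneg (a := x ^ 2 / 2) (by positivity)] at h5
      have := le_abs_self (exp (x ^ 2 / 2) - 1)
      linarith
    have h6 : x ≤ sinh x := self_le_sinh_iff.mpr hx
    have h7 : x - x ^ 3 ≤ sinh x / cosh x := by
      rw [le_div_iff₀ hc]
      have h8 : 0 ≤ x - x ^ 3 := by nlinarith [mul_nonneg hx hx]
      have h9 : (x - x ^ 3) * cosh x ≤ (x - x ^ 3) * (1 + x ^ 2) := mul_le_mul_of_nonneg_left h2 h8
      nlinarith [pow_nonneg hx 5]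
    linarith

lemma tanh_bd_two {x : ℝ} (h1 : |x| ≤ 1) : |tanh x| ≤ |x| ∧ |x - tanh x| ≤ |x| ^ 3 := by
  rcases le_total 0 x with hx | hx
  · rw [abs_of_nonneg hx] at h1 ⊢
    obtain ⟨a, b, c⟩ := tanh_bd_nonneg_two hx h1
    rw [abs_of_nonneg a, abs_of_nonneg (by linarith)]
    exact ⟨b, c⟩
  · rw [abs_of_nonpos hx] at h1 ⊢
    obtain ⟨a, b, c⟩ := tanh_bd_nonneg_two (neg_nonneg.mpr hx) h1
    rw [tanh_neg] at a b c
    rw [abs_of_nonpos (by linarith), abs_of_nonpos (by linarith)]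
    exact ⟨b, by linarith⟩

lemma tanh_add_two (x y : ℝ) : tanh (x + y) = (tanh x + tanh y) / (1 + tanh x * tanh y) := by
  have hx := cosh_pos x
  have hy := cosh_pos y
  have hxy := cosh_pos (x + y)
  rw [cosh_add] at hxy
  rw [tanh_eq_sinh_div_cosh, tanh_eq_sinh_div_cosh, tanh_eq_sinh_div_cosh, sinh_add, cosh_add]
  field_simp

lemma tanh_sp_two (x : ℝ) (s : Bool) : tanh (x * sp s) = tanh x * sp s := by
  cases s <;> simp [sp, tanh_neg]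

lemma exp_sp_two (x : ℝ) (s : Bool) : exp (x * sp s) = cosh x * (1 + tanh x * sp s) := by
  have hx := cosh_pos x
  rw [tanh_eq_sinh_div_cosh]
  cases s
  · simp only [sp, Bool.false_eq_true, if_false]
    field_simp
    rw [← cosh_sub_sinh]; ring
  · simp only [sp, if_true]
    field_simp
    rw [← cosh_add_sinh]

lemma exp_sp2_two (x : ℝ) (s t : Bool) :
    exp (x * sp s * sp t) = cosh x * (1 + tanh x * sp s * sp t) := by
  have h : sp s * sp t = sp (s == t) := by cases s <;> cases t <;> simp [sp]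
  rw [mul_assoc, mul_assoc (tanh x), h, exp_sp_two]

lemma mul_le_sq_two {r u v K : ℝ} (hr : |r| ≤ K) : -(K * (u ^ 2 + v ^ 2) / 2) ≤ r * (u * v) := by
  have h1 : |r * (u * v)| ≤ K * |u * v| := by
    rw [abs_mul]; exact mul_le_mul_of_nonneg_right hr (abs_nonneg _)
  have h2 : |u * v| ≤ (u ^ 2 + v ^ 2) / 2 := by
    rw [abs_le]; constructor <;> nlinarith [sq_nonneg (u + v), sq_nonneg (u - v)]
  have hK : 0 ≤ K := (abs_nonneg r).trans hr
  have h3 := mul_le_mul_of_nonneg_left h2 hK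
  have h4 := neg_abs_le (r * (u * v))
  linarith

lemma abs_mul_le_two {a b A B : ℝ} (ha : |a| ≤ A) (hb : |b| ≤ B) : |a * b| ≤ A * B := by
  rw [abs_mul]; exact mul_le_mul ha hb (abs_nonneg _) ((abs_nonneg _).trans ha)

lemma comb_sq_two {e f u v : ℝ} (he : |e| ≤ 101 / 100) (hf : |f| ≤ 101 / 100) :
    (e * u + f * v) ^ 2 ≤ 3 * (u ^ 2 + v ^ 2) := by
  have h1 : e ^ 2 ≤ 3 / 2 := by have := sq_abs e; nlinarith [abs_nonneg e]
  have h2 : f ^ 2 ≤ 3 / 2 := by have := sq_abs f; nlinarith [abs_nonneg f]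
  nlinarith [sq_nonneg (e * v - f * u), mul_nonneg (sub_nonneg.mpr h1) (sq_nonneg u),
    mul_nonneg (sub_nonneg.mpr h1) (sq_nonneg v), mul_nonneg (sub_nonneg.mpr h2) (sq_nonneg u),
    mul_nonneg (sub_nonneg.mpr h2) (sq_nonneg v)]

lemma coef_two {p q τ : ℝ} (hp : |p| ≤ 1) (hq : |q| ≤ 1) (hτ1 : |τ| ≤ 1 / 100) :
    |1 - p * q * τ| ≤ 101 / 100 ∧ |p - q * τ| ≤ 101 / 100 ∧ |q - p * τ| ≤ 101 / 100 := by
  have hpq : |p * q| ≤ 1 * 1 := abs_mul_le_two hp hq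
  have hpqτ : |p * q * τ| ≤ 1 * 1 * (1 / 100) := abs_mul_le_two hpq hτ1
  have hpτ : |p * τ| ≤ 1 * (1 / 100) := abs_mul_le_two hp hτ1
  have hqτ : |q * τ| ≤ 1 * (1 / 100) := abs_mul_le_two hq hτ1
  refine ⟨?_, ?_, ?_⟩
  · rw [abs_le] at hpqτ ⊢; constructor <;> linarith [hpqτ.1, hpqτ.2]
  · rw [abs_le] at hqτ hp ⊢; constructor <;> linarith [hqτ.1, hqτ.2, hp.1, hp.2]
  · rw [abs_le] at hpτ hq ⊢; constructor <;> linarith [hpτ.1, hpτ.2, hq.1, hq.2]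

lemma coef2_two {p q τ : ℝ} (hp : |p| ≤ 1) (hq : |q| ≤ 1) (hτ1 : |τ| ≤ 1 / 100) :
    |(p - q * τ) * (q - p * τ) + τ * ((1 - p * q * τ) * (1 - p * q * τ))| ≤ 2 ∧
    |p ^ 2 * q ^ 2 - p ^ 2 - q ^ 2 + p * q * τ| ≤ 2 ∧ |-(p * q) - τ + p * q * τ * τ| ≤ 2 := by
  obtain ⟨e1, e2, e3⟩ := coef_two hp hq hτ1
  have hpq : |p * q| ≤ 1 * 1 := abs_mul_le_two hp hq
  have hpqτ : |p * q * τ| ≤ 1 * 1 * (1 / 100) := abs_mul_le_two hpq hτ1
  have hp2 : p ^ 2 ≤ 1 := (sq_le_one_iff_abs_le_one p).mpr hp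
  have hq2 : q ^ 2 ≤ 1 := (sq_le_one_iff_abs_le_one q).mpr hq
  refine ⟨?_, ?_, ?_⟩
  · have a := abs_mul_le_two e2 e3
    have b := abs_mul_le_two hτ1 (abs_mul_le_two e1 e1)
    have := abs_add_le ((p - q * τ) * (q - p * τ)) (τ * ((1 - p * q * τ) * (1 - p * q * τ)))
    linarith
  · rw [abs_le] at hpqτ ⊢
    have h1 := mul_nonneg (sub_nonneg.mpr hp2) (sub_nonneg.mpr hq2)
    have h2 := mul_nonneg (sub_nonneg.mpr hp2) (sq_nonneg q)
    have h3 := sq_nonneg p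
    constructor <;> linarith [hpqτ.1, hpqτ.2]
  · have a := abs_mul_le_two hpqτ hτ1
    rw [abs_le] at a hpq hτ1 ⊢
    constructor <;> linarith [a.1, a.2, hpq.1, hpq.2, hτ1.1, hτ1.2]

lemma eps_two {p q τ K A0 A1 B0 B1 ε : ℝ} (hp : |p| ≤ 1) (hq : |q| ≤ 1) (hτ1 : |τ| ≤ 1 / 100)
    (hε : |ε| ≤ K) :
    -(K * (3 * (A0 ^ 2 + B0 ^ 2) + 3 * (A1 ^ 2 + B1 ^ 2))) ≤ ε *
        (((1 - p * q * τ) * B0 + (p - q * τ) * B1) * ((1 - p * q * τ) * A0 + (q - p * τ) * A1) +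
          τ * (((1 - p * q * τ) * B1 + (p - q * τ) * B0) *
            ((1 - p * q * τ) * A1 + (q - p * τ) * A0))) := by
  obtain ⟨e1, e2, e3⟩ := coef_two hp hq hτ1
  have bU0 := comb_sq_two (u := B0) (v := B1) e1 e2
  have bV0 := comb_sq_two (u := A0) (v := A1) e1 e3
  have bU1 := comb_sq_two (u := B1) (v := B0) e1 e2
  have bV1 := comb_sq_two (u := A1) (v := A0) e1 e3
  generalize (1 - p * q * τ) * B0 + (p - q * τ) * B1 = U0 at *
  generalize (1 - p * q * τ) * A0 + (q - p * τ) * A1 = V0 at *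
  generalize (1 - p * q * τ) * B1 + (p - q * τ) * B0 = U1 at *
  generalize (1 - p * q * τ) * A1 + (q - p * τ) * A0 = V1 at *
  have hK0 : 0 ≤ K := (abs_nonneg _).trans hε
  have t1 := mul_le_sq_two (u := U0) (v := V0) hε
  have hετ : |ε * τ| ≤ K * 1 := abs_mul_le_two hε (hτ1.trans (by norm_num))
  have t2 := mul_le_sq_two (u := U1) (v := V1) hετ
  have h := mul_le_mul_of_nonneg_left
    (show (U0 ^ 2 + V0 ^ 2) / 2 + (U1 ^ 2 + V1 ^ 2) / 2 ≤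
      3 * (A0 ^ 2 + B0 ^ 2) + 3 * (A1 ^ 2 + B1 ^ 2) by linarith) hK0
  linarith

lemma poly_two {p q τ η A0 A1 B0 B1 c : ℝ} (hp : |p| ≤ 1) (hq : |q| ≤ 1) (hτη : |τ| ≤ η)
    (hη : η ≤ 1 / 100) (hA1 : A1 = c - p * (τ * A0)) (hB1 : B1 = c - q * (τ * B0)) :
    c ^ 2 - 2 * p * q * (τ * A0) * (τ * B0) -
      η * (2 * (A1 ^ 2 + B1 ^ 2) + 2 * ((τ * A0) ^ 2 + (τ * B0) ^ 2)) ≤
      A1 * B1 - τ * A0 * B0 + τ *
        (((1 - p * q * τ) * B0 + (p - q * τ) * B1) * ((1 - p * q * τ) * A0 + (q - p * τ) * A1) +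
          τ * (((1 - p * q * τ) * B1 + (p - q * τ) * B0) *
            ((1 - p * q * τ) * A1 + (q - p * τ) * A0))) := by
  obtain ⟨r1, r2, r0⟩ := coef2_two hp hq (hτη.trans hη)
  have s1 := mul_le_sq_two (u := A1) (v := B1) (abs_mul_le_two hτη r1)
  have s2 := mul_le_sq_two (u := τ * A0) (v := τ * B0) (abs_mul_le_two hτη r2)
  have s3 := mul_le_sq_two (u := A1) (v := τ * B0) (abs_mul_le_two hτη (abs_mul_le_two hq r0))
  have s4 := mul_le_sq_two (u := B1) (v := τ * A0) (abs_mul_le_two hτη (abs_mul_le_two hp r0))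
  have key : A1 * B1 - τ * A0 * B0 + τ *
        (((1 - p * q * τ) * B0 + (p - q * τ) * B1) * ((1 - p * q * τ) * A0 + (q - p * τ) * A1) +
          τ * (((1 - p * q * τ) * B1 + (p - q * τ) * B0) *
            ((1 - p * q * τ) * A1 + (q - p * τ) * A0))) =
      (A1 * B1 - p * q * (τ * A0 * (τ * B0)) + q * (A1 * (τ * B0)) + p * (B1 * (τ * A0))) +
      (τ * ((p - q * τ) * (q - p * τ) + τ * ((1 - p * q * τ) * (1 - p * q * τ))) * (A1 * B1) +
      τ * (p ^ 2 * q ^ 2 - p ^ 2 - q ^ 2 + p * q * τ) * (τ * A0 * (τ * B0)) +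
      τ * (q * (-(p * q) - τ + p * q * τ * τ)) * (A1 * (τ * B0)) +
      τ * (p * (-(p * q) - τ + p * q * τ * τ)) * (B1 * (τ * A0))) := by ring
  have key2 : A1 * B1 - p * q * (τ * A0 * (τ * B0)) + q * (A1 * (τ * B0)) + p * (B1 * (τ * A0)) =
      c ^ 2 - 2 * p * q * (τ * A0) * (τ * B0) := by
    rw [hA1, hB1]; ring
  rw [key, key2]
  generalize τ * ((p - q * τ) * (q - p * τ) + τ * ((1 - p * q * τ) * (1 - p * q * τ))) * (A1 * B1)
    = z1 at *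
  generalize τ * (p ^ 2 * q ^ 2 - p ^ 2 - q ^ 2 + p * q * τ) * (τ * A0 * (τ * B0)) = z2 at *
  generalize τ * (q * (-(p * q) - τ + p * q * τ * τ)) * (A1 * (τ * B0)) = z3 at *
  generalize τ * (p * (-(p * q) - τ + p * q * τ * τ)) * (B1 * (τ * A0)) = z4 at *
  generalize τ * A0 = x at *
  generalize τ * B0 = y at *
  linarith

lemma sub_sq_two {p c x : ℝ} (hp2 : p ^ 2 ≤ 1) : (c - p * x) ^ 2 ≤ 2 * c ^ 2 + 2 * x ^ 2 := by
  nlinarith [sq_nonneg (c + p * x), mul_nonneg (sub_nonneg.mpr hp2) (sq_nonneg x)]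

lemma cross_two {p q x y X Y : ℝ} (hxs : x ^ 2 ≤ X) (hys : y ^ 2 ≤ Y) :
    2 * p * q * x * y ≤ p ^ 2 * X + q ^ 2 * Y := by
  nlinarith [sq_nonneg (p * x - q * y), mul_le_mul_of_nonneg_left hxs (sq_nonneg p),
    mul_le_mul_of_nonneg_left hys (sq_nonneg q)]

lemma core_two {p q τ J η A0 A1 B0 B1 ε : ℝ} (hp : |p| ≤ 1) (hq : |q| ≤ 1) (hτ : |τ| ≤ |J|)
    (hJ : |J| ≤ η) (hη : η ≤ 1 / 100) (hc : A1 + p * τ * A0 = B1 + q * τ * B0)
    (hε : |ε| ≤ 6 * η * J ^ 2) :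
    -J ^ 2 * ((p ^ 2 + 90 * η) * A0 ^ 2 + (q ^ 2 + 90 * η) * B0 ^ 2) ≤
      A1 * B1 - τ * A0 * B0 + (τ + ε) *
        (((1 - p * q * τ) * B0 + (p - q * τ) * B1) * ((1 - p * q * τ) * A0 + (q - p * τ) * A1) +
          τ * (((1 - p * q * τ) * B1 + (p - q * τ) * B0) *
            ((1 - p * q * τ) * A1 + (q - p * τ) * A0))) := by
  have hη0 : 0 ≤ η := (abs_nonneg J).trans hJ
  have hτη : |τ| ≤ η := hτ.trans hJ
  have hτJ : τ ^ 2 ≤ J ^ 2 := sq_le_sq.mpr hτ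
  have hJ2 : J ^ 2 ≤ (1 / 100) ^ 2 := by
    rw [← sq_abs]; exact pow_le_pow_left₀ (abs_nonneg _) (hJ.trans hη) 2
  obtain ⟨c, hA1, hB1⟩ : ∃ c, A1 = c - p * (τ * A0) ∧ B1 = c - q * (τ * B0) :=
    ⟨A1 + p * τ * A0, by ring, by rw [hc]; ring⟩
  have t3 := eps_two (A0 := A0) (A1 := A1) (B0 := B0) (B1 := B1) hp hq (hτη.trans hη) hε
  have t4 := poly_two hp hq hτη hη hA1 hB1
  rw [add_mul τ ε]
  generalize ((1 - p * q * τ) * B0 + (p - q * τ) * B1) * ((1 - p * q * τ) * A0 + (q - p * τ) * A1) +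
          τ * (((1 - p * q * τ) * B1 + (p - q * τ) * B0) *
            ((1 - p * q * τ) * A1 + (q - p * τ) * A0)) = W at *
  have hp2 : p ^ 2 ≤ 1 := (sq_le_one_iff_abs_le_one p).mpr hp
  have hq2 : q ^ 2 ≤ 1 := (sq_le_one_iff_abs_le_one q).mpr hq
  have hxs : (τ * A0) ^ 2 ≤ J ^ 2 * A0 ^ 2 := by
    rw [mul_pow]; exact mul_le_mul_of_nonneg_right hτJ (sq_nonneg _)
  have hys : (τ * B0) ^ 2 ≤ J ^ 2 * B0 ^ 2 := by
    rw [mul_pow]; exact mul_le_mul_of_nonneg_right hτJ (sq_nonneg _)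
  have u1 : 6 * η * J ^ 2 * (3 * (A0 ^ 2 + B0 ^ 2)) =
      18 * (η * (J ^ 2 * A0 ^ 2 + J ^ 2 * B0 ^ 2)) := by ring
  have u6 : -J ^ 2 * ((p ^ 2 + 90 * η) * A0 ^ 2 + (q ^ 2 + 90 * η) * B0 ^ 2) =
      -(p ^ 2 * (J ^ 2 * A0 ^ 2) + q ^ 2 * (J ^ 2 * B0 ^ 2)) -
        90 * (η * (J ^ 2 * A0 ^ 2 + J ^ 2 * B0 ^ 2)) := by ring
  have hKη : 6 * η * J ^ 2 ≤ η := by
    have := mul_le_mul_of_nonneg_left hJ2 hη0
    linarith
  have hX0 : 0 ≤ J ^ 2 * A0 ^ 2 := by positivity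
  have hY0 : 0 ≤ J ^ 2 * B0 ^ 2 := by positivity
  rw [u6]
  rw [mul_add, u1] at t3
  generalize τ * A0 * B0 = z at *
  generalize τ * A0 = x at *
  generalize τ * B0 = y at *
  generalize J ^ 2 * A0 ^ 2 = X at *
  generalize J ^ 2 * B0 ^ 2 = Y at *
  generalize 6 * η * J ^ 2 = K at *
  have hA1s : A1 ^ 2 ≤ 2 * c ^ 2 + 2 * x ^ 2 := by
    rw [hA1]; exact sub_sq_two hp2
  have hB1s : B1 ^ 2 ≤ 2 * c ^ 2 + 2 * y ^ 2 := by
    rw [hB1]; exact sub_sq_two hq2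
  have m1 : 2 * p * q * x * y ≤ p ^ 2 * X + q ^ 2 * Y := cross_two hxs hys
  have u2 : K * (3 * (A1 ^ 2 + B1 ^ 2)) ≤ η * (3 * (4 * c ^ 2 + 2 * (X + Y))) :=
    mul_le_mul hKη (by linarith) (by positivity) hη0
  have u3 : η * (2 * (A1 ^ 2 + B1 ^ 2) + 2 * (x ^ 2 + y ^ 2)) ≤ η * (8 * c ^ 2 + 6 * (X + Y)) :=
    mul_le_mul_of_nonneg_left (by linarith) hη0
  have u4 : η * c ^ 2 ≤ 1 / 100 * c ^ 2 := mul_le_mul_of_nonneg_right hη (sq_nonneg c)
  have u5 : 0 ≤ η * (X + Y) := by positivity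
  have u7 := sq_nonneg c
  linarith

lemma den_two {p τ : ℝ} (hp : |p| ≤ 1) (hτ : |τ| ≤ 1 / 100) (t : Bool) :
    99 / 100 ≤ 1 + p * (τ * sp t) := by
  have h : |p * (τ * sp t)| ≤ 1 * (1 / 100 * 1) :=
    abs_mul_le_two hp (abs_mul_le_two hτ (abs_sp t).le)
  have := neg_abs_le (p * (τ * sp t))
  linarith

lemma one_sub_m_two {p τ : ℝ} (t : Bool) (hD : 1 + p * (τ * sp t) ≠ 0) :
    1 - ((p + τ * sp t) / (1 + p * (τ * sp t))) ^ 2 =
      (1 - p ^ 2) * (1 - τ ^ 2) / (1 + p * (τ * sp t)) ^ 2 := by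
  have h := sp_sq t
  rw [div_pow, one_sub_div (pow_ne_zero 2 hD)]
  congr 1
  linear_combination (p ^ 2 * τ ^ 2 - τ ^ 2) * h

lemma m_sub_two {p τ : ℝ} (s t : Bool) (hD : 1 + p * (τ * sp t) ≠ 0) :
    (p + τ * sp t) / (1 + p * (τ * sp t)) - sp s =
      -(sp s * (1 - p * sp s) * (1 - τ * sp s * sp t)) / (1 + p * (τ * sp t)) := by
  have h := sp_sq s
  rw [div_sub' hD]
  congr 1
  linear_combination (-p - τ * sp t + p * τ * sp s * sp t) * h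

lemma inv_den_two {p τ : ℝ} (t : Bool) (hD : 1 + p * (τ * sp t) ≠ 0) (hE : 1 - p ^ 2 * τ ^ 2 ≠ 0) :
    (1 + p * (τ * sp t))⁻¹ = (1 - p * τ * sp t) / (1 - p ^ 2 * τ ^ 2) := by
  have h := sp_sq t
  rw [inv_eq_one_div, div_eq_div_iff hD hE]
  linear_combination (p ^ 2 * τ ^ 2) * h

lemma termR_two {p q τ J A B : ℝ} (s t : Bool) (hD : 1 + p * (τ * sp t) ≠ 0)
    (hD' : 1 + q * (τ * sp s) ≠ 0) (hE : 1 - p ^ 2 * τ ^ 2 ≠ 0) (hE' : 1 - q ^ 2 * τ ^ 2 ≠ 0) :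
    (1 + p * sp s) * (1 + q * sp t) * (1 + τ * sp s * sp t) *
      ((((p + τ * sp t) / (1 + p * (τ * sp t)) - sp s) * ((q + τ * sp s) / (1 + q * (τ * sp s)) - sp t) +
        J * (1 - ((p + τ * sp t) / (1 + p * (τ * sp t))) ^ 2) *
          (1 - ((q + τ * sp s) / (1 + q * (τ * sp s))) ^ 2)) *
        (A * (1 + p * (τ * sp t)) * (B * (1 + q * (τ * sp s))))) =
      (1 - p ^ 2) * (1 - q ^ 2) * (1 - τ ^ 2) * ((sp s * sp t - τ) * (A * B) +
        J * (1 - τ ^ 2) / ((1 - p ^ 2 * τ ^ 2) * (1 - q ^ 2 * τ ^ 2)) *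
          ((1 + p * sp s) * (1 - q * τ * sp s) * B * ((1 + q * sp t) * (1 - p * τ * sp t) * A) *
            (1 + τ * sp s * sp t))) := by
  rw [one_sub_m_two t hD, one_sub_m_two s hD', m_sub_two s t hD, m_sub_two t s hD']
  have h1 := inv_den_two t hD hE
  have h2 := inv_den_two s hD' hE'
  generalize 1 + p * (τ * sp t) = D at *
  generalize 1 + q * (τ * sp s) = D' at *
  generalize 1 - p ^ 2 * τ ^ 2 = E at *
  generalize 1 - q ^ 2 * τ ^ 2 = E' at *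
  have e0 : (1 + p * sp s) * (1 + q * sp t) * (1 + τ * sp s * sp t) *
      (-(sp s * (1 - p * sp s) * (1 - τ * sp s * sp t)) *
        -(sp t * (1 - q * sp t) * (1 - τ * sp t * sp s))) =
      (1 - p ^ 2) * (1 - q ^ 2) * (1 - τ ^ 2) * (sp s * sp t - τ) := by
    cases s <;> cases t <;> simp only [sp, Bool.false_eq_true, if_true, if_false] <;> ring
  generalize -(sp s * (1 - p * sp s) * (1 - τ * sp s * sp t)) = N1 at *
  generalize -(sp t * (1 - q * sp t) * (1 - τ * sp t * sp s)) = N2 at *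
  generalize 1 + p * sp s = w1 at *
  generalize 1 + q * sp t = w2 at *
  generalize 1 + τ * sp s * sp t = w3 at *
  generalize 1 - p ^ 2 = P at *
  generalize 1 - q ^ 2 = Q at *
  generalize 1 - τ ^ 2 = T at *
  have e1 : w1 * w2 * w3 * ((N1 / D * (N2 / D')) * (A * D * (B * D'))) =
      w1 * w2 * w3 * (N1 * N2) * (A * B) := by field_simp
  have e2 : w1 * w2 * w3 * ((J * (P * T / D ^ 2) * (Q * T / D' ^ 2)) * (A * D * (B * D'))) =
      P * Q * T * (J * T * (w1 * D'⁻¹ * B * (w2 * D⁻¹ * A) * w3)) := by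
    field_simp
  rw [add_mul, mul_add, e1, e2, h1, h2, e0]
  field_simp

lemma mlow_two {p τ η : ℝ} (hp : |p| ≤ 1) (hτ : |τ| ≤ η) (hη : η ≤ 1 / 100) (t : Bool) :
    p ^ 2 + 90 * η ≤
      (1 + p * (τ * sp t)) * (((p + τ * sp t) / (1 + p * (τ * sp t))) ^ 2 + 100 * η) := by
  have hD := den_two hp (hτ.trans hη) t
  have hη0 : 0 ≤ η := (abs_nonneg τ).trans hτ
  have hu : |τ * sp t| ≤ η * 1 := abs_mul_le_two hτ (abs_sp t).le
  generalize τ * sp t = u at *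
  have hpu : |p * u| ≤ 1 * (η * 1) := abs_mul_le_two hp hu
  have hp2 : p ^ 2 ≤ 1 := (sq_le_one_iff_abs_le_one p).mpr hp
  have hD0 : 0 < 1 + p * u := by linarith
  have h1 : p ^ 2 - 3 * η ≤ (1 + p * u) * ((p + u) / (1 + p * u)) ^ 2 := by
    have : (1 + p * u) * ((p + u) / (1 + p * u)) ^ 2 = (p + u) ^ 2 / (1 + p * u) := by
      field_simp
    rw [this, le_div_iff₀ hD0]
    rw [abs_le] at hpu
    have h3 : -η ≤ (1 - p ^ 2) * (p * u) := by nlinarith [hpu.1, hpu.2, sq_nonneg p]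
    have h4 := mul_le_mul_of_nonneg_left hD hη0
    nlinarith [sq_nonneg u, hpu.1]
  have h2 := mul_le_mul_of_nonneg_left hD hη0
  nlinarith

lemma sumL_two {p q τ η A0 A1 : ℝ} (hp : |p| ≤ 1) (hq : |q| ≤ 1) (hτ : |τ| ≤ η)
    (hη : η ≤ 1 / 100) :
    4 * ((1 - p ^ 2) * (1 - q ^ 2) * (1 - τ ^ 2)) * ((p ^ 2 + 90 * η) * A0 ^ 2) ≤
      ∑ s : Bool, ∑ t : Bool, (1 + p * sp s) * (1 + q * sp t) * (1 + τ * sp s * sp t) *
        ((((p + τ * sp t) / (1 + p * (τ * sp t))) ^ 2 + 100 * η) *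
          (1 - ((p + τ * sp t) / (1 + p * (τ * sp t))) ^ 2) *
            ((A0 + A1 * sp t) * (1 + p * (τ * sp t))) ^ 2) := by
  have hη0 : 0 ≤ η := (abs_nonneg τ).trans hτ
  have hp2 : p ^ 2 ≤ 1 := (sq_le_one_iff_abs_le_one p).mpr hp
  have hτ2 : τ ^ 2 ≤ 1 := (sq_le_one_iff_abs_le_one τ).mpr (hτ.trans (hη.trans (by norm_num)))
  rw [sum_comm]
  have h1 : ∀ t : Bool, 2 * ((1 - p ^ 2) * (1 - τ ^ 2) * (p ^ 2 + 90 * η)) *
      ((1 + q * sp t) * (A0 + A1 * sp t) ^ 2) ≤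
      ∑ s : Bool, (1 + p * sp s) * (1 + q * sp t) * (1 + τ * sp s * sp t) *
        ((((p + τ * sp t) / (1 + p * (τ * sp t))) ^ 2 + 100 * η) *
          (1 - ((p + τ * sp t) / (1 + p * (τ * sp t))) ^ 2) *
            ((A0 + A1 * sp t) * (1 + p * (τ * sp t))) ^ 2) := by
    intro t
    have hD := den_two hp (hτ.trans hη) t
    have hD0 : 1 + p * (τ * sp t) ≠ 0 := by linarith
    have hm := mlow_two hp hτ hη t
    rw [one_sub_m_two t hD0]
    generalize ((p + τ * sp t) / (1 + p * (τ * sp t))) ^ 2 + 100 * η = M at *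
    have hq1 : 0 ≤ 1 + q * sp t := by
      have := abs_mul_le_two hq (abs_sp t).le
      have := neg_abs_le (q * sp t)
      linarith
    have e : ∑ s : Bool, (1 + p * sp s) * (1 + q * sp t) * (1 + τ * sp s * sp t) *
        (M * ((1 - p ^ 2) * (1 - τ ^ 2) / (1 + p * (τ * sp t)) ^ 2) *
            ((A0 + A1 * sp t) * (1 + p * (τ * sp t))) ^ 2) =
        2 * ((1 - p ^ 2) * (1 - τ ^ 2) * ((1 + p * (τ * sp t)) * M)) *
          ((1 + q * sp t) * (A0 + A1 * sp t) ^ 2) := by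
      have a1 : sp true = 1 := rfl
      have a2 : sp false = -1 := rfl
      rw [Fintype.sum_bool, a1, a2]
      have e' : ∀ D X Y : ℝ, D ≠ 0 → M * (X / D ^ 2) * (Y * D) ^ 2 = M * X * Y ^ 2 := by
        intro D X Y hD; field_simp
      rw [e' _ _ _ hD0]
      ring
    rw [e]
    have hP : 0 ≤ (1 - p ^ 2) * (1 - τ ^ 2) := mul_nonneg (by linarith) (by linarith)
    exact mul_le_mul_of_nonneg_right (mul_le_mul_of_nonneg_left
      (mul_le_mul_of_nonneg_left hm hP) (by norm_num)) (mul_nonneg hq1 (sq_nonneg _))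
  refine le_trans ?_ (sum_le_sum fun t _ => h1 t)
  have a1 : sp true = 1 := rfl
  have a2 : sp false = -1 := rfl
  rw [Fintype.sum_bool, a1, a2]
  have hP : 0 ≤ (1 - p ^ 2) * (1 - τ ^ 2) * (p ^ 2 + 90 * η) :=
    mul_nonneg (mul_nonneg (by linarith) (by linarith)) (by positivity)
  have := mul_nonneg hP (sq_nonneg (A1 + q * A0))
  nlinarith

lemma lam_two {p q J η : ℝ} (hp : |p| ≤ 1) (hq : |q| ≤ 1) (hJ : |J| ≤ η) (hη : η ≤ 1 / 100) :
    |J * (1 - tanh J ^ 2) / ((1 - p ^ 2 * tanh J ^ 2) * (1 - q ^ 2 * tanh J ^ 2)) - tanh J| ≤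
      6 * η * J ^ 2 := by
  obtain ⟨h1, h2⟩ := tanh_bd_two (x := J) (hJ.trans (hη.trans (by norm_num)))
  generalize tanh J = τ at *
  have hp2 : p ^ 2 ≤ 1 := (sq_le_one_iff_abs_le_one p).mpr hp
  have hq2 : q ^ 2 ≤ 1 := (sq_le_one_iff_abs_le_one q).mpr hq
  have hτJ : τ ^ 2 ≤ J ^ 2 := sq_le_sq.mpr h1
  have hJ2 : J ^ 2 ≤ (1 / 100) ^ 2 := by
    rw [← sq_abs]; exact pow_le_pow_left₀ (abs_nonneg _) (hJ.trans hη) 2
  have hτ0 := sq_nonneg τ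
  have a1 : p ^ 2 * τ ^ 2 ≤ τ ^ 2 := mul_le_of_le_one_left hτ0 hp2
  have a2 : q ^ 2 * τ ^ 2 ≤ τ ^ 2 := mul_le_of_le_one_left hτ0 hq2
  have a3 : 0 ≤ p ^ 2 * τ ^ 2 := by positivity
  have a4 : 0 ≤ q ^ 2 * τ ^ 2 := by positivity
  generalize p ^ 2 * τ ^ 2 = u at *
  generalize q ^ 2 * τ ^ 2 = v at *
  have huv : u * v ≤ τ ^ 2 := by nlinarith
  have huv0 : 0 ≤ u * v := mul_nonneg a3 a4
  have hΔ : 1 / 2 ≤ (1 - u) * (1 - v) := by nlinarith
  have hΔ0 : 0 < (1 - u) * (1 - v) := by linarith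
  have e : J * (1 - τ ^ 2) / ((1 - u) * (1 - v)) - τ =
      ((J - τ) * (1 - τ ^ 2) + τ * (u + v - u * v - τ ^ 2)) / ((1 - u) * (1 - v)) := by
    rw [eq_div_iff hΔ0.ne', sub_mul, div_mul_cancel₀ _ hΔ0.ne']; ring
  rw [e, abs_div, abs_of_pos hΔ0, div_le_iff₀ hΔ0]
  have b1 : |(J - τ) * (1 - τ ^ 2)| ≤ |J| ^ 3 * 1 :=
    abs_mul_le_two h2 (by rw [abs_le]; constructor <;> linarith)
  have b2 : |τ * (u + v - u * v - τ ^ 2)| ≤ |J| * (2 * J ^ 2) :=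
    abs_mul_le_two h1 (by rw [abs_le]; constructor <;> linarith)
  have b3 := abs_add_le ((J - τ) * (1 - τ ^ 2)) (τ * (u + v - u * v - τ ^ 2))
  have b4 : |J| ^ 3 = |J| * J ^ 2 := by rw [← sq_abs J]; ring
  have b5 : |J| * J ^ 2 ≤ η * J ^ 2 := mul_le_mul_of_nonneg_right hJ (sq_nonneg J)
  have b6 : 0 ≤ η * J ^ 2 := mul_nonneg ((abs_nonneg J).trans hJ) (sq_nonneg J)
  have b7 := mul_le_mul_of_nonneg_left hΔ b6
  linarith

lemma param_two {p τ : ℝ} (hp : |p| ≤ 1) (hτ : |τ| ≤ 1 / 100) (a c : ℝ) :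
    ∃ A0 A1 : ℝ, c = A1 + p * τ * A0 ∧
      ∀ t : Bool, a + c * sp t = (A0 + A1 * sp t) * (1 + p * (τ * sp t)) := by
  have h1 := den_two hp hτ true
  have h2 := den_two hp hτ false
  have a1 : sp true = 1 := rfl
  have a2 : sp false = -1 := rfl
  rw [a1] at h1
  rw [a2] at h2
  have h3 : 1 + p * τ ≠ 0 := by linarith
  have h4 : 1 - p * τ ≠ 0 := by linarith
  refine ⟨((a + c) / (1 + p * τ) + (a - c) / (1 - p * τ)) / 2,
    ((a + c) / (1 + p * τ) - (a - c) / (1 - p * τ)) / 2, ?_, fun t => ?_⟩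
  · field_simp; ring
  · cases t
    · rw [a2]; field_simp; ring
    · rw [a1]; field_simp; ring

theorem two_spin {h k J η : ℝ} (a b c : ℝ) (hJ : |J| ≤ η) (hη : η ≤ 1 / 100) :
    -J ^ 2 * ∑ s : Bool, ∑ t : Bool, exp (h * sp s + k * sp t + J * sp s * sp t) *
      ((tanh (h + J * sp t) ^ 2 + 100 * η) * (1 - tanh (h + J * sp t) ^ 2) * (a + c * sp t) ^ 2 +
        (tanh (k + J * sp s) ^ 2 + 100 * η) * (1 - tanh (k + J * sp s) ^ 2) * (b + c * sp s) ^ 2) ≤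
    ∑ s : Bool, ∑ t : Bool, exp (h * sp s + k * sp t + J * sp s * sp t) *
      (((tanh (h + J * sp t) - sp s) * (tanh (k + J * sp s) - sp t) +
        J * (1 - tanh (h + J * sp t) ^ 2) * (1 - tanh (k + J * sp s) ^ 2)) *
          ((a + c * sp t) * (b + c * sp s))) := by
  have hp := (abs_tanh_lt_one h).le
  have hq := (abs_tanh_lt_one k).le
  have hτJ := (tanh_bd_two (x := J) (hJ.trans (hη.trans (by norm_num)))).1
  have hτη := hτJ.trans hJ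
  have hτ := hτη.trans hη
  have hε := lam_two hp hq hJ hη
  obtain ⟨A0, A1, hA, hA'⟩ := param_two hp hτ a c
  obtain ⟨B0, B1, hB, hB'⟩ := param_two hq hτ b c
  have hL1 := sumL_two (A0 := A0) (A1 := A1) hp hq hτη hη
  have hL2 := sumL_two (A0 := B0) (A1 := B1) hq hp hτη hη
  have hcore := core_two hp hq hτJ hJ hη (hA.symm.trans hB) hε
  have hC : 0 < cosh h * cosh k * cosh J := by positivity
  have hP : 0 ≤ (1 - tanh h ^ 2) * (1 - tanh k ^ 2) * (1 - tanh J ^ 2) :=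
    mul_nonneg (mul_nonneg (sub_nonneg.mpr (tanh_sq_lt_one h).le)
      (sub_nonneg.mpr (tanh_sq_lt_one k).le)) (sub_nonneg.mpr (tanh_sq_lt_one J).le)
  have hE : ∀ p : ℝ, |p| ≤ 1 → 1 - p ^ 2 * tanh J ^ 2 ≠ 0 := by
    intro p hp
    have hp2 : p ^ 2 ≤ 1 := (sq_le_one_iff_abs_le_one p).mpr hp
    have := mul_le_of_le_one_left (sq_nonneg (tanh J)) hp2
    have := tanh_sq_lt_one J
    linarith
  have hw : ∀ s t : Bool, exp (h * sp s + k * sp t + J * sp s * sp t) = cosh h * cosh k * cosh J *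
      ((1 + tanh h * sp s) * (1 + tanh k * sp t) * (1 + tanh J * sp s * sp t)) := by
    intro s t
    rw [exp_add, exp_add, exp_sp_two, exp_sp_two, exp_sp2_two]; ring
  simp only [hw, tanh_add_two, tanh_sp_two, hA', hB', mul_assoc (cosh h * cosh k * cosh J),
    ← mul_sum]
  have hD : ∀ (p : ℝ), |p| ≤ 1 → ∀ t, 1 + p * (tanh J * sp t) ≠ 0 := by
    intro p hp t
    have := den_two hp hτ t
    linarith
  simp only [termR_two _ _ (hD _ hp _) (hD _ hq _) (hE _ hp) (hE _ hq), ← mul_sum]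
  rw [mul_left_comm]
  refine mul_le_mul_of_nonneg_left ?_ hC.le
  rw [sum_comm] at hL2
  rw [add_sub_cancel] at hcore
  generalize J * (1 - tanh J ^ 2) / ((1 - tanh h ^ 2 * tanh J ^ 2) * (1 - tanh k ^ 2 * tanh J ^ 2)) = l
    at *
  generalize tanh h = p at *
  generalize tanh k = q at *
  generalize tanh J = τ at *
  have eR : ∑ s : Bool, ∑ t : Bool, ((sp s * sp t - τ) * ((A0 + A1 * sp t) * (B0 + B1 * sp s)) +
      l * ((1 + p * sp s) * (1 - q * τ * sp s) * (B0 + B1 * sp s) *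
        ((1 + q * sp t) * (1 - p * τ * sp t) * (A0 + A1 * sp t)) * (1 + τ * sp s * sp t))) =
      4 * (A1 * B1 - τ * A0 * B0 + l *
        (((1 - p * q * τ) * B0 + (p - q * τ) * B1) * ((1 - p * q * τ) * A0 + (q - p * τ) * A1) +
          τ * (((1 - p * q * τ) * B1 + (p - q * τ) * B0) *
            ((1 - p * q * τ) * A1 + (q - p * τ) * A0)))) := by
    simp only [Fintype.sum_bool, sp, Bool.false_eq_true, if_true, if_false]
    ring
  rw [eR]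
  have hsum := add_le_add hL1 hL2
  rw [← sum_add_distrib] at hsum
  simp only [← sum_add_distrib] at hsum
  have eL : ∀ s t : Bool, ∀ X Y : ℝ, (1 + p * sp s) * (1 + q * sp t) * (1 + τ * sp s * sp t) * X +
      (1 + q * sp t) * (1 + p * sp s) * (1 + τ * sp t * sp s) * Y =
      (1 + p * sp s) * (1 + q * sp t) * (1 + τ * sp s * sp t) * (X + Y) := by
    intro s t X Y; ring
  simp only [eL] at hsum
  have h1 := mul_le_mul_of_nonneg_left hsum (sq_nonneg J)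
  have h2 := mul_le_mul_of_nonneg_left hcore hP
  rw [neg_mul]
  linarith

end Vale.Agent.P150
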