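import Vale.Agent.P150.Semi
import Vale.Agent.P150.Two

/-! A pointwise gradient estimate.  Write `a i = dd i f`, `m j = mw w j`, `c i j = dd j (dd i f)`.
`grad_ineq`: the product rule `dd i (u v) x = u x * dd i v x + dd i u x * v (up i (!x i) x)` and `Lw_eq` give
`dd i (Lw f) x = -a i + Lw (a i) x + ∑_{j ≠ i} δ i j * (a j x - 2 sp (x i) c i j)`, with `δ i j = dd i (m j) x`
(`dd_comm`; the term `j = i` of `Lw (a i)` vanishes).  Also
`Lw (g²) - 2 g Lw g = ∑ j, 2 (1 - m j sp (x j)) (dd j g)²`.  With `v j = 1 - m j ²`, `b = tanh (2 J i j sp (x i))`: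
`δ i j = sp (x i) b v j / (2 (1 - m j b))`, so `|δ i j - J i j v j| ≤ 3 J i j ² v j` and `|δ i j| ≤ 2 |J i j| v j`;
`v j ≤ 2 (1 - m j sp (x j))`.  Use `Good.bil` for the main term and `4 |a δ c| ≤ 2 (1 - m s) c² + 16 J² a²`.
`grad_Pt`: for fixed `t`, the function `s ↦ exp (-c s) * (Pt (t - s) (G s)) x` with `G s = ∑ i, (dd i (Pt s f))²` has
derivative `≤ 0` on `[0, t]` (`hasDerivAt_Pt`, `Pt_comm`, `Pt_mono`, `grad_ineq`; write everything as finite sums over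
configurations); `antitoneOn_of_deriv_nonpos`.
`var_Pt`: likewise `s ↦ Pt s ((Pt (t - s) f)²) x` has derivative `Pt s (Lw (g²) - 2 g Lw g) ≤ 4 B exp (c t)`. -/

namespace Vale.Agent.P150

open Finset Real

variable {n : ℕ} {J : Matrix (Fin n) (Fin n) ℝ} {Λ R η B t : ℝ} {f : Cfg n → ℝ}

lemma dd_mul_gr (i : Fin n) (u v : Cfg n → ℝ) (x : Cfg n) :
    dd i (fun y => u y * v y) x =
      u x * dd i v x + dd i u x * (v x - 2 * sp (x i) * dd i v x) := by
  have h : dd i (fun y => u y * v y) x =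
      (u (up i true x) * v (up i true x) - u (up i false x) * v (up i false x)) / 2 := rfl
  have a1 : sp true = 1 := rfl
  have a2 : sp false = -1 := rfl
  rw [h, up_eq (f := u) true, up_eq (f := u) false, up_eq (f := v) true, up_eq (f := v) false, a1, a2]
  ring

lemma dd_sum_gr {ι : Type*} (s : Finset ι) (i : Fin n) (F : ι → Cfg n → ℝ) (x : Cfg n) :
    dd i (fun y => ∑ k ∈ s, F k y) x = ∑ k ∈ s, dd i (F k) x := by
  simp only [dd, ← sum_div, sum_sub_distrib]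

lemma dd_sub_gr (i : Fin n) (u v : Cfg n → ℝ) (x : Cfg n) :
    dd i (fun y => u y - v y) x = dd i u x - dd i v x := by
  simp only [dd]; ring

lemma dd_comm_gr (i j : Fin n) (f : Cfg n → ℝ) (x : Cfg n) : dd i (dd j f) x = dd j (dd i f) x := by
  by_cases h : i = j
  · rw [h]
  · rw [dd_comm h]

lemma dd_Lw_gr {w : Cfg n → ℝ} (hw : Pos w) (i : Fin n) (f : Cfg n → ℝ) (x : Cfg n) :
    dd i (Lw w f) x = -dd i f x + ∑ j, ((mw w j x - sp (x j)) * dd i (dd j f) x +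
      dd i (mw w j) x * (dd j f x - 2 * sp (x i) * dd i (dd j f) x)) := by
  have h : Lw w f = fun y => ∑ j, (mw w j y - sp (y j)) * dd j f y := funext fun y => Lw_eq hw y
  rw [h, dd_sum_gr]
  simp only [dd_mul_gr, dd_sub_gr, dd_sp, sub_mul (dd i (mw w _) x), ite_mul, one_mul, zero_mul,
    ← add_sub_assoc, sum_sub_distrib, sum_ite_eq, mem_univ, if_true]
  rw [Free.dd_eq free_dd]
  ring

lemma Lw_sq_gr {w : Cfg n → ℝ} (hw : Pos w) (g : Cfg n → ℝ) (x : Cfg n) :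
    Lw w (fun y => g y ^ 2) x = ∑ j, (2 * g x * ((mw w j x - sp (x j)) * dd j g x) +
      2 * (1 - mw w j x * sp (x j)) * dd j g x ^ 2) := by
  rw [Lw_eq hw]
  refine sum_congr rfl fun j _ => ?_
  simp only [sq, dd_mul_gr]
  have h := sp_sq (x j)
  linear_combination (2 * dd j g x * dd j g x) * h

lemma Lw_sum_gr {w : Cfg n → ℝ} (hw : Pos w) {ι : Type*} (s : Finset ι) (F : ι → Cfg n → ℝ)
    (x : Cfg n) : Lw w (fun y => ∑ k ∈ s, F k y) x = ∑ k ∈ s, Lw w (F k) x := by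
  simp only [Lw_eq hw, dd_sum_gr, mul_sum]
  rw [sum_comm]

lemma delta_alg_gr {m s K θ : ℝ} (hm : |m| ≤ 1) (hs : |s| ≤ 1) (hK : |K| ≤ 1 / 100)
    (h1 : |θ| ≤ |2 * K|) (h2 : |2 * K - θ| ≤ |2 * K| ^ 3) :
    |θ / (2 * (1 - m * s * θ)) - K| ≤ 3 * K ^ 2 := by
  rw [abs_mul, abs_two] at h1 h2
  have h3 : |m * s| ≤ 1 * 1 := abs_mul_le_two hm hs
  have h4 : |m * s * θ| ≤ 1 * 1 * (2 * |K|) := abs_mul_le_two h3 h1
  have h5 : |K * (m * s * θ)| ≤ |K| * (1 * 1 * (2 * |K|)) := abs_mul_le_two le_rfl h4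
  generalize m * s * θ = r at *
  have h6 := le_abs_self r
  have hD : 49 / 50 ≤ 1 - r := by linarith
  have hD0 : 0 < 2 * (1 - r) := by linarith
  have e : θ / (2 * (1 - r)) - K = (2 * (K * r) - (2 * K - θ)) / (2 * (1 - r)) := by
    rw [div_sub' hD0.ne']
    congr 1
    ring
  rw [e, abs_div, abs_of_pos hD0, div_le_iff₀ hD0]
  have h7 := abs_sub (2 * (K * r)) (2 * K - θ)
  rw [abs_mul 2, abs_two] at h7
  have h8 : |K| * |K| = K ^ 2 := by rw [← sq, sq_abs]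
  have h9 : (2 * |K|) ^ 3 = 8 * (|K| * K ^ 2) := by rw [← h8]; ring
  have h10 := mul_le_mul_of_nonneg_right hK (sq_nonneg K)
  have h11 := mul_le_mul_of_nonneg_left hD (sq_nonneg K)
  rw [h9] at h2
  have h12 := sq_nonneg K
  linarith

lemma delta_eq_gr (hs : ∀ i j, J i j = J j i) (hd : ∀ i, J i i = 0) (h : Fin n → ℝ) {i j : Fin n}
    (hij : i ≠ j) (hK : |J i j| ≤ 1 / 100) (x : Cfg n) :
    dd i (mw (Wt J h) j) x = tanh (2 * J i j) / (2 * (1 - mw (Wt J h) j x * sp (x i) * tanh (2 * J i j))) *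
      (1 - mw (Wt J h) j x ^ 2) := by
  have hθ : |tanh (2 * J i j)| ≤ 1 / 50 := by
    have h1 : |2 * J i j| ≤ 1 / 50 := by rw [abs_mul, abs_two]; linarith
    exact (tanh_bd_two (h1.trans (by norm_num))).1.trans h1
  have h3 := abs_mul_le_two (abs_tanh_lt_one (loc J h j x)).le hθ
  rw [abs_le] at h3
  simp only [dd, mw_Wt hs hd, loc_up hij, hs j i]
  have a1 : sp true = 1 := rfl
  have a2 : sp false = -1 := rfl
  cases x i
  · rw [a1, a2, show J i j * (1 - -1) = 2 * J i j by ring, sub_self, mul_zero, add_zero, tanh_add_two]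
    generalize tanh (loc J h j x) = m at *
    generalize tanh (2 * J i j) = θ at *
    have hD : 1 + m * θ ≠ 0 := by linarith [h3.1]
    rw [show 1 - m * -1 * θ = 1 + m * θ by ring]
    field_simp
    ring
  · rw [a1, a2, show J i j * (-1 - 1) = -(2 * J i j) by ring, sub_self, mul_zero, add_zero,
      tanh_add_two, tanh_neg]
    generalize tanh (loc J h j x) = m at *
    generalize tanh (2 * J i j) = θ at *
    have hD : 1 - m * θ ≠ 0 := by linarith [h3.2]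
    rw [show 1 + m * -θ = 1 - m * θ by ring, mul_one]
    field_simp
    ring

lemma delta_bd_gr (hJ : Good J Λ R η) (hη : η ≤ 1 / 100) (h : Fin n → ℝ) (i j : Fin n) (x : Cfg n) :
    |dd i (mw (Wt J h) j) x - J i j * (1 - mw (Wt J h) j x ^ 2)| ≤
      3 * J i j ^ 2 * (1 - mw (Wt J h) j x ^ 2) := by
  have hv : 0 ≤ 1 - mw (Wt J h) j x ^ 2 := sub_nonneg.mpr (mw_sq_lt Wt_pos x).le
  by_cases hij : i = j
  · subst hij
    rw [Free.dd_eq free_mw, hJ.diag]
    simp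
  · have hK := (hJ.ent i j).trans hη
    have h1 : |2 * J i j| ≤ 1 := by rw [abs_mul, abs_two]; linarith
    rw [delta_eq_gr hJ.symm hJ.diag h hij hK, ← sub_mul, abs_mul, abs_of_nonneg hv]
    refine mul_le_mul_of_nonneg_right ?_ hv
    exact delta_alg_gr ((sq_le_one_iff_abs_le_one _).mp (mw_sq_lt Wt_pos x).le) (abs_sp _).le hK
      (tanh_bd_two h1).1 (tanh_bd_two h1).2

lemma term_alg_gr {m s s' K δ a b c : ℝ} (hm : m ^ 2 ≤ 1) (hs : s ^ 2 = 1) (hs' : s' ^ 2 = 1)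
    (hK : |K| ≤ 1 / 100) (hδ : |δ - K * (1 - m ^ 2)| ≤ 3 * K ^ 2 * (1 - m ^ 2)) :
    2 * (a * (δ * (b - 2 * s' * c))) - 2 * (1 - m * s) * c ^ 2 ≤
      2 * (K * a * ((1 - m ^ 2) * b)) + 19 * (K ^ 2 * a ^ 2) + 3 * (K ^ 2 * b ^ 2) := by
  have hv : 0 ≤ 1 - m ^ 2 := sub_nonneg.mpr hm
  have hv1 : 1 - m ^ 2 ≤ 1 := by linarith [sq_nonneg m]
  have hz : 1 - m ^ 2 ≤ 2 * (1 - m * s) := by nlinarith [sq_nonneg (m - s)]
  generalize 1 - m * s = z at *
  generalize 1 - m ^ 2 = v at *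
  have hK2 := sq_nonneg K
  have h1 : |δ - K * v| ≤ 3 * K ^ 2 := hδ.trans (mul_le_of_le_one_right (by positivity) hv1)
  have h2 := mul_le_sq_two (u := a) (v := -b) h1
  have h3 : |δ| ≤ 2 * |K| * v := by
    have e : K ^ 2 = |K| * |K| := by rw [← sq, sq_abs]
    have h4 := abs_add_le (δ - K * v) (K * v)
    rw [sub_add_cancel, abs_mul, abs_of_nonneg hv] at h4
    have h5 := mul_le_mul_of_nonneg_right hK (mul_nonneg (abs_nonneg K) hv)
    have h6 := mul_nonneg (abs_nonneg K) hv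
    rw [e] at hδ
    linarith
  have h4 : δ ^ 2 ≤ 8 * K ^ 2 * z := by
    have h5 : δ ^ 2 ≤ (2 * |K| * v) ^ 2 := by
      rw [← sq_abs δ]; exact pow_le_pow_left₀ (abs_nonneg _) h3 2
    rw [mul_pow, mul_pow, sq_abs] at h5
    have h6 : v ^ 2 ≤ 2 * z := by nlinarith
    have h7 := mul_le_mul_of_nonneg_left h6 hK2
    linarith
  have hz0 : 0 ≤ z := by linarith
  have h5 : -(4 * a * δ * s' * c) ≤ 2 * z * c ^ 2 + 16 * (K ^ 2 * a ^ 2) := by
    apply le_trans (neg_le_abs _)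
    apply abs_le_of_sq_le_sq _ (by positivity)
    have e : (4 * a * δ * s' * c) ^ 2 = 16 * (a * c) ^ 2 * δ ^ 2 := by
      rw [show (4 * a * δ * s' * c) ^ 2 = 16 * (a * c) ^ 2 * δ ^ 2 * s' ^ 2 by ring, hs', mul_one]
    have h6 := mul_le_mul_of_nonneg_left h4 (show 0 ≤ 16 * (a * c) ^ 2 by positivity)
    have h7 := sq_nonneg (2 * z * c ^ 2 - 16 * (K ^ 2 * a ^ 2))
    rw [e]
    linarith
  linarith

lemma grad_ineq (hJ : Good J Λ R η) (hη : η ≤ 1 / 100) (h : Fin n → ℝ) (f : Cfg n → ℝ) (x : Cfg n) :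
    2 * ∑ i, dd i f x * dd i (Lw (Wt J h) f) x - Lw (Wt J h) (fun y => ∑ i, dd i f y ^ 2) x ≤
      (2 * Λ + 40 * R) * ∑ i, dd i f x ^ 2 := by
  have hw : Pos (Wt J h) := Wt_pos
  rw [Lw_sum_gr hw]
  simp only [Lw_sq_gr hw, dd_Lw_gr hw]
  have h1 : 2 * ∑ i, dd i f x * (-dd i f x + ∑ j, ((mw (Wt J h) j x - sp (x j)) * dd i (dd j f) x +
      dd i (mw (Wt J h) j) x * (dd j f x - 2 * sp (x i) * dd i (dd j f) x))) -
      ∑ i, ∑ j, (2 * dd i f x * ((mw (Wt J h) j x - sp (x j)) * dd j (dd i f) x) +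
        2 * (1 - mw (Wt J h) j x * sp (x j)) * dd j (dd i f) x ^ 2) =
      -2 * ∑ i, dd i f x ^ 2 + ∑ i, ∑ j, (2 * (dd i f x * (dd i (mw (Wt J h) j) x *
        (dd j f x - 2 * sp (x i) * dd i (dd j f) x))) -
          2 * (1 - mw (Wt J h) j x * sp (x j)) * dd i (dd j f) x ^ 2) := by
    rw [mul_sum, mul_sum, ← sum_sub_distrib, ← sum_add_distrib]
    refine sum_congr rfl fun i _ => ?_
    rw [mul_add, mul_add, mul_sum, mul_sum, add_sub_assoc, ← sum_sub_distrib]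
    congr 1
    · ring
    · refine sum_congr rfl fun j _ => ?_
      rw [dd_comm_gr j i]
      ring
  rw [h1]
  have h2 := sum_le_sum (s := univ) fun i _ => sum_le_sum (s := univ) fun j _ =>
    term_alg_gr (a := dd i f x) (b := dd j f x) (c := dd i (dd j f) x) (mw_sq_lt hw x).le
      (sp_sq (x j)) (sp_sq (x i)) ((hJ.ent i j).trans hη) (delta_bd_gr hJ hη h i j x)
  have h3 := hJ.bil (fun i => dd i f x) fun j => (1 - mw (Wt J h) j x ^ 2) * dd j f x
  have h4 : ∑ i, ∑ j, J i j ^ 2 * dd i f x ^ 2 ≤ R * ∑ i, dd i f x ^ 2 := by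
    rw [mul_sum]
    refine sum_le_sum fun i _ => ?_
    rw [← sum_mul]
    exact mul_le_mul_of_nonneg_right (hJ.row i) (sq_nonneg _)
  have h5 : ∑ i, ∑ j, J i j ^ 2 * dd j f x ^ 2 = ∑ i, ∑ j, J i j ^ 2 * dd i f x ^ 2 := by
    rw [sum_comm]
    simp only [hJ.symm]
  have h6 : 0 ≤ ∑ i, ∑ j, J i j ^ 2 * dd i f x ^ 2 := by positivity
  have h7 : ∑ j, ((1 - mw (Wt J h) j x ^ 2) * dd j f x) ^ 2 ≤ ∑ j, dd j f x ^ 2 := by
    refine sum_le_sum fun j _ => ?_
    rw [mul_pow]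
    have hv : 0 ≤ 1 - mw (Wt J h) j x ^ 2 := sub_nonneg.mpr (mw_sq_lt hw x).le
    refine mul_le_of_le_one_left (sq_nonneg _) (pow_le_one₀ hv ?_)
    linarith [sq_nonneg (mw (Wt J h) j x)]
  have h8 : 0 ≤ ∑ j, ((1 - mw (Wt J h) j x ^ 2) * dd j f x) ^ 2 := by positivity
  have h9 : Λ * ∑ j, ((1 - mw (Wt J h) j x ^ 2) * dd j f x) ^ 2 ≤ Λ * ∑ j, dd j f x ^ 2 := by
    rcases le_or_gt 0 Λ with hΛ | hΛ
    · exact mul_le_mul_of_nonneg_left h7 hΛ
    · have h10 := (abs_nonneg _).trans (hJ.op fun i => dd i f x)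
      have h11 := mul_nonpos_of_nonpos_of_nonneg hΛ.le h8
      linarith
  have h10 : 0 ≤ ∑ i, dd i f x ^ 2 := by positivity
  simp only [sum_add_distrib, ← mul_sum] at h2
  rw [h5] at h2
  linarith

lemma hasDerivAt_mulVec_gr {w : Cfg n → ℝ} {u : ℝ → ℝ} {u' s : ℝ} (hu : HasDerivAt u u' s)
    {g : ℝ → Cfg n → ℝ} {g' : Cfg n → ℝ} (hg : ∀ y, HasDerivAt (fun r => g r y) (g' y) s)
    (x : Cfg n) : HasDerivAt (fun r => (Pt w (u r)).mulVec (g r) x)
      ((Pt w (u s)).mulVec (fun y => u' * Lw w (g s) y + g' y) x) s := by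
  have h1 : HasDerivAt (fun r => ∑ y, Pt w (u r) x y * g r y)
      (∑ y, ((Pt w (u s) * Lm w) x y * u' * g s y + Pt w (u s) x y * g' y)) s :=
    HasDerivAt.fun_sum fun y _ => ((hasDerivAt_Pt (u s) x y).comp s hu).mul (hg y)
  have h2 : ∑ y, (Pt w (u s) * Lm w) x y * g s y = ∑ y, Pt w (u s) x y * Lw w (g s) y := by
    have h3 := congrFun (Matrix.mulVec_mulVec (g s) (Pt w (u s)) (Lm w)) x
    have h4 : (Lm w).mulVec (g s) = Lw w (g s) := funext fun y => Lm_mulVec y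
    rw [h4] at h3
    exact h3.symm
  have h3 : (Pt w (u s)).mulVec (fun y => u' * Lw w (g s) y + g' y) x =
      ∑ y, ((Pt w (u s) * Lm w) x y * u' * g s y + Pt w (u s) x y * g' y) := by
    have e1 : ∑ y, (Pt w (u s) * Lm w) x y * u' * g s y =
        u' * ∑ y, (Pt w (u s) * Lm w) x y * g s y := by
      rw [mul_sum]; exact sum_congr rfl fun y _ => by ring
    rw [sum_add_distrib, e1, h2, mul_sum, ← sum_add_distrib]
    exact sum_congr rfl fun y _ => by ring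
  rw [h3]
  exact h1

lemma hasDerivAt_Ptf_gr {w : Cfg n → ℝ} {u : ℝ → ℝ} {u' s : ℝ} (hu : HasDerivAt u u' s)
    (f : Cfg n → ℝ) (x : Cfg n) : HasDerivAt (fun r => (Pt w (u r)).mulVec f x)
      (u' * Lw w ((Pt w (u s)).mulVec f) x) s := by
  have h1 := hasDerivAt_mulVec_gr (w := w) hu (g := fun _ => f) (g' := fun _ => 0)
    (fun y => hasDerivAt_const s (f y)) x
  have h2 : (fun y => u' * Lw w f y + 0) = u' • (Lm w).mulVec f :=
    funext fun y => by rw [add_zero, Pi.smul_apply, Lm_mulVec, smul_eq_mul]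
  rw [h2, Matrix.mulVec_smul, Matrix.mulVec_mulVec, Pt_comm, ← Matrix.mulVec_mulVec, Pi.smul_apply,
    Lm_mulVec, smul_eq_mul] at h1
  exact h1

lemma le_of_deriv_gr {φ φ' : ℝ → ℝ} (ht : 0 ≤ t) (hd : ∀ s, HasDerivAt φ (φ' s) s)
    (hn : ∀ s, 0 ≤ s → s ≤ t → φ' s ≤ 0) : φ t ≤ φ 0 := by
  have h : AntitoneOn φ (Set.Icc 0 t) := by
    apply antitoneOn_of_deriv_nonpos (convex_Icc 0 t)
    · exact fun y _ => (hd y).continuousAt.continuousWithinAt
    · exact fun y _ => (hd y).differentiableAt.differentiableWithinAt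
    · intro y hy
      have hy' := interior_subset hy
      rw [(hd y).deriv]
      exact hn y hy'.1 hy'.2
  exact h ⟨le_rfl, ht⟩ ⟨ht, le_rfl⟩ ht

lemma grad_Pt (hn : n ≠ 0) (hJ : Good J Λ R η) (hη : η ≤ 1 / 100) (h : Fin n → ℝ) (ht : 0 ≤ t)
    (hB : ∀ x, ∑ i, dd i f x ^ 2 ≤ B) (x : Cfg n) :
    ∑ i, dd i ((Pt (Wt J h) t).mulVec f) x ^ 2 ≤ exp ((2 * Λ + 40 * R) * t) * B := by
  have hw : Pos (Wt J h) := Wt_pos
  have hgi := grad_ineq hJ hη h
  generalize Wt J h = w at *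
  generalize 2 * Λ + 40 * R = c at *
  have hG : ∀ s y, HasDerivAt (fun r => ∑ i, dd i ((Pt w r).mulVec f) y ^ 2)
      (2 * ∑ i, dd i ((Pt w s).mulVec f) y * dd i (Lw w ((Pt w s).mulVec f)) y) s := by
    intro s y
    rw [mul_sum]
    refine HasDerivAt.fun_sum fun i _ => ?_
    have h1 := ((hasDerivAt_Ptf_gr (w := w) (hasDerivAt_id' s) f (up i true y)).fun_sub
      (hasDerivAt_Ptf_gr (w := w) (hasDerivAt_id' s) f (up i false y))).div_const 2
    simp only [one_mul] at h1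
    have h2 : HasDerivAt (fun r => dd i ((Pt w r).mulVec f) y) (dd i (Lw w ((Pt w s).mulVec f)) y) s :=
      h1
    have h3 := h2.fun_pow 2
    simp only [Nat.cast_ofNat, Nat.add_one_sub_one, pow_one, mul_assoc] at h3
    exact h3
  have hφ := fun s => (((hasDerivAt_id' s).const_mul (-c)).exp).fun_mul
    (hasDerivAt_mulVec_gr (w := w) ((hasDerivAt_id' s).const_sub t) (hG s) x)
  have h1 := le_of_deriv_gr ht hφ (by
    intro s h0 hs
    have h2 := Pt_mono hn hw (sub_nonneg.mpr hs)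
      (f := fun y => -1 * Lw w (fun y => ∑ i, dd i ((Pt w s).mulVec f) y ^ 2) y +
        2 * ∑ i, dd i ((Pt w s).mulVec f) y * dd i (Lw w ((Pt w s).mulVec f)) y)
      (g := c • fun y => ∑ i, dd i ((Pt w s).mulVec f) y ^ 2)
      (fun y => by
        have := hgi ((Pt w s).mulVec f) y
        rw [Pi.smul_apply, smul_eq_mul]
        linarith) x
    rw [Matrix.mulVec_smul, Pi.smul_apply, smul_eq_mul] at h2
    have h3 := mul_le_mul_of_nonneg_left h2 (exp_pos (-c * s)).le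
    linarith)
  have h0 : (Pt w 0).mulVec f = f := funext fun y => Pt_zero y
  simp only [sub_self, sub_zero, mul_zero, exp_zero, one_mul, Pt_zero, h0] at h1
  have h2 := Pt_mono hn hw ht (g := fun _ => B) hB x
  rw [Pt_const hn hw] at h2
  have h3 := mul_le_mul_of_nonneg_left (h1.trans h2) (exp_pos (c * t)).le
  rwa [← mul_assoc, ← exp_add, neg_mul, add_neg_cancel, exp_zero, one_mul] at h3

theorem var_Pt (hn : n ≠ 0) (hJ : Good J Λ R η) (hη : η ≤ 1 / 100) (h : Fin n → ℝ) (ht : 0 ≤ t)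
    (hB : ∀ x, ∑ i, dd i f x ^ 2 ≤ B) (x : Cfg n) :
    (Pt (Wt J h) t).mulVec (fun y => f y ^ 2) x - (Pt (Wt J h) t).mulVec f x ^ 2 ≤
      4 * t * exp ((2 * Λ + 40 * R) * t) * B := by
  have hw : Pos (Wt J h) := Wt_pos
  have hgr := fun s (hs : 0 ≤ s) => grad_Pt hn hJ hη h hs hB
  have hB0 : 0 ≤ B := le_trans (by positivity) (hB x)
  have hΛ : 0 ≤ Λ := by
    have h1 := (abs_nonneg _).trans (hJ.op fun _ => 1)
    have h2 : (0 : ℝ) < ∑ _i : Fin n, (1 : ℝ) ^ 2 := by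
      simpa using Nat.pos_of_ne_zero hn
    exact nonneg_of_mul_nonneg_left h1 h2
  have hR : 0 ≤ R := le_trans (by positivity) (hJ.row ⟨0, Nat.pos_of_ne_zero hn⟩)
  have hc : 0 ≤ 2 * Λ + 40 * R := by positivity
  generalize Wt J h = w at *
  generalize 2 * Λ + 40 * R = c at *
  have hG : ∀ s y, HasDerivAt (fun r => (Pt w (t - r)).mulVec f y ^ 2)
      (-(2 * (Pt w (t - s)).mulVec f y * Lw w ((Pt w (t - s)).mulVec f) y)) s := by
    intro s y
    have h3 := (hasDerivAt_Ptf_gr (w := w) ((hasDerivAt_id' s).const_sub t) f y).fun_pow 2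
    simp only [Nat.cast_ofNat, Nat.add_one_sub_one, pow_one, neg_mul, one_mul, mul_neg] at h3
    exact h3
  have hφ := fun s => (hasDerivAt_mulVec_gr (w := w) (hasDerivAt_id' s) (hG s) x).fun_sub
    ((hasDerivAt_id' s).const_mul (4 * (exp (c * t) * B)))
  have h1 := le_of_deriv_gr ht hφ (by
    intro s h0 hs
    have h2 := Pt_mono hn hw h0
      (f := fun y => 1 * Lw w (fun y => (Pt w (t - s)).mulVec f y ^ 2) y +
        -(2 * (Pt w (t - s)).mulVec f y * Lw w ((Pt w (t - s)).mulVec f) y))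
      (g := fun _ => 4 * (exp (c * t) * B))
      (fun y => by
        have h3 := hgr (t - s) (sub_nonneg.mpr hs) y
        have h4 : exp (c * (t - s)) * B ≤ exp (c * t) * B :=
          mul_le_mul_of_nonneg_right (exp_le_exp.mpr
            (mul_le_mul_of_nonneg_left (by linarith) hc)) hB0
        rw [Lw_sq_gr hw, Lw_eq hw, sum_add_distrib, ← mul_sum]
        generalize (Pt w (t - s)).mulVec f = g at *
        have h5 : ∑ j, 2 * (1 - mw w j y * sp (y j)) * dd j g y ^ 2 ≤ ∑ j, 4 * dd j g y ^ 2 := by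
          refine sum_le_sum fun j _ => mul_le_mul_of_nonneg_right ?_ (sq_nonneg _)
          have h6 := abs_mul_le_two ((sq_le_one_iff_abs_le_one _).mp (mw_sq_lt (i := j) hw y).le)
            (abs_sp (y j)).le
          have h7 := neg_abs_le (mw w j y * sp (y j))
          linarith
        rw [← mul_sum] at h5
        linarith) x
    rw [Pt_const hn hw] at h2
    linarith)
  simp only [sub_self, sub_zero, mul_zero, Pt_zero] at h1
  linarith

end Vale.Agent.P150
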