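import Vale.Agent.P150.Tens

/-! Every positive weight satisfies approximate tensorization with some constant. -/

namespace Vale.Agent.P150

open Finset Real

variable {n : ℕ} {w u f : Cfg n → ℝ}

lemma phi_nonneg_hs {x c : ℝ} (hx : 0 < x) (hc : 0 < c) : 0 ≤ x * log x - x * log c - x + c := by
  have h := log_le_sub_one_of_pos (div_pos hc hx)
  rw [log_div hc.ne' hx.ne'] at h
  have := mul_le_mul_of_nonneg_left h hx.le
  rw [mul_sub x (c / x), mul_div_cancel₀ _ hx.ne'] at this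
  linarith

lemma Ex_phi_hs (hw : Pos w) (c : ℝ) : Ex w (fun x => f x * log (f x) - f x * log c - f x + c) =
    Ex w (fun x => f x * log (f x)) - Ex w f * log c - Ex w f + c := by
  rw [Ex_add, Ex_sub, Ex_sub, Ex_const hw]
  simp only [mul_comm _ (log c), Ex_mul]

lemma exists_cmp_hs (hw : Pos w) (hu : Pos u) : ∃ K : ℝ, 1 ≤ K ∧ ∀ φ : Cfg n → ℝ, (∀ x, 0 ≤ φ x) →
    Ex w φ ≤ K * Ex u φ := by
  have h1 := hw.sum_pos
  have h2 := hu.sum_pos
  refine ⟨1 + ∑ y, (∑ z, u z) / u y, ?_, fun φ hφ => ?_⟩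
  · exact le_add_of_nonneg_right (sum_nonneg fun y _ => (div_pos h2 (hu y)).le)
  · rw [Ex_eq_sum, Ex_eq_sum, mul_sum]
    refine sum_le_sum fun x _ => ?_
    rw [← mul_assoc]
    refine mul_le_mul_of_nonneg_right ?_ (hφ x)
    have e1 : w x / ∑ y, w y ≤ 1 :=
      (div_le_one h1).2 (single_le_sum (fun y _ => (hw y).le) (mem_univ x))
    have e2 : (∑ z, u z) / u x ≤ 1 + ∑ y, (∑ z, u z) / u y := le_add_of_nonneg_of_le zero_le_one
      (single_le_sum (f := fun y => (∑ z, u z) / u y) (fun y _ => (div_pos h2 (hu y)).le) (mem_univ x))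
    have e3 : (∑ z, u z) / u x * (u x / ∑ z, u z) = 1 := by have := hu x; field_simp
    exact e1.trans (e3.symm.trans_le (mul_le_mul_of_nonneg_right e2 (div_pos (hu x) h2).le))

theorem at_any (hw : Pos w) : ∃ C : ℝ, 1 ≤ C ∧ AT w C := by
  have hu : Pos (Wt (0 : Matrix (Fin n) (Fin n) ℝ) 0) := Wt_pos
  obtain ⟨K, hK, h1⟩ := exists_cmp_hs hw hu
  obtain ⟨K', hK', h2⟩ := exists_cmp_hs hu hw
  refine ⟨K * K', by nlinarith, fun f hf => ?_⟩
  have hc := Ex_pos hu hf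
  have s1 : Ent w f ≤ Ex w fun x => f x * log (f x) - f x * log (Ex (Wt 0 0) f) - f x + Ex (Wt 0 0) f := by
    rw [Ex_phi_hs hw, Ent]
    linarith [phi_nonneg_hs (Ex_pos hw hf) hc]
  have s2 := h1 _ fun x => phi_nonneg_hs (hf x) hc
  have s3 : (Ex (Wt 0 0) fun x => f x * log (f x) - f x * log (Ex (Wt 0 0) f) - f x + Ex (Wt 0 0) f) =
      Ent (Wt 0 0) f := by rw [Ex_phi_hs hu, Ent]; ring
  have s4 := at_prod 0 f hf
  have s5 : DE (Wt 0 0) f ≤ K' * DE w f := by
    unfold DE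
    rw [mul_sum]
    refine sum_le_sum fun i _ => (cond_var hu hf (Qw_pos hw hf) free_Qw).trans
      ((h2 _ fun x => phi_nonneg_hs (hf x) (Qw_pos hw hf x)).trans_eq ?_)
    have hfr : Free i fun x => log (Qw w i f x) := fun b x => congrArg log (free_Qw b x)
    rw [Ex_add, Ex_sub, Ex_sub, Ex_Q_one hw, Ex_Q hw hfr]
    ring
  rw [s3] at s2
  have := mul_le_mul_of_nonneg_left (s4.trans (by linarith : 1 * DE (Wt 0 0) f ≤ K' * DE w f))
    (zero_le_one.trans hK)
  linarith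

end Vale.Agent.P150
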