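import Vale.Agent.P150.Grad

/-! Lower bound for the mixing time.
`moment_ge`: `m k = Ex (f K^k f)` is log-convex: `m (k+1)² ≤ m k * m (k+2)` (Cauchy-Schwarz for the positive form
`Ex (u K^k v)`; positivity from `Kw_iter_symm`, `Kw_psd`), `m 0 = 1`, so `m k ≥ (m 1)^k`.
`corr_ge`: `f = sp (x i)`, `m 1 = 1 - Dir f / n ≥ 1 - 1/n` (`Dir_eq`, `Dir_lin` or `dd_sp`); `hasSum_Pt`, `hasSum_poisW`.
`mix_ge`: by averaging `corr_ge` over `i` and `x` there is `x` with `Pt F x ≥ n exp (-t)` for `F y = ∑ i, sp (x i) sp (y i)`.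
Let `S = {y | F y > 0}`.  Chebyshev with `var_Pt` (`B = n`) for `Pt x ·`, and `μ S ≤ 1/2` by the global flip. -/

namespace Vale.Agent.P150

open Finset Real

variable {n : ℕ} {w f : Cfg n → ℝ} {J : Matrix (Fin n) (Fin n) ℝ} {Λ R η κ t : ℝ}

lemma psd_iter_low (hw : Pos w) (k : ℕ) (u : Cfg n → ℝ) :
    0 ≤ Ex w fun x => u x * (Kw w)^[k] u x := by
  induction k using Nat.twoStepInduction generalizing u with
  | zero => exact Ex_nonneg hw fun x => mul_self_nonneg _
  | one => exact Kw_psd hw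
  | more k ih _ =>
    have := ih (Kw w u)
    rw [Kw_symm hw] at this
    rwa [Function.iterate_succ_apply', Function.iterate_succ_apply]

lemma Kw_lin_low (u v : Cfg n → ℝ) (s : ℝ) :
    Kw w (fun x => u x + s * v x) = fun x => Kw w u x + s * Kw w v x := by
  funext x
  simp only [Kw, Qw]
  rw [← mul_div_assoc, ← add_div, mul_sum, ← sum_add_distrib]
  congr 1
  exact sum_congr rfl fun i _ => by ring

lemma iter_lin_low (k : ℕ) (u v : Cfg n → ℝ) (s : ℝ) :
    (Kw w)^[k] (fun x => u x + s * v x) = fun x => (Kw w)^[k] u x + s * (Kw w)^[k] v x := by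
  induction k with
  | zero => rfl
  | succ k ih => simp only [Function.iterate_succ_apply', ih, Kw_lin_low]

lemma logconv_low (hw : Pos w) (k : ℕ) :
    (Ex w fun x => f x * (Kw w)^[k + 1] f x) ^ 2 ≤
      (Ex w fun x => f x * (Kw w)^[k] f x) * Ex w fun x => f x * (Kw w)^[k + 2] f x := by
  have key : ∀ s : ℝ, 0 ≤ (Ex w fun x => f x * (Kw w)^[k + 2] f x) * (s * s) +
      2 * (Ex w fun x => f x * (Kw w)^[k + 1] f x) * s + Ex w fun x => f x * (Kw w)^[k] f x := by
    intro s
    have h := psd_iter_low hw k fun x => f x + s * Kw w f x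
    rw [iter_lin_low] at h
    have e1 : (Ex w fun x => Kw w f x * (Kw w)^[k] f x) = Ex w fun x => f x * (Kw w)^[k + 1] f x := by
      rw [Kw_symm hw, Function.iterate_succ_apply']
    have e2 : (Ex w fun x => Kw w f x * (Kw w)^[k] (Kw w f) x) =
        Ex w fun x => f x * (Kw w)^[k + 2] f x := by
      rw [Kw_symm hw, Function.iterate_succ_apply', Function.iterate_succ_apply]
    have e3 : (fun x => (f x + s * Kw w f x) * ((Kw w)^[k] f x + s * (Kw w)^[k] (Kw w f) x)) =
        fun x => (f x * (Kw w)^[k] f x + s * (f x * (Kw w)^[k + 1] f x)) +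
          (s * (Kw w f x * (Kw w)^[k] f x) + s * s * (Kw w f x * (Kw w)^[k] (Kw w f) x)) := by
      funext x; rw [Function.iterate_succ_apply]; ring
    rw [e3, Ex_add, Ex_add, Ex_add, Ex_mul, Ex_mul, Ex_mul, e1, e2] at h
    linarith
  have := discrim_le_zero key
  rw [discrim] at this
  linarith

lemma moment_ge (hw : Pos w) (h1 : Ex w (fun x => f x ^ 2) = 1) (k : ℕ) :
    (Ex w fun x => f x * Kw w f x) ^ k ≤ Ex w fun x => f x * (Kw w)^[k] f x := by
  set m : ℕ → ℝ := fun k => Ex w fun x => f x * (Kw w)^[k] f x with hm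
  have m0 : m 0 = 1 := by simpa [hm, sq] using h1
  have hp : ∀ k, 0 ≤ m k := fun k => psd_iter_low hw k f
  have hl : ∀ k, m (k + 1) ^ 2 ≤ m k * m (k + 2) := logconv_low hw
  change m 1 ^ k ≤ m k
  rcases (hp 1).eq_or_lt with h | h
  · cases k with
    | zero => simp [m0]
    | succ k => rw [← h]; simpa using hp _
  have key : ∀ k, 0 < m k ∧ m 1 * m k ≤ m (k + 1) := by
    intro k
    induction k with
    | zero => simp [m0]
    | succ k ih =>
      have h2 : 0 < m (k + 1) := (mul_pos h ih.1).trans_le ih.2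
      refine ⟨h2, le_of_mul_le_mul_left ?_ ih.1⟩
      nlinarith [hl k, mul_le_mul_of_nonneg_right ih.2 h2.le]
  induction k with
  | zero => simp [m0]
  | succ k ih => exact (pow_succ' _ _).trans_le ((mul_le_mul_of_nonneg_left ih h.le).trans (key k).2)

lemma corr_ge (hw : Pos w) (ht : 0 ≤ t) (i : Fin n) :
    exp (-t) ≤ Ex w fun x => sp (x i) * (Pt w t).mulVec (fun y => sp (y i)) x := by
  have hn : n ≠ 0 := i.pos.ne'
  have hn0 : (1 : ℝ) ≤ n := by exact_mod_cast i.pos
  have h1 : Ex w (fun x => sp (x i) ^ 2) = 1 := by simp only [sp_sq]; exact Ex_const hw 1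
  have h2 : 1 - 1 / n ≤ Ex w fun x => sp (x i) * Kw w (fun y => sp (y i)) x := by
    have e : (fun x : Cfg n => sp (x i) * Kw w (fun y => sp (y i)) x) = fun x =>
        sp (x i) ^ 2 + 1 / n * (sp (x i) * Lw w (fun y => sp (y i)) x) := by
      funext x
      simp only [Kw, Lw, sum_sub_distrib, sum_const, card_univ, Fintype.card_fin, nsmul_eq_mul]
      field_simp
      ring
    have h3 := Dir_lin hw (Pi.single i (1 : ℝ))
    simp only [Pi.single_apply, ite_mul, one_mul, zero_mul, sum_ite_eq', mem_univ, if_true, ite_pow,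
      one_pow, ne_eq, OfNat.ofNat_ne_zero, not_false_eq_true, zero_pow] at h3
    rw [Dir_eq hw] at h3
    rw [e, Ex_add, Ex_mul, h1]
    have := mul_le_mul_of_nonneg_left h3 (show 0 ≤ 1 / (n : ℝ) by positivity)
    linarith
  have h3 : (0 : ℝ) ≤ 1 - 1 / n := by rw [sub_nonneg, div_le_one (by linarith)]; exact hn0
  have s1 := hasSum_poisW (n * t) (1 - 1 / n)
  have e1 : -(n * t) * (1 - (1 - 1 / (n : ℝ))) = -t := by field_simp; ring
  rw [e1] at s1
  have s2 : HasSum (fun k => poisW (n * t) k * Ex w fun x => sp (x i) * (Kw w)^[k] (fun y => sp (y i)) x)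
      (Ex w fun x => sp (x i) * (Pt w t).mulVec (fun y => sp (y i)) x) := by
    simp only [Ex_eq_sum, mul_sum]
    refine hasSum_sum fun x _ => ?_
    have := ((hasSum_Pt hn w (fun y => sp (y i)) t x).mul_left (sp (x i))).mul_left (w x / ∑ y, w y)
    simpa only [mul_left_comm (poisW (n * t) _)] using this
  refine hasSum_le (fun k => ?_) s1 s2
  exact mul_le_mul_of_nonneg_left ((pow_le_pow_left₀ h3 h2 k).trans (moment_ge hw h1 k))
    (poisW_nonneg (by positivity) k)

lemma sp_not_low (b : Bool) : sp (!b) = -sp b := by cases b <;> simp [sp]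

lemma Ex_flip (F : Cfg n → ℝ) : Ex (Wt J 0) (fun x => F fun i => !x i) = Ex (Wt J 0) F := by
  have hi : Function.Involutive fun (x : Cfg n) i => !x i := fun x => by funext i; simp
  unfold Ex
  congr 1
  refine (Equiv.sum_comp hi.toPerm fun x => Wt J 0 x * F x).symm ▸ sum_congr rfl fun x _ => ?_
  simp [Wt, sp_not_low]

lemma Ex_sp_zero (i : Fin n) : Ex (Wt J 0) (fun x => sp (x i)) = 0 := by
  have := Ex_flip (J := J) fun x => sp (x i)
  simp only [sp_not_low] at this
  have h2 := Ex_mul (w := Wt J 0) (f := fun x => sp (x i)) (-1)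
  simp only [neg_mul, one_mul] at h2
  linarith

lemma tv_ge_low {X : Type*} [Fintype X] {p q χ : X → ℝ} (h : ∑ y, p y = ∑ y, q y)
    (hχ : ∀ y, 0 ≤ χ y ∧ χ y ≤ 1) :
    ∑ y, p y * χ y - ∑ y, q y * χ y ≤ 1 / 2 * ∑ y, |p y - q y| := by
  have : ∑ y, p y * χ y - ∑ y, q y * χ y = ∑ y, (p y - q y) * (χ y - 1 / 2) := by
    simp only [mul_sub, sub_mul, sum_sub_distrib, ← sum_mul, h]; ring
  rw [this, mul_sum]
  refine sum_le_sum fun y _ => (le_abs_self _).trans ?_
  rw [abs_mul, mul_comm]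
  exact mul_le_mul_of_nonneg_right (abs_le.2 ⟨by linarith [hχ y], by linarith [hχ y]⟩) (abs_nonneg _)

theorem mix_ge (hn : n ≠ 0) (hJ : Good J Λ R η) (hη : η ≤ 1 / 100) (ht : 0 ≤ t) : ∃ x,
    1 / 2 - 4 * t * exp ((2 * Λ + 40 * R) * t) * exp (2 * t) / n ≤
      1 / 2 * ∑ y, |Pt (Wt J 0) t x y - Wt J 0 y / ∑ z, Wt J 0 z| := by
  have hw : Pos (Wt J 0) := Wt_pos
  have hn0 : (0 : ℝ) < n := by exact_mod_cast Nat.pos_of_ne_zero hn
  have e0 : ∀ x : Cfg n, (Pt (Wt J 0) t).mulVec (fun y => ∑ i, sp (x i) * sp (y i)) x =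
      ∑ i, sp (x i) * (Pt (Wt J 0) t).mulVec (fun y => sp (y i)) x := fun x => by
    simp only [Matrix.mulVec, dotProduct, mul_sum]
    rw [sum_comm]
    exact sum_congr rfl fun i _ => sum_congr rfl fun y _ => by ring
  obtain ⟨x, hx⟩ : ∃ x : Cfg n, n * exp (-t) ≤
      (Pt (Wt J 0) t).mulVec (fun y => ∑ i, sp (x i) * sp (y i)) x := by
    obtain ⟨x, -, hx⟩ := exists_max_image univ
      (fun x : Cfg n => (Pt (Wt J 0) t).mulVec (fun y => ∑ i, sp (x i) * sp (y i)) x) univ_nonempty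
    refine ⟨x, le_trans ?_ ((Ex_mono hw fun y => hx y (mem_univ _)).trans_eq (Ex_const hw _))⟩
    simp only [e0]
    rw [Ex_sum]
    simpa using card_nsmul_le_sum univ _ _ fun i _ => corr_ge hw ht i
  refine ⟨x, ?_⟩
  set F : Cfg n → ℝ := fun y => ∑ i, sp (x i) * sp (y i) with hF
  have hB : ∀ y, ∑ i, dd i F y ^ 2 ≤ (n : ℝ) := fun y => by
    have : ∀ i, dd i F y = sp (x i) := fun i => by
      have : dd i F y = ∑ k, sp (x k) * dd i (fun z => sp (z k)) y := by
        simp only [dd, hF, ← sum_sub_distrib, sum_div]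
        exact sum_congr rfl fun k _ => by ring
      simp [this, dd_sp]
    simp [this, sp_sq]
  have hv := var_Pt hn hJ hη 0 ht hB x
  set a := (Pt (Wt J 0) t).mulVec F x
  have ha : 0 < a := lt_of_lt_of_le (by positivity) hx
  let χ : Cfg n → ℝ := fun y => if 0 < F y then 1 else 0
  have h1 := Pt_const hn hw (t := t) 1 x
  have t1 : 1 - 4 * t * exp ((2 * Λ + 40 * R) * t) * exp (2 * t) / n ≤
      ∑ y, Pt (Wt J 0) t x y * χ y := by
    have u1 : (Pt (Wt J 0) t).mulVec (fun y => 1 - (F y - a) ^ 2 / a ^ 2) x ≤ (Pt (Wt J 0) t).mulVec χ x :=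
      Pt_mono hn hw ht (fun y => by
        simp only [χ]
        split_ifs with h
        · exact sub_le_self _ (by positivity)
        · rw [sub_nonpos, le_div_iff₀ (by positivity)]
          nlinarith [not_lt.1 h]) x
    have u2 : (Pt (Wt J 0) t).mulVec (fun y => 1 - (F y - a) ^ 2 / a ^ 2) x =
        1 - ((Pt (Wt J 0) t).mulVec (fun y => F y ^ 2) x - a ^ 2) / a ^ 2 := by
      have : (Pt (Wt J 0) t).mulVec (fun y => 1 - (F y - a) ^ 2 / a ^ 2) x =
          2 / a * (Pt (Wt J 0) t).mulVec F x -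
            1 / a ^ 2 * (Pt (Wt J 0) t).mulVec (fun y => F y ^ 2) x := by
        simp only [Matrix.mulVec, dotProduct, mul_sum, ← sum_sub_distrib]
        exact sum_congr rfl fun y _ => by field_simp; ring
      rw [this]
      field_simp
      ring
    have u3 : ((Pt (Wt J 0) t).mulVec (fun y => F y ^ 2) x - a ^ 2) / a ^ 2 ≤
        4 * t * exp ((2 * Λ + 40 * R) * t) * exp (2 * t) / n := by
      have e : exp (2 * t) * exp (-t) ^ 2 = 1 := by rw [sq, ← exp_add, ← exp_add]; simp; ring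
      calc _ ≤ 4 * t * exp ((2 * Λ + 40 * R) * t) * n / (n * exp (-t)) ^ 2 := by gcongr
        _ = 4 * t * exp ((2 * Λ + 40 * R) * t) * exp (2 * t) / n / (exp (2 * t) * exp (-t) ^ 2) := by
          field_simp
        _ = _ := by rw [e, div_one]
    change _ ≤ (Pt (Wt J 0) t).mulVec χ x
    linarith
  have t2 : ∑ y, (Wt J 0 y / ∑ z, Wt J 0 z) * χ y ≤ 1 / 2 := by
    rw [← Ex_eq_sum]
    have u1 := Ex_flip (J := J) χ
    have u2 := Ex_mono hw (f := fun y => χ y + χ fun i => !y i) (g := fun _ => 1) fun y => by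
      have : F (fun i => !y i) = -F y := by simp [hF, sp_not_low]
      simp only [χ, this]
      split_ifs <;> linarith
    rw [Ex_add, u1, Ex_const hw] at u2
    linarith
  have t3 := tv_ge_low (p := Pt (Wt J 0) t x) (q := fun y => Wt J 0 y / ∑ z, Wt J 0 z) (χ := χ) (by
    rw [← sum_div, div_self hw.sum_pos.ne', ← h1]
    simp [Matrix.mulVec, dotProduct]) fun y => by simp only [χ]; split_ifs <;> norm_num
  linarith

end Vale.Agent.P150
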