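import Vale.Agent.P150.Basic

/-! Entropy inequalities.  All pointwise inputs are `log x ≤ x - 1`.
`cond_var`: with `F = Qw w i f` (`Ex_Q`): `Ex (F log F) = Ex (f log F)`, and the difference of the two sides is
`Ex (F log (F/g) - F + g) ≥ 0`.  `cond_dual`: `Ex (f log (G / Q G)) - Ex (f log (f / Q f)) = Ex (f log (G Qf / (QG f)))
≤ Ex (G Qf / QG - f) = 0`.  `dv`: `f (g - log f - log Z) ≤ exp g / Z - f`.
`hell`: `x log x - x + 1 ≥ (√x - 1)²`, `|x - 1| = |√x - 1| (√x + 1)`, Cauchy-Schwarz, `(√x + 1)² ≤ 2 x + 2`.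
`logmgf_le`: `φ t = log ∑ x, Wt J h x * exp (t ⟨v, x⟩)` has `φ' t = Ex (Wt J (h + t v)) ⟨v, x⟩` and
`φ'' t = Var ≤ |v|² / κ` (`Wt_tilt`, `Dir_lin`); apply the mean value inequality twice
(`image_le_of_deriv_right_le_deriv_boundary` or monotonicity of `φ' t - t |v|²/κ`).
`stab`: `dv` with `g = ⟨v, x⟩`, `v = κ (b_f - b)`. -/

namespace Vale.Agent.P150

open Finset Real

variable {n : ℕ} {w f g : Cfg n → ℝ} {i : Fin n} {J : Matrix (Fin n) (Fin n) ℝ} {κ : ℝ}

lemma Ex_congr_st (h : ∀ x, f x = g x) : Ex w f = Ex w g := congrArg _ (funext h)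

lemma Ex_xlog_st (hf : Pos f) {c : ℝ} (hc : 0 < c) :
    Ex w (fun x => c * f x * log (c * f x)) =
      c * Ex w (fun x => f x * log (f x)) + c * log c * Ex w f := by
  rw [← Ex_mul, ← Ex_mul, ← Ex_add]
  refine Ex_congr_st fun x => ?_
  rw [log_mul hc.ne' (hf x).ne']
  ring

lemma Ent_smul (hw : Pos w) (hf : Pos f) {c : ℝ} (hc : 0 < c) :
    Ent w (fun x => c * f x) = c * Ent w f := by
  unfold Ent
  rw [Ex_xlog_st hf hc, Ex_mul, log_mul hc.ne' (Ex_pos hw hf).ne']
  ring

lemma Qw_smul_st (c : ℝ) (x : Cfg n) : Qw w i (fun x => c * f x) x = c * Qw w i f x := by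
  unfold Qw
  ring

lemma DE_smul (hw : Pos w) (hf : Pos f) {c : ℝ} (hc : 0 < c) :
    DE w (fun x => c * f x) = c * DE w f := by
  unfold DE
  rw [mul_sum]
  refine sum_congr rfl fun i _ => ?_
  simp only [Qw_smul_st]
  rw [Ex_xlog_st hf hc, Ex_xlog_st (Qw_pos hw hf) hc, Ex_Q_one hw]
  ring

/-- It is enough to prove `AT` for densities. -/
lemma AT.of_one (hw : Pos w) {C : ℝ} (h : ∀ f, Pos f → Ex w f = 1 → Ent w f ≤ C * DE w f) :
    AT w C := by
  intro f hf
  have hm := Ex_pos hw hf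
  have hc : 0 < (Ex w f)⁻¹ := inv_pos.2 hm
  have := h (fun x => (Ex w f)⁻¹ * f x) (fun x => mul_pos hc (hf x))
    (by rw [Ex_mul, inv_mul_cancel₀ hm.ne'])
  rw [Ent_smul hw hf hc, DE_smul hw hf hc, mul_left_comm] at this
  exact le_of_mul_le_mul_left this hc

/-- The pointwise input. -/
lemma log_le_st {a b : ℝ} (ha : 0 < a) (hb : 0 < b) : a * (log b - log a) ≤ b - a := by
  have := log_le_sub_one_of_pos (div_pos hb ha)
  rw [log_div hb.ne' ha.ne'] at this
  calc a * (log b - log a) ≤ a * (b / a - 1) := mul_le_mul_of_nonneg_left this ha.le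
    _ = b - a := by field_simp

lemma free_log_st (hg : Free i g) : Free i fun x => log (g x) := fun b x => congrArg log (hg b x)

lemma cond_var (hw : Pos w) (hf : Pos f) (hg : Pos g) (hi : Free i g) :
    Ex w (fun x => f x * log (f x)) - Ex w (fun x => Qw w i f x * log (Qw w i f x)) ≤
      Ex w fun x => f x * log (f x) - f x * log (g x) - f x + g x := by
  have h1 := Ex_mono hw (f := fun x => Qw w i f x * log (g x) - Qw w i f x * log (Qw w i f x))
    (g := fun x => g x - Qw w i f x) fun x => by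
      have := log_le_st (Qw_pos hw hf (i := i) x) (hg x)
      linarith
  rw [Ex_sub, Ex_sub, Ex_Q hw (free_log_st hi), Ex_Q_one hw] at h1
  rw [Ex_add, Ex_sub, Ex_sub]
  linarith

lemma cond_dual (hw : Pos w) (hf : Pos f) (hg : Pos g) :
    Ex w (fun x => f x * (log (g x) - log (Qw w i g x))) ≤
      Ex w (fun x => f x * log (f x)) - Ex w fun x => Qw w i f x * log (Qw w i f x) := by
  have hF := Qw_pos hw hf (i := i)
  have hG := Qw_pos hw hg (i := i)
  have hfree : Free i fun x => Qw w i f x / Qw w i g x := fun b x => by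
    simp only [free_Qw b x]
  have h1 := Ex_mono hw (f := fun x => f x * (log (g x) - log (Qw w i g x)) +
      f x * log (Qw w i f x) - f x * log (f x))
    (g := fun x => g x * (Qw w i f x / Qw w i g x) - f x) fun x => by
      have := log_le_st (hf x) (mul_pos (hg x) (div_pos (hF x) (hG x)))
      rw [log_mul (hg x).ne' (div_pos (hF x) (hG x)).ne', log_div (hF x).ne' (hG x).ne'] at this
      linarith
  have h2 : Ex w (fun x => g x * (Qw w i f x / Qw w i g x)) = Ex w f := by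
    rw [← Ex_Q hw hfree, ← Ex_Q_one hw (i := i) (f := f)]
    exact Ex_congr_st fun x => mul_div_cancel₀ _ (hG x).ne'
  rw [Ex_sub, Ex_add, Ex_sub, h2, ← Ex_Q hw (free_log_st free_Qw)] at h1
  linarith

lemma DE_nonneg (hw : Pos w) (hf : Pos f) : 0 ≤ DE w f := by
  refine sum_nonneg fun i _ => le_trans (le_of_eq ?_)
    (cond_dual hw hf (g := fun _ => 1) (fun _ => one_pos) (i := i))
  rw [Free.Qw_eq hw (f := fun _ => 1) fun _ _ => rfl]
  simp only [sub_self, mul_zero]
  exact (Ex_const hw 0).symm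

lemma dv (hw : Pos w) (hf : Pos f) (h1 : Ex w f = 1) (g : Cfg n → ℝ) :
    Ex w (fun x => f x * g x) ≤ Ent w f + log (Ex w fun x => exp (g x)) := by
  have hZ : 0 < Ex w fun x => exp (g x) := Ex_pos hw fun x => exp_pos _
  set Z := Ex w fun x => exp (g x) with hZd
  have h2 := Ex_mono hw (f := fun x => f x * g x - log Z * f x - f x * log (f x))
    (g := fun x => Z⁻¹ * exp (g x) - f x) fun x => by
      have := log_le_st (hf x) (mul_pos (inv_pos.2 hZ) (exp_pos (g x)))
      rw [log_mul (inv_pos.2 hZ).ne' (exp_pos _).ne', log_inv, log_exp] at this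
      linarith
  rw [Ex_sub, Ex_sub, Ex_sub, Ex_mul, Ex_mul, h1, ← hZd, inv_mul_cancel₀ hZ.ne'] at h2
  unfold Ent
  rw [h1, log_one]
  linarith

lemma Ent_nonneg (hw : Pos w) (hf : Pos f) : 0 ≤ Ent w f := by
  have hm := Ex_pos hw hf
  have h2 := Ex_mono hw (f := fun x => log (Ex w f) * f x - f x * log (f x))
    (g := fun x => Ex w f - f x) fun x => by
      have := log_le_st (hf x) hm
      linarith
  rw [Ex_sub, Ex_sub, Ex_mul, Ex_const hw] at h2
  unfold Ent
  linarith

lemma hell (hw : Pos w) (hf : Pos f) (h1 : Ex w f = 1) :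
    (Ex w fun x => |f x - 1|) ^ 2 ≤ 4 * Ent w f := by
  have e : ∀ x, |f x - 1| = |√(f x) - 1| * (√(f x) + 1) := fun x => by
    rw [← abs_of_nonneg (by positivity : 0 ≤ √(f x) + 1), ← abs_mul]
    congr 1
    linear_combination -sq_sqrt (hf x).le
  have h2 := Ex_cs hw (f := fun x => |√(f x) - 1|) (g := fun x => √(f x) + 1)
  have h3 : Ex w (fun x => |√(f x) - 1| ^ 2) ≤ Ent w f := by
    have := Ex_mono hw (f := fun x => |√(f x) - 1| ^ 2)
      (g := fun x => f x * log (f x) - f x + 1) fun x => by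
        have hs := sqrt_pos.2 (hf x)
        have a1 := mul_le_mul_of_nonneg_left (log_le_st hs one_pos) hs.le
        have a2 := sq_sqrt (hf x).le
        rw [log_one, log_sqrt (hf x).le, ← mul_assoc, ← sq, a2] at a1
        rw [sq_abs]
        nlinarith
    rw [Ex_add, Ex_sub, Ex_const hw, h1] at this
    unfold Ent
    rw [h1, log_one]
    linarith
  have h4 : Ex w (fun x => (√(f x) + 1) ^ 2) ≤ 4 := by
    have := Ex_mono hw (f := fun x => (√(f x) + 1) ^ 2) (g := fun x => 2 * f x + 2) fun x => by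
      nlinarith [sq_sqrt (hf x).le, sq_nonneg (√(f x) - 1)]
    rw [Ex_add, Ex_mul, Ex_const hw, h1] at this
    linarith
  rw [Ex_congr_st e, mul_comm 4]
  exact h2.trans (mul_le_mul h3 h4 (Ex_nonneg hw fun x => sq_nonneg _) (Ent_nonneg hw hf))

lemma le_of_deriv_st {φ φ' B B' : ℝ → ℝ} (h1 : ∀ t, HasDerivAt φ (φ' t) t)
    (h2 : ∀ t, HasDerivAt B (B' t) t) (h0 : φ 0 ≤ B 0) (hb : ∀ t ∈ Set.Icc (0 : ℝ) 1, φ' t ≤ B' t) :
    ∀ t ∈ Set.Icc (0 : ℝ) 1, φ t ≤ B t := fun _ ht =>
  image_le_of_deriv_right_le_deriv_boundary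
    (fun t _ => (h1 t).continuousAt.continuousWithinAt) (fun t _ => (h1 t).hasDerivWithinAt) h0
    (fun t _ => (h2 t).continuousAt.continuousWithinAt) (fun t _ => (h2 t).hasDerivWithinAt)
    (fun t ht => hb t (Set.Ico_subset_Icc_self ht)) ht

lemma mgf_st (hw : Pos w) (l : Cfg n → ℝ) {V : ℝ}
    (hV : ∀ t, Var (fun x => w x * exp (t * l x)) l ≤ V) :
    log (Ex w fun x => exp (l x)) ≤ Ex w l + V / 2 := by
  have hd : ∀ (F : Cfg n → ℝ) (t : ℝ), HasDerivAt (fun t => ∑ x, w x * exp (t * l x) * F x)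
      (∑ x, w x * exp (t * l x) * (F x * l x)) t := fun F t => by
    refine HasDerivAt.fun_sum fun x _ => ?_
    refine (((((hasDerivAt_id' t).mul_const (l x)).exp).const_mul (w x)).mul_const
      (F x)).congr_deriv ?_
    ring
  have hZ : ∀ t, 0 < ∑ x, w x * exp (t * l x) := fun t =>
    Pos.sum_pos fun x => mul_pos (hw x) (exp_pos _)
  have hd0 : ∀ t : ℝ, HasDerivAt (fun t => ∑ x, w x * exp (t * l x))
      (∑ x, w x * exp (t * l x) * l x) t := fun t => by
    simpa using hd (fun _ => 1) t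
  have hm : ∀ t : ℝ, HasDerivAt (fun t => Ex (fun x => w x * exp (t * l x)) l)
      (Var (fun x => w x * exp (t * l x)) l) t := fun t => by
    refine ((hd l t).fun_div (hd0 t) (hZ t).ne').congr_deriv ?_
    have := (hZ t).ne'
    simp only [Var, Ex, ← sq]
    field_simp
  have s1 := le_of_deriv_st hm (B := fun t => Ex w l + t * V) (B' := fun _ => V)
    (fun t => by simpa using ((hasDerivAt_id t).mul_const V).const_add (Ex w l))
    (by simp) fun t _ => hV t
  have s2 := le_of_deriv_st (fun t => (hd0 t).log (hZ t).ne')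
    (B := fun t => log (∑ x, w x) + t * Ex w l + t ^ 2 * (V / 2))
    (B' := fun t => Ex w l + t * V)
    (fun t => by
      refine ((((hasDerivAt_id' t).mul_const (Ex w l)).const_add (log (∑ x, w x))).fun_add
        ((hasDerivAt_pow 2 t).mul_const (V / 2))).congr_deriv ?_
      simp
      ring)
    (by simp) s1 1 ⟨zero_le_one, le_rfl⟩
  have := hZ 1
  simp only [one_mul, one_pow] at s2 this
  rw [Ex, log_div this.ne' hw.sum_pos.ne']
  linarith

lemma logmgf_le (hκ : 0 < κ) (hP : ∀ h, Poi (Wt J h) κ) (h v : Fin n → ℝ) :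
    log (Ex (Wt J h) fun x => exp (∑ k, v k * sp (x k))) ≤
      Ex (Wt J h) (fun x => ∑ k, v k * sp (x k)) + (∑ k, v k ^ 2) / (2 * κ) := by
  have := mgf_st (Wt_pos (J := J) (h := h)) (fun x => ∑ k, v k * sp (x k))
    (V := (∑ k, v k ^ 2) / κ) fun t => by
      have e : (fun x => Wt J h x * exp (t * ∑ k, v k * sp (x k))) = Wt J (h + t • v) := by
        funext x
        rw [Wt_tilt, mul_sum]
        simp only [Pi.smul_apply, smul_eq_mul, mul_assoc]
      rw [e, le_div_iff₀ hκ, mul_comm]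
      exact (hP _ _).trans (Dir_lin Wt_pos v)
  rwa [div_div, mul_comm κ] at this

theorem stab (hκ : 0 < κ) (hP : ∀ h, Poi (Wt J h) κ) (h : Fin n → ℝ) (hf : Pos f)
    (h1 : Ex (Wt J h) f = 1) :
    ∑ k, (Ex (Wt J h) (fun x => f x * sp (x k)) - Ex (Wt J h) fun x => sp (x k)) ^ 2 ≤
      2 / κ * Ent (Wt J h) f := by
  set b : Fin n → ℝ := fun k =>
    Ex (Wt J h) (fun x => f x * sp (x k)) - Ex (Wt J h) fun x => sp (x k) with hb
  have h2 := dv Wt_pos hf h1 fun x => ∑ k, κ * b k * sp (x k)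
  have h3 := logmgf_le hκ hP h fun k => κ * b k
  have e1 : Ex (Wt J h) (fun x => f x * ∑ k, κ * b k * sp (x k)) -
      Ex (Wt J h) (fun x => ∑ k, κ * b k * sp (x k)) = κ * ∑ k, b k ^ 2 := by
    simp only [mul_sum, mul_left_comm (f _)]
    rw [Ex_sum, Ex_sum, ← sum_sub_distrib]
    refine sum_congr rfl fun k _ => ?_
    rw [Ex_mul, Ex_mul, ← mul_sub, sq, mul_assoc]
  have e2 : (∑ k, (κ * b k) ^ 2) / (2 * κ) = κ * (∑ k, b k ^ 2) / 2 := by
    simp only [mul_pow, ← mul_sum]
    field_simp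
  rw [e2] at h3
  rw [div_mul_eq_mul_div, le_div_iff₀ hκ]
  linarith

end Vale.Agent.P150
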