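import Vale.Agent.P150.Semi
import Vale.Agent.P150.Stab

/-! Mixing from approximate tensorization.
`ent_Kw`: convexity of `x log x` (`Real.convexOn_mul_log`, `ConvexOn.map_sum_le`) gives
`Ex (Kf log Kf) ≤ (1/n) ∑ Ex (Q_i f log Q_i f) = Ex (f log f) - DE / n`.
`mix_le`: let `μ = w / ∑ w`, `f₀ = 1_x / μ x`, `f = (f₀ + 1) / 2 > 0`, `Ex f = 1`, `Ent f ≤ log (1 / μ x)` since
`f ≤ 1 / μ x`.  By `hell` and `ent_Kw`, `Ex |K^k f - 1| ≤ 2 √(log (1/μ x)) (1 - 1/(2 C n))^k`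
(`1 - y ≤ (1 - y/2)²`).  Sum with the Poisson weights (`hasSum_Pt`, `hasSum_poisW`); by `Pt_rev`,
`Pt w t x y - μ y = μ y (Pt f₀ y - 1) = 2 μ y (Pt f y - 1)`. -/

namespace Vale.Agent.P150

open Finset Real

variable {n : ℕ} {w f : Cfg n → ℝ} {C t : ℝ}

lemma Kw_jensen_mx (hn : n ≠ 0) (hw : Pos w) (hf : Pos f) (x : Cfg n) :
    Kw w f x * log (Kw w f x) ≤ (n : ℝ)⁻¹ * ∑ i, Qw w i f x * log (Qw w i f x) := by
  have hn' : (n : ℝ) ≠ 0 := Nat.cast_ne_zero.mpr hn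
  have h := Real.convexOn_mul_log.map_sum_le (t := Finset.univ) (w := fun _ : Fin n => (n : ℝ)⁻¹)
    (p := fun i => Qw w i f x) (fun _ _ => by positivity) (by simp [hn'])
    (fun i _ => (Qw_pos hw hf x).le)
  have e1 : ∑ i : Fin n, (n : ℝ)⁻¹ • Qw w i f x = Kw w f x := by
    rw [Kw, div_eq_inv_mul, Finset.mul_sum]
    rfl
  rw [e1] at h
  rw [Finset.mul_sum]
  exact h

lemma ent_Kw (hn : n ≠ 0) (hw : Pos w) (hC : 1 ≤ C) (hA : AT w C) (hf : Pos f) :
    Ent w (Kw w f) ≤ (1 - 1 / (C * n)) * Ent w f := by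
  have hn' : (0 : ℝ) < n := Nat.cast_pos.mpr (Nat.pos_of_ne_zero hn)
  have hC0 : 0 < C := by linarith
  have h1 := Ex_mono hw (Kw_jensen_mx hn hw hf)
  rw [Ex_mul, Ex_sum] at h1
  have h2 : DE w f = n * Ex w (fun x => f x * log (f x)) -
      ∑ i, Ex w fun x => Qw w i f x * log (Qw w i f x) := by
    rw [DE, Finset.sum_sub_distrib]
    simp
  have h3 : 1 / (C * n) * Ent w f ≤ (n : ℝ)⁻¹ * DE w f := by
    have h4 := mul_le_mul_of_nonneg_left (hA f hf) (show 0 ≤ 1 / (C * n) by positivity)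
    have e1 : 1 / (C * n) * (C * DE w f) = (n : ℝ)⁻¹ * DE w f := by field_simp
    rwa [e1] at h4
  have h5 : (n : ℝ)⁻¹ * DE w f = Ex w (fun x => f x * log (f x)) -
      (n : ℝ)⁻¹ * ∑ i, Ex w fun x => Qw w i f x * log (Qw w i f x) := by
    rw [h2, mul_sub, ← mul_assoc, inv_mul_cancel₀ hn'.ne', one_mul]
  have h6 : Ent w (Kw w f) = Ex w (fun x => Kw w f x * log (Kw w f x)) - Ex w f * log (Ex w f) := by
    rw [Ent, Ex_Kw hn hw]
  have h7 : Ent w f = Ex w (fun x => f x * log (f x)) - Ex w f * log (Ex w f) := rfl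
  rw [sub_mul, one_mul]
  linarith

lemma iter_mx (hn : n ≠ 0) (hw : Pos w) (hC : 1 ≤ C) (hA : AT w C) (hf : Pos f) (k : ℕ) :
    Pos ((Kw w)^[k] f) ∧ Ex w ((Kw w)^[k] f) = Ex w f ∧
      Ent w ((Kw w)^[k] f) ≤ (1 - 1 / (C * n)) ^ k * Ent w f := by
  have hn1 : (1 : ℝ) ≤ n := Nat.one_le_cast.mpr (Nat.pos_of_ne_zero hn)
  have hq : 0 ≤ 1 - 1 / (C * n) := by
    have h1 : 1 ≤ C * n := one_le_mul_of_one_le_of_one_le hC hn1
    have h2 : 1 / (C * n) ≤ 1 := (div_le_one (by linarith)).mpr h1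
    linarith
  induction k with
  | zero => exact ⟨hf, rfl, by simp⟩
  | succ k ih =>
    obtain ⟨h1, h2, h3⟩ := ih
    rw [Function.iterate_succ_apply']
    refine ⟨Kw_pos hn hw h1, (Ex_Kw hn hw).trans h2, (ent_Kw hn hw hC hA h1).trans ?_⟩
    rw [pow_succ', mul_assoc]
    exact mul_le_mul_of_nonneg_left h3 hq

lemma l1_iter_mx (hn : n ≠ 0) (hw : Pos w) (hC : 1 ≤ C) (hA : AT w C) (hf : Pos f)
    (h1 : Ex w f = 1) {L : ℝ} (hL : Ent w f ≤ L) (k : ℕ) :
    Ex w (fun x => |(Kw w)^[k] f x - 1|) ≤ 2 * √L * (1 - 1 / (2 * (C * n))) ^ k := by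
  have hn1 : (1 : ℝ) ≤ n := Nat.one_le_cast.mpr (Nat.pos_of_ne_zero hn)
  have hCn : 1 ≤ C * n := one_le_mul_of_one_le_of_one_le hC hn1
  have hy : 1 / (C * n) ≤ 1 := (div_le_one (by linarith)).mpr hCn
  have hy0 : 0 ≤ 1 / (C * n) := by positivity
  have e1 : 1 / (2 * (C * n)) = 1 / (C * n) / 2 := by field_simp
  have hL0 : 0 ≤ L := (Ent_nonneg hw hf).trans hL
  obtain ⟨h2, h3, h4⟩ := iter_mx hn hw hC hA hf k
  have h5 := hell hw h2 (h3.trans h1)
  rw [e1]
  set y := 1 / (C * n) with hydef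
  have h6 : (1 - y) ^ k ≤ ((1 - y / 2) ^ k) ^ 2 := by
    rw [← pow_mul, mul_comm k 2, pow_mul]
    exact pow_le_pow_left₀ (by linarith) (by nlinarith [sq_nonneg y]) k
  have h7 : (1 - y) ^ k * Ent w f ≤ ((1 - y / 2) ^ k) ^ 2 * L :=
    mul_le_mul h6 hL (Ent_nonneg hw hf) (sq_nonneg _)
  refine abs_le_of_sq_le_sq' ?_ (mul_nonneg (by positivity) (pow_nonneg (by linarith) k)) |>.2
  rw [mul_pow, mul_pow, Real.sq_sqrt hL0]
  linarith

lemma l1_Pt_mx (hn : n ≠ 0) (hw : Pos w) (hC : 1 ≤ C) (hA : AT w C) (ht : 0 ≤ t) (hf : Pos f)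
    (h1 : Ex w f = 1) {L : ℝ} (hL : Ent w f ≤ L) :
    Ex w (fun x => |(Pt w t).mulVec f x - 1|) ≤ 2 * √L * exp (-t / (2 * C)) := by
  have hn' : (0 : ℝ) < n := Nat.cast_pos.mpr (Nat.pos_of_ne_zero hn)
  have hC0 : 0 < C := by linarith
  have hs : ∀ x, ∃ s : ℝ, |s| ≤ 1 ∧ s * ((Pt w t).mulVec f x - 1) = |(Pt w t).mulVec f x - 1| := by
    intro x
    rcases le_total 0 ((Pt w t).mulVec f x - 1) with h | h
    · exact ⟨1, by simp, by rw [one_mul, abs_of_nonneg h]⟩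
    · exact ⟨-1, by simp, by rw [abs_of_nonpos h]; ring⟩
  choose s hs1 hs2 using hs
  have hp := hasSum_poisW (n * t) 1
  simp only [one_pow, mul_one, sub_self, mul_zero, exp_zero] at hp
  have h2 := hasSum_Ex_sm (w := w) fun x => ((hasSum_Pt hn w f t x).sub hp).mul_left (s x)
  simp only [hs2] at h2
  have h3 := (hasSum_poisW (n * t) (1 - 1 / (2 * (C * n)))).mul_left (2 * √L)
  have e1 : -(n * t) * (1 - (1 - 1 / (2 * (C * n)))) = -t / (2 * C) := by
    field_simp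
    ring
  rw [e1] at h3
  refine hasSum_le (fun k => ?_) h2 h3
  have hk := poisW_nonneg (mul_nonneg hn'.le ht) k
  have h4 : Ex w (fun x => s x * (poisW (n * t) k * (Kw w)^[k] f x - poisW (n * t) k)) ≤
      Ex w fun x => poisW (n * t) k * |(Kw w)^[k] f x - 1| := by
    refine Ex_mono hw fun x => ?_
    have h5 : s x * ((Kw w)^[k] f x - 1) ≤ |(Kw w)^[k] f x - 1| := by
      refine (le_abs_self _).trans ?_
      rw [abs_mul]
      exact mul_le_of_le_one_left (abs_nonneg _) (hs1 x)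
    have h6 := mul_le_mul_of_nonneg_left h5 hk
    linarith
  rw [Ex_mul] at h4
  have h5 := mul_le_mul_of_nonneg_left (l1_iter_mx hn hw hC hA hf h1 hL k) hk
  linarith

theorem mix_le (hn : n ≠ 0) (hw : Pos w) (hC : 1 ≤ C) (hA : AT w C) (ht : 0 ≤ t) (x : Cfg n) :
    ∑ y, |Pt w t x y - w y / ∑ z, w z| ≤
      4 * √(log ((∑ z, w z) / w x)) * exp (-t / (2 * C)) := by
  have hZ := hw.sum_pos
  have hx := hw x
  set Z := ∑ z, w z with hZdef
  have hM : 1 ≤ Z / w x :=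
    (one_le_div hx).mpr (Finset.single_le_sum (fun z _ => (hw z).le) (Finset.mem_univ x))
  let F : Cfg n → ℝ := fun z => Z / w x / 2 * (if z = x then 1 else 0) + 1 / 2
  have hF : Pos F := fun z => by
    simp only [F]
    split_ifs
    · linarith
    · linarith
  have hFle : ∀ z, F z ≤ Z / w x := fun z => by
    simp only [F]
    split_ifs
    · linarith
    · linarith
  have h1 : Ex w F = 1 := by
    simp only [F]
    rw [Ex_add, Ex_const hw, Ex_mul]
    simp only [Ex, mul_ite, mul_one, mul_zero, Finset.sum_ite_eq', Finset.mem_univ, if_true]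
    rw [← hZdef]
    field_simp
    ring
  have hL : Ent w F ≤ log (Z / w x) := by
    have h2 : Ex w (fun z => F z * log (F z)) ≤ Ex w fun z => log (Z / w x) * F z :=
      Ex_mono hw fun z => by
        rw [mul_comm (log _)]
        exact mul_le_mul_of_nonneg_left (log_le_log (hF z) (hFle z)) (hF z).le
    rw [Ex_mul, h1] at h2
    rw [Ent, h1, log_one]
    linarith
  have h2 := l1_Pt_mx hn hw hC hA ht hF h1 hL
  have h3 : ∀ y, (Pt w t).mulVec F y = Z / w x / 2 * Pt w t y x + 1 / 2 := fun y => by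
    have h4 := Pt_const (t := t) hn hw (1 / 2) y
    simp only [Matrix.mulVec, dotProduct] at h4
    simp only [F, Matrix.mulVec, dotProduct, mul_add, Finset.sum_add_distrib, h4, mul_ite, mul_one,
      mul_zero, Finset.sum_ite_eq', Finset.mem_univ, if_true]
    ring
  have h4 : ∀ y, |Pt w t x y - w y / Z| = 2 * (w y / Z * |(Pt w t).mulVec F y - 1|) := fun y => by
    have hy := hw y
    have h5 := Pt_rev (t := t) hn hw x y
    have h6 : Pt w t x y = w y * Pt w t y x / w x := by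
      rw [← h5]
      field_simp
    have h7 : Pt w t x y - w y / Z = 2 * (w y / Z) * ((Pt w t).mulVec F y - 1) := by
      rw [h3, h6]
      field_simp
      ring
    rw [h7, abs_mul, abs_of_pos (by positivity), mul_assoc]
  rw [Ex_eq_sum] at h2
  simp only [h4]
  rw [← Finset.mul_sum]
  linarith

end Vale.Agent.P150
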