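import Vale.Agent.P150.Dis
import Vale.Agent.P150.BE
import Vale.Agent.P150.HS
import Vale.Agent.P150.Mix
import Vale.Agent.P150.Low

/-! Assembly. -/

namespace Vale.Agent.P150

open MeasureTheory Finset Real Filter

variable {n : ℕ} {β Λ R η κ : ℝ} {g : Pairs n → ℝ}

lemma Jm_symm (i j : Fin n) : Jm β g i j = Jm β g j i := by
  simp only [Jm, Matrix.of_apply, gsym_symm g i j]

lemma Jm_diag (i : Fin n) : Jm β g i i = 0 := by
  simp only [Jm, Matrix.of_apply, gsym_diag, mul_zero]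

lemma wt_eq : wt β g = Wt (Jm β g) 0 := by
  funext x
  have := sum_gsym g fun i => sp (x i)
  simp only [wt, Wt, Jm, Matrix.of_apply, Pi.zero_apply, zero_mul, sum_const_zero, add_zero,
    mul_assoc (β / √n), ← mul_sum, this]
  congr 1
  ring

lemma field_eq (x : Cfg n) (i : Fin n) : field β g x i = loc (Jm β g) 0 i x := by
  simp only [field, loc, Jm, Matrix.of_apply, Pi.zero_apply, zero_add, mul_assoc (β / √n), ← mul_sum]
  rw [sum_erase _ (by rw [gsym_diag, zero_mul])]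

lemma gen_eq : gen β g = Lm (Wt (Jm β g) 0) := by
  unfold gen Lm
  refine sum_congr rfl fun i _ => ?_
  congr 1
  ext x y
  simp only [heat, Qm, Matrix.of_apply]
  split_ifs with h
  · have e : y = up i (y i) x := by
      funext j
      by_cases hj : j = i
      · subst hj; simp
      · rw [up_ne hj, h j hj]
    have hw := Wt_pos (J := Jm β g) (h := 0) x
    conv_rhs => rw [e]
    rw [Wt_up Jm_symm Jm_diag, Wt_up Jm_symm Jm_diag, Wt_up Jm_symm Jm_diag, field_eq, cosh_eq]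
    generalize loc (Jm β g) 0 i x = L
    simp only [sub_mul, exp_sub, sp, if_true, Bool.false_eq_true, if_false, one_mul, neg_mul]
    have := exp_pos L
    have := exp_pos (-L)
    field_simp
  · rfl

lemma gibbs_Ex (f : Cfg n → ℝ) : ∑ x, gibbs β g x * f x = Ex (Wt (Jm β g) 0) f := by
  rw [Ex_eq_sum]; simp only [gibbs, wt_eq]

lemma gap_mem (hn : n ≠ 0) (hP : Poi (Wt (Jm β g) 0) κ) : κ ≤ gap β g ∧ gap β g ≤ 1 := by
  have hw : Pos (Wt (Jm β g) 0) := Wt_pos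
  have key : ∀ f : Cfg n → ℝ, ∑ x, gibbs β g x * (f x * -(gen β g).mulVec f x) =
      Dir (Wt (Jm β g) 0) f := fun f => by
    rw [gibbs_Ex, Dir_eq hw, ← neg_one_mul, ← Ex_mul]
    simp only [gen_eq, Lm_mulVec, mul_neg, neg_mul, one_mul]
  have lb : ∀ r ∈ {r | ∃ f : Cfg n → ℝ, ∑ x, gibbs β g x * f x = 0 ∧
      ∑ x, gibbs β g x * f x ^ 2 = 1 ∧
      r = ∑ x, gibbs β g x * (f x * -(gen β g).mulVec f x)}, κ ≤ r := by
    rintro r ⟨f, h0, h1, rfl⟩
    rw [gibbs_Ex] at h0 h1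
    have := hP f
    rw [Var, h0, h1] at this
    rw [key]
    simpa using this
  let i : Fin n := ⟨0, Nat.pos_of_ne_zero hn⟩
  have hm : Dir (Wt (Jm β g) 0) (fun x => sp (x i)) ∈ {r | ∃ f : Cfg n → ℝ,
      ∑ x, gibbs β g x * f x = 0 ∧ ∑ x, gibbs β g x * f x ^ 2 = 1 ∧
      r = ∑ x, gibbs β g x * (f x * -(gen β g).mulVec f x)} :=
    ⟨fun x => sp (x i), by rw [gibbs_Ex, Ex_sp_zero], by
      rw [gibbs_Ex]; simp only [sp_sq]; exact Ex_const hw 1, (key _).symm⟩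
  refine ⟨le_csInf ⟨_, hm⟩ lb, (csInf_le ⟨κ, lb⟩ hm).trans ?_⟩
  have := Dir_lin hw (Pi.single i (1 : ℝ))
  simpa [Pi.single_apply, ite_mul, ite_pow] using this

lemma tv_eq (t : ℝ) (x : Cfg n) : tv β g t x = 1 / 2 *
    ∑ y, |Pt (Wt (Jm β g) 0) t x y - Wt (Jm β g) 0 y / ∑ z, Wt (Jm β g) 0 z| := by
  simp only [tv, gibbs, wt_eq, gen_eq, Pt]

lemma log_ratio_le {J : Matrix (Fin n) (Fin n) ℝ} (hJ : Good J Λ R η) (x : Cfg n) :
    log ((∑ z, Wt J 0 z) / Wt J 0 x) ≤ (1 + Λ) * n := by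
  have hb : ∀ z : Cfg n, |∑ i, ∑ j, J i j * sp (z i) * sp (z j)| ≤ Λ * n := fun z => by
    simpa [sp_sq] using hJ.op fun i => sp (z i)
  have h1 : ∀ z : Cfg n, Wt J 0 z ≤ exp (Λ * n) * Wt J 0 x := fun z => by
    simp only [Wt, Pi.zero_apply, zero_mul, sum_const_zero, add_zero, ← exp_add]
    exact exp_le_exp.2 (by linarith [abs_le.1 (hb z), abs_le.1 (hb x)])
  have hw : Pos (Wt J 0) := Wt_pos
  rw [log_le_iff_le_exp (div_pos hw.sum_pos (hw x)), div_le_iff₀ (hw x)]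
  refine (sum_le_card_nsmul _ _ _ fun z _ => h1 z).trans ?_
  have e1 : (2 : ℝ) ^ n ≤ exp n := by
    rw [← mul_one (n : ℝ), exp_nat_mul]
    gcongr
    linarith [add_one_le_exp 1]
  rw [add_mul, one_mul, exp_add, mul_assoc, nsmul_eq_mul]
  have := hw x
  gcongr
  simpa using e1

lemma up_num {Λ C : ℝ} (hΛ : 0 ≤ Λ) (hC : 0 < C) {N : ℝ} (hN : 64 * (1 + Λ) ≤ N) :
    1 / 2 * (4 * √((1 + Λ) * N) * exp (-(2 * C * log N) / (2 * C))) ≤ 1 / 4 := by
  have hN0 : 0 < N := by linarith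
  have e : -(2 * C * log N) / (2 * C) = -log N := by field_simp
  rw [e, exp_neg, exp_log hN0]
  have : √((1 + Λ) * N) ≤ N / 8 := sqrt_le_iff.2 ⟨by positivity, by nlinarith⟩
  rw [← div_eq_mul_inv, ← mul_div_assoc, div_le_iff₀ hN0]
  linarith

lemma low_num {c1 t N : ℝ} (hc : 0 ≤ c1) (ht : 0 ≤ t) (hN : 400 ≤ N)
    (h : t < 1 / (2 * (c1 + 3)) * log N) :
    1 / 4 < 1 / 2 - 4 * t * exp (c1 * t) * exp (2 * t) / N := by
  have hN0 : 0 < N := by linarith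
  have e1 : exp ((c1 + 3) * t) ≤ √N := by
    rw [sqrt_eq_rpow, rpow_def_of_pos hN0]
    refine exp_le_exp.2 ?_
    rw [one_div, inv_mul_eq_div, lt_div_iff₀ (by positivity)] at h
    linarith
  have e2 : t ≤ exp t := by linarith [add_one_le_exp t]
  have e3 : t * exp (c1 * t) * exp (2 * t) ≤ √N := by
    refine le_trans ?_ e1
    rw [show (c1 + 3) * t = t + c1 * t + 2 * t by ring, exp_add, exp_add]
    gcongr
  have e5 : 20 ≤ √N := le_sqrt_of_sq_le (by linarith)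
  have e6 : √N * √N = N := mul_self_sqrt hN0.le
  have e7 : 4 * t * exp (c1 * t) * exp (2 * t) / N ≤ 1 / 5 := by
    rw [div_le_iff₀ hN0]
    nlinarith [mul_le_mul_of_nonneg_right e5 (sqrt_nonneg N)]
  linarith

lemma mem_mix {C : ℝ} (hΛ : 0 ≤ Λ) (hJ : Good (Jm β g) Λ R η) (hn1 : 64 * (1 + Λ) ≤ n) (hC : 1 ≤ C)
    (hA : AT (Wt (Jm β g) 0) C) : 2 * C * log n ∈ {t | 0 ≤ t ∧ ∀ x, tv β g t x ≤ 1 / 4} := by
  have hn3 : (1 : ℝ) ≤ n := by linarith
  have hn : n ≠ 0 := by rintro rfl; norm_num at hn3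
  have hl := log_nonneg hn3
  refine ⟨by positivity, fun x => ?_⟩
  rw [tv_eq]
  refine le_trans ?_ (up_num hΛ (zero_lt_one.trans_le hC) hn1)
  refine mul_le_mul_of_nonneg_left ((mix_le hn Wt_pos hC hA (by positivity) x).trans ?_)
    (by norm_num)
  have := log_ratio_le hJ x
  gcongr

theorem main_low {β : ℝ} (h0 : 0 ≤ β) : ∃ c : ℝ, 0 < c ∧
    Tendsto (fun n : ℕ => disorder n {g | ¬ (gap β g ≤ 1 ∧ c * log n ≤ tmix β g)}) atTop
      (nhds 0) := by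
  refine ⟨1 / (2 * (2 * (β * (2 + 3 * 1)) + 40 * (2 * β ^ 2) + 3)), by positivity, ?_⟩
  refine tendsto_of_tendsto_of_tendsto_of_le_of_le' tendsto_const_nhds
    (good_whp (δ := 1) (η := 1 / 100) h0 one_pos le_rfl (by norm_num))
    (Eventually.of_forall fun _ => zero_le) ?_
  filter_upwards [tendsto_natCast_atTop_atTop.eventually_ge_atTop (64 * (1 + β * (2 + 3 * 1))),
    tendsto_natCast_atTop_atTop.eventually_ge_atTop (400 : ℝ)] with n hn1 hn2
  refine measure_mono fun g hg hJ => hg ?_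
  have hn : n ≠ 0 := by rintro rfl; norm_num at hn2
  obtain ⟨C, hC, hA⟩ := at_any (w := Wt (Jm β g) 0) Wt_pos
  refine ⟨(gap_mem hn (κ := 0) fun f => by simpa using Dir_nonneg Wt_pos).2,
    le_csInf ⟨_, mem_mix (by positivity) hJ hn1 hC hA⟩ ?_⟩
  rintro t ⟨ht, htv⟩
  refine not_lt.1 fun hlt => ?_
  obtain ⟨x, hx⟩ := mix_ge hn hJ le_rfl ht
  have := low_num (by positivity) ht hn2 hlt
  have h2 := htv x
  rw [tv_eq] at h2
  linarith

theorem main_up {β : ℝ} (h0 : 0 ≤ β) (h1 : β < 1 / 2) : ∃ c C : ℝ, 0 < c ∧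
    Tendsto (fun n : ℕ => disorder n {g | ¬ (c ≤ gap β g ∧ tmix β g ≤ C * log n)}) atTop
      (nhds 0) := by
  have hκ : 0 < (1 - 2 * β) / 4 := by linarith
  have hΛ : 0 ≤ β * (2 + 3 * ((1 - 2 * β) / 3)) := by nlinarith
  refine ⟨(1 - 2 * β) / 4, 2 * exp (8 * (β * (2 + 3 * ((1 - 2 * β) / 3))) / ((1 - 2 * β) / 4) + 2),
    hκ, ?_⟩
  refine tendsto_of_tendsto_of_tendsto_of_le_of_le' tendsto_const_nhds
    (good_whp (δ := (1 - 2 * β) / 3) (η := (1 - 2 * β) / 400) h0 (by linarith) (by linarith)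
      (by linarith)) (Eventually.of_forall fun _ => zero_le) ?_
  filter_upwards [tendsto_natCast_atTop_atTop.eventually_ge_atTop
    (64 * (1 + β * (2 + 3 * ((1 - 2 * β) / 3)))), eventually_ne_atTop 0] with n hn1 hn
  refine measure_mono fun g hg hJ => hg ?_
  have hη : (1 - 2 * β) / 400 ≤ 1 / 100 := by linarith
  have hk : (1 - 2 * β) / 4 ≤ 1 - max (β * (2 + 3 * ((1 - 2 * β) / 3))) (2 * (2 * β ^ 2)) -
      200 * ((1 - 2 * β) / 400) * (2 * β ^ 2) := by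
    have : max (β * (2 + 3 * ((1 - 2 * β) / 3))) (2 * (2 * β ^ 2)) ≤ 1 / 2 + β :=
      max_le (by nlinarith) (by nlinarith)
    nlinarith [mul_nonneg h0 h0, mul_pos hκ hκ]
  have hA := at_of_poi hJ.symm hΛ hJ.op hκ (fun s h0 h1 h => poi (hJ.smul h0 h1) hη hκ hk h) 0
  exact ⟨(gap_mem hn (poi hJ hη hκ hk 0)).1, csInf_le ⟨0, fun t ht => ht.1⟩
    (mem_mix hΛ hJ hn1 (one_le_exp (by positivity)) hA)⟩

end Vale.Agent.P150
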