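import Vale.Agent.P150.Basic

/-! The semigroup.  Use `open scoped Matrix.Norms.Operator` (or `Matrix.linftyOpNormedRing`,
`Matrix.linftyOpNormedAlgebra` as local instances) for `NormedSpace.exp_series_hasSum_exp'` and
`hasDerivAt_exp_smul_const`; entries and `mulVec` are continuous linear maps (`HasSum.mapL`,
`LinearMap.toContinuousLinearMap`).  For `n ≠ 0`, `t • Lm w = (n t) • Km w + (-(n t)) • 1`, so
`Pt w t = exp (-(n t)) • exp ((n t) • Km w)` (`Matrix.exp_add_of_commute`, `exp_diagonal` or `map_exp` for `algebraMap`).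
`Pt_symm`: termwise from `Kw_iter_symm`.  `Pt_rev`: `Pt_symm` with indicator functions. -/

namespace Vale.Agent.P150

open Finset Real

variable {n : ℕ} {w f g : Cfg n → ℝ} {t : ℝ}

/-- One step of the discrete chain. -/
noncomputable def Kw (w f : Cfg n → ℝ) (x : Cfg n) : ℝ := (∑ i, Qw w i f x) / n

/-- Poisson weights. -/
noncomputable def poisW (r : ℝ) (k : ℕ) : ℝ := exp (-r) * r ^ k / k.factorial

lemma poisW_nonneg {r : ℝ} (hr : 0 ≤ r) (k : ℕ) : 0 ≤ poisW r k := by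
  unfold poisW
  positivity

lemma hasSum_poisW (r q : ℝ) : HasSum (fun k => poisW r k * q ^ k) (exp (-r * (1 - q))) := by
  have h := (NormedSpace.expSeries_div_hasSum_exp (r * q)).mul_left (exp (-r))
  rw [← Real.exp_eq_exp_ℝ, ← Real.exp_add] at h
  have e1 : -r + r * q = -r * (1 - q) := by ring
  rw [e1] at h
  have e2 : (fun k => poisW r k * q ^ k) = fun k : ℕ => exp (-r) * ((r * q) ^ k / k.factorial) := by
    funext k
    rw [poisW, mul_pow]
    ring
  rw [e2]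
  exact h

/-- The matrix of one step of the discrete chain. -/
noncomputable def Km_sm (w : Cfg n → ℝ) : Matrix (Cfg n) (Cfg n) ℝ := (n : ℝ)⁻¹ • ∑ i, Qm w i

lemma Km_mulVec_sm (w f : Cfg n → ℝ) : (Km_sm w).mulVec f = Kw w f := by
  funext x
  rw [Km_sm, Matrix.smul_mulVec, Matrix.sum_mulVec]
  simp only [Pi.smul_apply, Finset.sum_apply, Qm_mulVec, smul_eq_mul, Kw]
  rw [div_eq_inv_mul]

lemma Km_pow_sm (w : Cfg n → ℝ) (k : ℕ) (f : Cfg n → ℝ) :
    ((Km_sm w) ^ k).mulVec f = (Kw w)^[k] f := by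
  induction k generalizing f with
  | zero => simp
  | succ k ih => rw [pow_succ, ← Matrix.mulVec_mulVec, Km_mulVec_sm, ih, Function.iterate_succ_apply]

lemma smul_Lm_sm (hn : n ≠ 0) (w : Cfg n → ℝ) (t : ℝ) :
    t • Lm w = (n * t) • Km_sm w + Matrix.diagonal (fun _ => -(n * t)) := by
  have hn' : (n : ℝ) ≠ 0 := Nat.cast_ne_zero.mpr hn
  have e1 : (Matrix.diagonal fun _ : Cfg n => -((n : ℝ) * t)) =
      (-((n : ℝ) * t)) • (1 : Matrix (Cfg n) (Cfg n) ℝ) := by
    rw [← Matrix.diagonal_one, ← Matrix.diagonal_smul]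
    simp [Pi.smul_def]
  rw [e1, Lm, Km_sm, Finset.sum_sub_distrib, smul_smul, smul_sub, Finset.sum_const, Finset.card_univ,
    Fintype.card_fin, ← Nat.cast_smul_eq_nsmul ℝ, smul_smul, sub_eq_add_neg, ← neg_smul]
  have e2 : (n : ℝ) * t * (n : ℝ)⁻¹ = t := by field_simp
  rw [e2, mul_comm t]

lemma Pt_eq_sm (hn : n ≠ 0) (w : Cfg n → ℝ) (t : ℝ) :
    Pt w t = exp (-(n * t)) • NormedSpace.exp ((n * t) • Km_sm w) := by
  have e1 : ∀ c : ℝ, (Matrix.diagonal fun _ : Cfg n => c) =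
      c • (1 : Matrix (Cfg n) (Cfg n) ℝ) := fun c => by
    rw [← Matrix.diagonal_one, ← Matrix.diagonal_smul]
    simp [Pi.smul_def]
  rw [Pt, smul_Lm_sm hn, Matrix.exp_add_of_commute, Matrix.exp_diagonal]
  · have e2 : NormedSpace.exp (fun _ : Cfg n => -((n : ℝ) * t)) = fun _ => exp (-(n * t)) := by
      funext x
      rw [Pi.coe_exp, Real.exp_eq_exp_ℝ]
    rw [e2, e1, mul_smul_comm, mul_one]
  · rw [e1]
    exact (Commute.one_right _).smul_right _

open scoped Matrix.Norms.Operator in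
lemma hasSum_exp_sm (A : Matrix (Cfg n) (Cfg n) ℝ) (x y : Cfg n) :
    HasSum (fun k : ℕ => ((k.factorial : ℝ)⁻¹ • A ^ k) x y) (NormedSpace.exp A x y) := by
  have h := NormedSpace.exp_series_hasSum_exp' (𝕂 := ℝ) A
  exact Pi.hasSum.mp (Pi.hasSum.mp h x) y

theorem hasSum_Pt (hn : n ≠ 0) (w f : Cfg n → ℝ) (t : ℝ) (x : Cfg n) :
    HasSum (fun k => poisW (n * t) k * (Kw w)^[k] f x) ((Pt w t).mulVec f x) := by
  have h := hasSum_sum (s := Finset.univ) fun y _ =>
    ((hasSum_exp_sm ((n * t) • Km_sm w) x y).mul_left (exp (-(n * t)))).mul_right (f y)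
  have e1 : (Pt w t).mulVec f x =
      ∑ y, exp (-(n * t)) * NormedSpace.exp ((n * t) • Km_sm w) x y * f y := by
    rw [Pt_eq_sm hn]
    simp [Matrix.mulVec, dotProduct]
  have e2 : (fun k => poisW (n * t) k * (Kw w)^[k] f x) = fun k : ℕ =>
      ∑ y, exp (-(n * t)) * ((k.factorial : ℝ)⁻¹ • ((n * t) • Km_sm w) ^ k) x y * f y := by
    funext k
    rw [← Km_pow_sm, smul_pow, poisW]
    simp only [Matrix.mulVec, dotProduct, Matrix.smul_apply, smul_eq_mul, Finset.mul_sum]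
    exact Finset.sum_congr rfl fun y _ => by ring
  rw [e1, e2]
  exact h

lemma Kw_mul_sm (x : Cfg n) : Kw w f x * g x = (n : ℝ)⁻¹ * ∑ i, Qw w i f x * g x := by
  rw [Kw, ← Finset.sum_mul]
  ring

lemma Kw_symm (hw : Pos w) :
    Ex w (fun x => Kw w f x * g x) = Ex w fun x => f x * Kw w g x := by
  have e1 : (fun x => f x * Kw w g x) = fun x => (n : ℝ)⁻¹ * ∑ i, f x * Qw w i g x := by
    funext x
    rw [Kw, ← Finset.mul_sum]
    ring
  rw [e1]
  simp only [Kw_mul_sm]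
  rw [Ex_mul, Ex_mul, Ex_sum, Ex_sum]
  exact congrArg _ (Finset.sum_congr rfl fun i _ => Ex_Q_symm hw)

lemma Kw_iter_symm (hw : Pos w) (k : ℕ) :
    Ex w (fun x => (Kw w)^[k] f x * g x) = Ex w fun x => f x * (Kw w)^[k] g x := by
  induction k generalizing f g with
  | zero => rfl
  | succ k ih =>
    rw [Function.iterate_succ_apply, ih, Kw_symm hw, Function.iterate_succ_apply']

lemma Kw_psd (hw : Pos w) : 0 ≤ Ex w fun x => f x * Kw w f x := by
  rw [← Kw_symm hw]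
  simp only [Kw_mul_sm]
  rw [Ex_mul, Ex_sum]
  refine mul_nonneg (by positivity) (Finset.sum_nonneg fun i _ => ?_)
  have e1 : Ex w (fun x => Qw w i f x * f x) = Ex w fun x => Qw w i f x * Qw w i f x := by
    rw [Ex_Q hw free_Qw]
    exact congrArg _ (funext fun x => mul_comm _ _)
  rw [e1]
  exact Ex_nonneg hw fun x => mul_self_nonneg _

lemma Kw_pos (hn : n ≠ 0) (hw : Pos w) (hf : Pos f) : Pos (Kw w f) := fun x => by
  have : Nonempty (Fin n) := ⟨⟨0, Nat.pos_of_ne_zero hn⟩⟩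
  exact div_pos (Finset.sum_pos (fun i _ => Qw_pos hw hf x) Finset.univ_nonempty)
    (Nat.cast_pos.mpr (Nat.pos_of_ne_zero hn))

lemma Ex_Kw (hn : n ≠ 0) (hw : Pos w) : Ex w (Kw w f) = Ex w f := by
  have hn' : (n : ℝ) ≠ 0 := Nat.cast_ne_zero.mpr hn
  have e1 : Kw w f = fun x => (n : ℝ)⁻¹ * ∑ i, Qw w i f x := by
    funext x
    rw [Kw, div_eq_inv_mul]
  rw [e1, Ex_mul, Ex_sum]
  simp only [Ex_Q_one hw, Finset.sum_const, Finset.card_univ, Fintype.card_fin, nsmul_eq_mul]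
  field_simp

lemma Pt_zero (x : Cfg n) : (Pt w 0).mulVec f x = f x := by
  simp [Pt]

lemma Kw_const_sm (hn : n ≠ 0) (hw : Pos w) (c : ℝ) : Kw w (fun _ => c) = fun _ => c := by
  have hn' : (n : ℝ) ≠ 0 := Nat.cast_ne_zero.mpr hn
  funext x
  have e1 : ∀ i, Qw w i (fun _ => c) = fun _ => c := fun i => Free.Qw_eq hw fun _ _ => rfl
  simp only [Kw, e1, Finset.sum_const, Finset.card_univ, Fintype.card_fin, nsmul_eq_mul]
  field_simp

lemma Pt_const (hn : n ≠ 0) (hw : Pos w) (c : ℝ) (x : Cfg n) :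
    (Pt w t).mulVec (fun _ => c) x = c := by
  have h := hasSum_Pt hn w (fun _ => c) t x
  have e1 : ∀ k, (Kw w)^[k] (fun _ => c) = fun _ => c := fun k =>
    Function.iterate_fixed (Kw_const_sm hn hw c) k
  simp only [e1] at h
  have h2 := (hasSum_poisW (n * t) 1).mul_right c
  simp only [one_pow, mul_one, sub_self, mul_zero, exp_zero, one_mul] at h2
  exact h.unique h2

lemma Qw_mono_sm (hw : Pos w) (i : Fin n) (h : ∀ x, f x ≤ g x) (x : Cfg n) :
    Qw w i f x ≤ Qw w i g x := by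
  unfold Qw
  refine div_le_div_of_nonneg_right (add_le_add ?_ ?_) (add_pos (hw _) (hw _)).le
  · exact mul_le_mul_of_nonneg_left (h _) (hw _).le
  · exact mul_le_mul_of_nonneg_left (h _) (hw _).le

lemma Kw_iter_mono_sm (hw : Pos w) (k : ℕ) (h : ∀ x, f x ≤ g x) (x : Cfg n) :
    (Kw w)^[k] f x ≤ (Kw w)^[k] g x := by
  induction k generalizing x with
  | zero => exact h x
  | succ k ih =>
    rw [Function.iterate_succ_apply', Function.iterate_succ_apply']
    exact div_le_div_of_nonneg_right (Finset.sum_le_sum fun i _ => Qw_mono_sm hw i ih x)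
      (Nat.cast_nonneg n)

lemma Pt_mono (hn : n ≠ 0) (hw : Pos w) (ht : 0 ≤ t) (h : ∀ x, f x ≤ g x) (x : Cfg n) :
    (Pt w t).mulVec f x ≤ (Pt w t).mulVec g x :=
  hasSum_le (fun k => mul_le_mul_of_nonneg_left (Kw_iter_mono_sm hw k h x)
    (poisW_nonneg (mul_nonneg (Nat.cast_nonneg n) ht) k)) (hasSum_Pt hn w f t x) (hasSum_Pt hn w g t x)

lemma mulVec_ind_sm (A : Matrix (Cfg n) (Cfg n) ℝ) (x y : Cfg n) :
    A.mulVec (fun z => if z = y then 1 else 0) x = A x y := by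
  simp [Matrix.mulVec, dotProduct]

lemma Pt_nonneg (hn : n ≠ 0) (hw : Pos w) (ht : 0 ≤ t) (x y : Cfg n) : 0 ≤ Pt w t x y := by
  have h := Pt_mono (f := fun _ => 0) (g := fun z => if z = y then 1 else 0) hn hw ht
    (fun z => by split_ifs <;> norm_num) x
  rwa [Pt_const hn hw, mulVec_ind_sm] at h

lemma hasSum_Ex_sm {F : ℕ → Cfg n → ℝ} {G : Cfg n → ℝ} (h : ∀ x, HasSum (fun k => F k x) (G x)) :
    HasSum (fun k => Ex w (F k)) (Ex w G) :=
  (hasSum_sum fun x _ => (h x).mul_left (w x)).div_const _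

lemma Pt_symm (hn : n ≠ 0) (hw : Pos w) :
    Ex w (fun x => (Pt w t).mulVec f x * g x) = Ex w fun x => f x * (Pt w t).mulVec g x := by
  have h1 := hasSum_Ex_sm (w := w) fun x => (hasSum_Pt hn w f t x).mul_right (g x)
  have h2 := hasSum_Ex_sm (w := w) fun x => (hasSum_Pt hn w g t x).mul_left (f x)
  refine h1.unique ?_
  have e1 : (fun k => Ex w fun x => poisW (n * t) k * (Kw w)^[k] f x * g x) =
      fun k => Ex w fun x => f x * (poisW (n * t) k * (Kw w)^[k] g x) := by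
    funext k
    simp only [mul_assoc, mul_left_comm (f _)]
    rw [Ex_mul, Ex_mul, Kw_iter_symm hw]
  rw [e1]
  exact h2

lemma Pt_rev (hn : n ≠ 0) (hw : Pos w) (x y : Cfg n) : w x * Pt w t x y = w y * Pt w t y x := by
  have h := Pt_symm (t := t) (f := fun z => if z = y then 1 else 0)
    (g := fun z => if z = x then 1 else 0) hn hw
  simp only [mulVec_ind_sm, Ex, mul_ite, mul_one, mul_zero, ite_mul, one_mul, zero_mul,
    Finset.sum_ite_eq', Finset.mem_univ, if_true] at h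
  exact (div_left_inj' hw.sum_pos.ne').mp h

open scoped Matrix.Norms.Operator in
lemma hasDerivAt_Pt (t : ℝ) (x y : Cfg n) :
    HasDerivAt (fun s => Pt w s x y) ((Pt w t * Lm w) x y) t := by
  have h := hasDerivAt_exp_smul_const (𝕂 := ℝ) (Lm w) t
  let E : Matrix (Cfg n) (Cfg n) ℝ →L[ℝ] ℝ :=
    LinearMap.toContinuousLinearMap (Matrix.entryLinearMap ℝ ℝ x y)
  exact E.hasFDerivAt.comp_hasDerivAt t h

lemma Pt_comm : Pt w t * Lm w = Lm w * Pt w t :=
  (((Commute.refl (Lm w)).smul_left t).exp_left).eq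

end Vale.Agent.P150
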