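import Vale.Agent.P150.Stab
import Vale.Agent.P150.Gauss

/-! One step of Gaussian localization.  Let `μ x = w x / ∑ w`, `k x y = ker a x y` (`∫ k x = 1` by `int_exp`),
`M y = ∑ μ x k x y`, `N y = ∑ μ x f x k x y`, `w_y = w * k · y`, so `M y * Ex w_y F = ∑ μ x k x y F x`.
(1) `M y * Ent w_y f = ∑ μ k f log f - N log (N / M)`, and `N log (N/M) ≤ (N - M)²/M + (N - M)`.
(2) `M y * DE w_y f ≤ ∑ i, ∑ x, μ x k x y (f log f - f log g - f + g) x` with `g = Qw w i f` (`cond_var`), whose integral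
is `DE w f` (`Ex_Q`).  So pointwise `∑ μ k f log f ≤ C * (that) + (N - M)²/M + (N - M)`.
(3) `1 / M y ≤ ∑ z, μ z / k z y` (convexity, or Cauchy-Schwarz `Ex_cs`), so with `ρ x = μ x (f x - 1)`,
`(N - M)²/M ≤ ∑ z x x', μ z ρ x ρ x' k x y k x' y / k z y`, and the integral of `k x k x' / k z` is
`exp ⟨a x - a z, a x' - a z⟩` (`int_exp`).  All upper bounds are finite sums of integrable functions, so only
`integral_mono` between such sums is needed.  (4) `exp t = 1 + t + r`, `|r| ≤ t² ≤ δ²` (`Real.abs_exp_sub_one_sub_id_le`),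
`∑ ρ = 0`, and `∑ ρ x ρ x' ⟨a x - a z, a x' - a z⟩ = |∑ ρ x a x|²`. -/

namespace Vale.Agent.P150

open MeasureTheory Finset Real

variable {n : ℕ} {ι : Type} [Fintype ι] {w f : Cfg n → ℝ}

/-- Likelihood ratio of the Gaussian channel. -/
noncomputable def ker (a : Cfg n → ι → ℝ) (x : Cfg n) (y : ι → ℝ) : ℝ :=
  exp (∑ l, y l * a x l - (∑ l, a x l ^ 2) / 2)

lemma int_exp_sub_sp (c : ι → ℝ) (s : ℝ) :
    Integrable (fun y : ι → ℝ => exp (∑ l, y l * c l - s)) (gam ι) ∧
      ∫ y, exp (∑ l, y l * c l - s) ∂gam ι = exp ((∑ l, c l ^ 2) / 2 - s) := by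
  have h : (fun y : ι → ℝ => exp (∑ l, y l * c l - s)) =
      fun y => exp (∑ l, y l * c l) * exp (-s) := by
    funext y; rw [← exp_add, sub_eq_add_neg]
  rw [h]
  refine ⟨(integrable_exp c).mul_const _, ?_⟩
  rw [integral_mul_const, int_exp, ← exp_add, sub_eq_add_neg]

lemma ker_pos_sp (a : Cfg n → ι → ℝ) (x : Cfg n) (y : ι → ℝ) : 0 < ker a x y := exp_pos _

lemma ker_int_sp (a : Cfg n → ι → ℝ) (x : Cfg n) :
    Integrable (ker a x) (gam ι) ∧ ∫ y, ker a x y ∂gam ι = 1 := by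
  have h := int_exp_sub_sp (a x) ((∑ l, a x l ^ 2) / 2)
  rw [sub_self, exp_zero] at h
  exact h

lemma ker_three_sp (a : Cfg n → ι → ℝ) (x x' z : Cfg n) :
    Integrable (fun y => ker a x y * ker a x' y / ker a z y) (gam ι) ∧
      ∫ y, ker a x y * ker a x' y / ker a z y ∂gam ι =
        exp (∑ l, (a x l - a z l) * (a x' l - a z l)) := by
  have h := int_exp_sub_sp (fun l => a x l + a x' l - a z l)
    ((∑ l, a x l ^ 2) / 2 + (∑ l, a x' l ^ 2) / 2 - (∑ l, a z l ^ 2) / 2)
  have e1 : (fun y => ker a x y * ker a x' y / ker a z y) = fun y : ι → ℝ =>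
      exp (∑ l, y l * (a x l + a x' l - a z l) -
        ((∑ l, a x l ^ 2) / 2 + (∑ l, a x' l ^ 2) / 2 - (∑ l, a z l ^ 2) / 2)) := by
    funext y
    unfold ker
    rw [← exp_add, ← exp_sub]
    congr 1
    have : ∑ l, y l * (a x l + a x' l - a z l) =
        ∑ l, y l * a x l + ∑ l, y l * a x' l - ∑ l, y l * a z l := by
      rw [← sum_add_distrib, ← sum_sub_distrib]
      exact sum_congr rfl fun l _ => by ring
    rw [this]; ring
  have e2 : (∑ l, (a x l + a x' l - a z l) ^ 2) / 2 -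
      ((∑ l, a x l ^ 2) / 2 + (∑ l, a x' l ^ 2) / 2 - (∑ l, a z l ^ 2) / 2) =
      ∑ l, (a x l - a z l) * (a x' l - a z l) := by
    rw [sum_div, sum_div, sum_div, sum_div, ← sum_add_distrib, ← sum_sub_distrib,
      ← sum_sub_distrib]
    exact sum_congr rfl fun l _ => by ring
  rw [e1]
  rw [e2] at h
  exact h

lemma Ex_tilt_sp (hw : Pos w) {k : Cfg n → ℝ} (hk : Pos k) (F : Cfg n → ℝ) :
    Ex w k * Ex (fun x => w x * k x) F = Ex w fun x => k x * F x := by
  have h1 : 0 < ∑ x, w x * k x := Pos.sum_pos (w := fun x => w x * k x)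
    fun x => mul_pos (hw x) (hk x)
  have h2 := hw.sum_pos
  unfold Ex
  have : ∑ x, w x * (k x * F x) = ∑ x, w x * k x * F x := sum_congr rfl fun x _ => by ring
  rw [this]
  field_simp

/-- The pointwise inequality. -/
lemma point_sp (hw : Pos w) {k : Cfg n → ℝ} (hk : Pos k) {C : ℝ} (hC : 0 ≤ C)
    (hA : AT (fun x => w x * k x) C) (hf : Pos f) :
    Ex w (fun x => k x * (f x * log (f x) - C * ∑ i, (f x * log (f x) -
        f x * log (Qw w i f x) - f x + Qw w i f x) - (f x - 1))) ≤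
      Ex w fun z => (Ex w fun x => (f x - 1) * k x) ^ 2 / k z := by
  have hwk : Pos fun x => w x * k x := fun x => mul_pos (hw x) (hk x)
  set M := Ex w k with hM
  have hM0 : 0 < M := Ex_pos hw hk
  set N := Ex w (fun x => k x * f x) with hN
  have hN0 : 0 < N := Ex_pos hw fun x => mul_pos (hk x) (hf x)
  have h1 := hA f hf
  have hE : Ex (fun x => w x * k x) f = N / M := by
    rw [eq_div_iff hM0.ne', mul_comm]; exact Ex_tilt_sp hw hk f
  have h2 : M * Ent (fun x => w x * k x) f =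
      Ex w (fun x => k x * (f x * log (f x))) - N * log (N / M) := by
    unfold Ent
    have e0 : M * (N / M) = N := by field_simp
    rw [mul_sub, hE, ← mul_assoc, e0, hM, Ex_tilt_sp hw hk]
  have h3 : M * DE (fun x => w x * k x) f ≤ ∑ i, Ex w fun x => k x * (f x * log (f x) -
      f x * log (Qw w i f x) - f x + Qw w i f x) := by
    unfold DE
    rw [mul_sum]
    refine sum_le_sum fun i _ => ?_
    rw [← Ex_tilt_sp hw hk]
    exact mul_le_mul_of_nonneg_left (cond_var hwk hf (Qw_pos hw hf) free_Qw) hM0.le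
  have h4 : N * log (N / M) ≤ (N - M) ^ 2 / M + (N - M) := by
    have := log_le_sub_one_of_pos (div_pos hN0 hM0)
    calc _ ≤ N * (N / M - 1) := mul_le_mul_of_nonneg_left this hN0.le
      _ = _ := by field_simp; ring
  have h5 : Ex w (fun x => (f x - 1) * k x) = N - M := by
    rw [hN, hM, ← Ex_sub]
    congr 1; funext x; ring
  have h6 : (N - M) ^ 2 / M ≤ Ex w fun z => (N - M) ^ 2 / k z := by
    have e1 : (N - M) ^ 2 / M =
        Ex w fun z => 2 * (N - M) ^ 2 / M - (N - M) ^ 2 / M ^ 2 * k z := by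
      rw [Ex_sub, Ex_const hw, Ex_mul, ← hM]
      field_simp; ring
    rw [e1]
    refine Ex_mono hw fun z => ?_
    have hz := hk z
    have e2 : (N - M) ^ 2 / k z - (2 * (N - M) ^ 2 / M - (N - M) ^ 2 / M ^ 2 * k z) =
        (N - M) ^ 2 * (M - k z) ^ 2 / (k z * M ^ 2) := by
      field_simp; ring
    have e3 : 0 ≤ (N - M) ^ 2 * (M - k z) ^ 2 / (k z * M ^ 2) := by positivity
    linarith
  have h7 : Ex w (fun x => k x * (f x * log (f x) - C * ∑ i, (f x * log (f x) -
        f x * log (Qw w i f x) - f x + Qw w i f x) - (f x - 1))) =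
      Ex w (fun x => k x * (f x * log (f x))) - C * (∑ i, Ex w fun x => k x * (f x * log (f x) -
        f x * log (Qw w i f x) - f x + Qw w i f x)) - (N - M) := by
    rw [← h5, ← Ex_sum, ← Ex_mul, ← Ex_sub, ← Ex_sub]
    congr 1; funext x
    rw [← mul_sum]; ring
  rw [h7, h5]
  have h8 := mul_le_mul_of_nonneg_left h1 hM0.le
  have h9 := mul_le_mul_of_nonneg_left h3 hC
  nlinarith

lemma int_Ex_sp (F : Cfg n → (ι → ℝ) → ℝ) (hF : ∀ x, Integrable (F x) (gam ι)) :
    Integrable (fun y => Ex w fun x => F x y) (gam ι) ∧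
      ∫ y, (Ex w fun x => F x y) ∂gam ι = Ex w fun x => ∫ y, F x y ∂gam ι := by
  simp only [Ex_eq_sum]
  refine ⟨integrable_finsetSum _ fun x _ => (hF x).const_mul _, ?_⟩
  rw [integral_finsetSum _ fun x _ => (hF x).const_mul _]
  exact sum_congr rfl fun x _ => integral_const_mul _ _

lemma Ex_mul_Ex_sp (F G : Cfg n → ℝ) :
    Ex w F * Ex w G = Ex w fun x => Ex w fun x' => F x * G x' := by
  simp only [Ex_mul]
  rw [mul_comm, ← Ex_mul]
  congr 1; funext x; ring

lemma taylor_sp (hw : Pos w) (a : Cfg n → ι → ℝ) {δ : ℝ} (hδ : δ ≤ 1)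
    (ha : ∀ x x' z, |∑ l, (a x l - a z l) * (a x' l - a z l)| ≤ δ) (h1 : Ex w f = 1) (z : Cfg n) :
    (Ex w fun x => Ex w fun x' => (f x - 1) * (f x' - 1) *
        exp (∑ l, (a x l - a z l) * (a x' l - a z l))) ≤
      ∑ l, (Ex w (fun x => f x * a x l) - Ex w fun x => a x l) ^ 2 +
        δ ^ 2 * (Ex w fun x => |f x - 1|) ^ 2 := by
  have h0 : Ex w (fun x => f x - 1) = 0 := by rw [Ex_sub, Ex_const hw, h1, sub_self]
  have e1 : ∀ l, Ex w (fun x => f x * a x l) - Ex w (fun x => a x l) =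
      Ex w fun x => (f x - 1) * (a x l - a z l) := by
    intro l
    have : (fun x => (f x - 1) * (a x l - a z l)) =
        fun x => (f x * a x l - a x l) - a z l * (f x - 1) := by funext x; ring
    rw [this, Ex_sub, Ex_sub, Ex_mul, h0]; ring
  have e2 : ∑ l, (Ex w (fun x => f x * a x l) - Ex w fun x => a x l) ^ 2 +
      δ ^ 2 * (Ex w fun x => |f x - 1|) ^ 2 =
      Ex w (fun x => f x - 1) * Ex w (fun x => f x - 1) +
        ∑ l, Ex w (fun x => (f x - 1) * (a x l - a z l)) *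
          Ex w (fun x => (f x - 1) * (a x l - a z l)) +
        δ ^ 2 * (Ex w (fun x => |f x - 1|) * Ex w fun x => |f x - 1|) := by
    rw [h0]
    simp only [e1, sq]
    ring
  rw [e2]
  simp only [Ex_mul_Ex_sp]
  rw [← Ex_sum, ← Ex_mul, ← Ex_add, ← Ex_add]
  refine Ex_mono hw fun x => ?_
  rw [← Ex_sum, ← Ex_mul, ← Ex_add, ← Ex_add]
  refine Ex_mono hw fun x' => ?_
  have h2 := ha x x' z
  set t := ∑ l, (a x l - a z l) * (a x' l - a z l) with ht
  have e3 : ∑ l, (f x - 1) * (a x l - a z l) * ((f x' - 1) * (a x' l - a z l)) =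
      (f x - 1) * (f x' - 1) * t := by
    rw [ht, mul_sum]; exact sum_congr rfl fun l _ => by ring
  rw [e3]
  have h3 := Real.abs_exp_sub_one_sub_id_le (h2.trans hδ)
  have h4 : t ^ 2 ≤ δ ^ 2 := by
    rw [← sq_abs t]; exact pow_le_pow_left₀ (abs_nonneg _) h2 2
  have h5 : (f x - 1) * (f x' - 1) * (exp t - 1 - t) ≤ δ ^ 2 * (|f x - 1| * |f x' - 1|) := by
    calc _ ≤ |(f x - 1) * (f x' - 1) * (exp t - 1 - t)| := le_abs_self _
      _ = |exp t - 1 - t| * (|f x - 1| * |f x' - 1|) := by rw [abs_mul, abs_mul]; ring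
      _ ≤ _ := mul_le_mul_of_nonneg_right (h3.trans h4) (by positivity)
  linarith

theorem step (hw : Pos w) (a : Cfg n → ι → ℝ) {C δ : ℝ} (hC : 0 ≤ C) (hδ : δ ≤ 1)
    (hA : ∀ y, AT (fun x => w x * ker a x y) C)
    (ha : ∀ x x' z, |∑ l, (a x l - a z l) * (a x' l - a z l)| ≤ δ) (hf : Pos f) (h1 : Ex w f = 1) :
    Ent w f ≤ C * DE w f + ∑ l, (Ex w (fun x => f x * a x l) - Ex w fun x => a x l) ^ 2 +
      δ ^ 2 * (Ex w fun x => |f x - 1|) ^ 2 := by
  have hL := int_Ex_sp (w := w) (fun x y => ker a x y * (f x * log (f x) -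
    C * ∑ i, (f x * log (f x) - f x * log (Qw w i f x) - f x + Qw w i f x) - (f x - 1)))
    fun x => (ker_int_sp a x).1.mul_const _
  have eR : ∀ y, (Ex w fun z => (Ex w fun x => (f x - 1) * ker a x y) ^ 2 / ker a z y) =
      Ex w fun z => Ex w fun x => Ex w fun x' =>
        (f x - 1) * (f x' - 1) * (ker a x y * ker a x' y / ker a z y) := by
    intro y
    congr 1; funext z
    rw [sq, Ex_mul_Ex_sp, div_eq_inv_mul, ← Ex_mul]
    congr 1; funext x
    rw [← Ex_mul]
    congr 1; funext x'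
    ring
  have hR1 := fun z x => int_Ex_sp (w := w) (fun x' y =>
    (f x - 1) * (f x' - 1) * (ker a x y * ker a x' y / ker a z y))
    fun x' => (ker_three_sp a x x' z).1.const_mul _
  have hR2 := fun z => int_Ex_sp (w := w) (fun x y => Ex w fun x' =>
    (f x - 1) * (f x' - 1) * (ker a x y * ker a x' y / ker a z y)) fun x => (hR1 z x).1
  have hR3 := int_Ex_sp (w := w) (fun z y => Ex w fun x => Ex w fun x' =>
    (f x - 1) * (f x' - 1) * (ker a x y * ker a x' y / ker a z y)) fun z => (hR2 z).1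
  have key := integral_mono hL.1 hR3.1 fun y => by
    have := point_sp hw (k := fun x => ker a x y) (fun x => ker_pos_sp a x y) hC (hA y) hf
    rw [eR y] at this
    exact this
  rw [hL.2, hR3.2] at key
  simp only [(hR2 _).2, (hR1 _ _).2, integral_const_mul, integral_mul_const, (ker_int_sp a _).2,
    (ker_three_sp a _ _ _).2, one_mul] at key
  have h2 := Ex_mono hw (taylor_sp hw a hδ ha h1)
  rw [Ex_const hw] at h2
  have h3 : ∀ i, Ex w (fun x => f x * log (f x) - f x * log (Qw w i f x) - f x + Qw w i f x) =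
      Ex w (fun x => f x * log (f x)) - Ex w fun x => Qw w i f x * log (Qw w i f x) := by
    intro i
    have hfree : Free i fun x => log (Qw w i f x) := fun b x => by
      simp only [free_Qw (w := w) (f := f) (i := i) b x]
    rw [Ex_add, Ex_sub, Ex_sub, Ex_Q hw hfree, Ex_Q_one hw]
    ring
  rw [Ex_sub, Ex_sub, Ex_mul, Ex_sum, Ex_sub, Ex_const hw, h1] at key
  simp only [h3] at key
  unfold Ent DE
  rw [h1, log_one]
  linarith

end Vale.Agent.P150
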