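import Vale.Agent.P150.Step

/-! Approximate tensorization of entropy from Poincare inequalities in all fields.
`at_prod`: for a list `L` of coordinates let `F L = L.foldr (Qw w) f`.  By induction on `L` (no duplicates needed if one
sums over the list), `Ex (f (log f - log (F L))) ≤ ∑_{i ∈ L} (..)` by `cond_dual`.  For `w = Wt 0 h`, `mw w j` is the
constant `tanh (h j)`, so `Qw w j` preserves `Free i` (`Q_eq`, `up_comm`); for `L = finRange n`, `F L` is free of all
coordinates, hence constant, equal to `Ex w f` (`Ex_Q_one`).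
`at_of_poi`: `J + Λ • 1` is positive semidefinite, so `= Bᵀ * B` (`Matrix.posSemidef_iff_eq_conjTranspose_mul_self`, or
`CStarAlgebra.nonneg_iff_eq_star_mul_self`, or `CFC.sqrt`), and `|B u|² ≤ 2 Λ |u|²`.  Fix `N` large, `ε = 1/N`,
`a x = √ε B (sp ∘ x)`.  Then `Wt (s • J) h x * ker a x y = c * Wt ((s - ε) • J) (h + √ε Bᵀ y) x` with `c = exp (-ε Λ n / 2)`
(`AT.scale`).  `step` with `δ = 8 Λ n ε`, `stab`, `hell` give `Ent ≤ C DE + (4 Λ ε / κ + 4 δ²) Ent`.  With
`x = 4 Λ ε / κ + 4 δ² ≤ 1/2`, `1 / (1 - x) ≤ exp (2 x)`; by induction on `m ≤ N`, `AT (Wt ((m/N) • J) h) (exp (2 x m))`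
for all `h`; and `2 x N ≤ 8 Λ / κ + 2` for `N` large. -/

namespace Vale.Agent.P150

open Finset Real

variable {n : ℕ} {J : Matrix (Fin n) (Fin n) ℝ} {Λ κ : ℝ}

lemma free_keep_tens {h : Fin n → ℝ} {g : Cfg n → ℝ} {i j : Fin n} (hg : Free i g) :
    Free i (Qw (Wt 0 h) j g) := by
  by_cases hij : j = i
  · subst hij; exact free_Qw
  intro b x
  rw [Q_eq Wt_pos, Q_eq Wt_pos, mw_Wt (by simp) (by simp), mw_Wt (by simp) (by simp), hg b x,
    up_ne hij]
  have h1 : loc 0 h j (up i b x) = loc 0 h j x := by simp [loc]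
  have h2 : dd j g (up i b x) = dd j g x := by
    unfold dd
    rw [up_comm hij, up_comm hij, hg, hg]
  rw [h1, h2]

lemma free_fold_tens (h : Fin n → ℝ) (f : Cfg n → ℝ) (L : List (Fin n)) :
    ∀ i ∈ L, Free i (L.foldr (Qw (Wt 0 h)) f) := by
  induction L with
  | nil => intro i hi; simp at hi
  | cons j L ih =>
    intro i hi
    rw [List.foldr_cons]
    rcases List.mem_cons.1 hi with rfl | hi
    · exact free_Qw
    · exact free_keep_tens (ih i hi)

lemma const_of_free_tens {g : Cfg n → ℝ} (hg : ∀ i, Free i g) (x y : Cfg n) : g x = g y := by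
  have key : ∀ s : Finset (Fin n), ∀ x y : Cfg n, (∀ i ∉ s, x i = y i) → g x = g y := by
    intro s
    induction s using Finset.induction_on with
    | empty =>
      intro x y hxy
      have : x = y := funext fun i => hxy i (by simp)
      rw [this]
    | insert a s _ ih =>
      intro x y hxy
      rw [← hg a (y a) x]
      refine ih _ _ fun i hi => ?_
      by_cases hia : i = a
      · subst hia; simp
      · rw [up_ne hia]
        exact hxy i (by simp [hia, hi])
  exact key univ x y (by simp)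

lemma pos_fold_tens {w f : Cfg n → ℝ} (hw : Pos w) (hf : Pos f) (L : List (Fin n)) :
    Pos (L.foldr (Qw w) f) := by
  induction L with
  | nil => exact hf
  | cons j L ih => exact Qw_pos hw ih

lemma ex_fold_tens {w f : Cfg n → ℝ} (hw : Pos w) (L : List (Fin n)) :
    Ex w (L.foldr (Qw w) f) = Ex w f := by
  induction L with
  | nil => rfl
  | cons j L ih => rw [List.foldr_cons, Ex_Q_one hw, ih]

lemma chain_tens {w f : Cfg n → ℝ} (hw : Pos w) (hf : Pos f) (L : List (Fin n)) :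
    Ex w (fun x => f x * log (f x)) - Ex w (fun x => f x * log (L.foldr (Qw w) f x)) ≤
      (L.map fun i => Ex w (fun x => f x * log (f x)) -
        Ex w fun x => Qw w i f x * log (Qw w i f x)).sum := by
  induction L with
  | nil => simp
  | cons j L ih =>
    rw [List.foldr_cons, List.map_cons, List.sum_cons]
    have h1 := cond_dual (i := j) hw hf (pos_fold_tens hw hf L)
    have h2 : Ex w (fun x => f x * (log (L.foldr (Qw w) f x) - log (Qw w j (L.foldr (Qw w) f) x))) =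
        Ex w (fun x => f x * log (L.foldr (Qw w) f x)) -
          Ex w (fun x => f x * log (Qw w j (L.foldr (Qw w) f) x)) := by
      rw [← Ex_sub]
      simp only [mul_sub]
    linarith

theorem at_prod (h : Fin n → ℝ) : AT (Wt 0 h) 1 := by
  intro f hf
  have hw : Pos (Wt (0 : Matrix (Fin n) (Fin n) ℝ) h) := Wt_pos
  have h1 := chain_tens hw hf (List.finRange n)
  have hfree : ∀ i, Free i ((List.finRange n).foldr (Qw (Wt 0 h)) f) := fun i =>
    free_fold_tens h f _ i (List.mem_finRange i)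
  have h2 : ∀ x, (List.finRange n).foldr (Qw (Wt 0 h)) f x = Ex (Wt 0 h) f := by
    intro x
    rw [← ex_fold_tens (f := f) hw (List.finRange n), ← Ex_const hw ((List.finRange n).foldr (Qw (Wt 0 h)) f x)]
    congr 1
    funext y
    exact const_of_free_tens hfree x y
  simp only [h2] at h1
  have h3 : Ex (Wt 0 h) (fun x => f x * log (Ex (Wt 0 h) f)) =
      Ex (Wt 0 h) f * log (Ex (Wt 0 h) f) := by
    rw [mul_comm (Ex _ f), ← Ex_mul]
    simp only [mul_comm]
  rw [h3, ← Fin.sum_univ_def] at h1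
  unfold Ent DE
  rw [one_mul]
  exact h1

open scoped MatrixOrder in
lemma factor_tens (hs : ∀ i j, J i j = J j i)
    (hop : ∀ u : Fin n → ℝ, |∑ i, ∑ j, J i j * u i * u j| ≤ Λ * ∑ i, u i ^ 2) :
    ∃ B : Matrix (Fin n) (Fin n) ℝ, ∀ u : Fin n → ℝ,
      ∑ l, (∑ k, B l k * u k) ^ 2 = ∑ i, ∑ j, J i j * u i * u j + Λ * ∑ i, u i ^ 2 := by
  have hq : ∀ u : Fin n → ℝ, u ⬝ᵥ (J + Λ • (1 : Matrix (Fin n) (Fin n) ℝ)).mulVec u =
      ∑ i, ∑ j, J i j * u i * u j + Λ * ∑ i, u i ^ 2 := by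
    intro u
    rw [Matrix.add_mulVec, Matrix.smul_mulVec, Matrix.one_mulVec, dotProduct_add, dotProduct_smul]
    simp only [dotProduct, Matrix.mulVec, smul_eq_mul, mul_sum, sq]
    congr 1
    refine sum_congr rfl fun i _ => sum_congr rfl fun j _ => by ring
  have hM : (J + Λ • (1 : Matrix (Fin n) (Fin n) ℝ)).PosSemidef := by
    refine Matrix.PosSemidef.of_dotProduct_mulVec_nonneg ?_ fun v => ?_
    · ext i j
      simp [hs j i, Matrix.one_apply, eq_comm]
    · have h1 := (abs_le.1 (hop v)).1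
      have h2 := hq v
      simp only [star_trivial]
      linarith
  obtain ⟨B, hB⟩ := CStarAlgebra.nonneg_iff_eq_star_mul_self.mp hM.nonneg
  have hB' : J + Λ • (1 : Matrix (Fin n) (Fin n) ℝ) = B.transpose * B := hB
  refine ⟨B, fun u => ?_⟩
  rw [← hq, hB', ← Matrix.mulVec_mulVec, Matrix.dotProduct_mulVec, Matrix.vecMul_transpose]
  simp only [dotProduct, Matrix.mulVec, sq]

lemma sum_sp_sq_tens (x : Cfg n) : ∑ k, sp (x k) ^ 2 = n := by
  simp [sp_sq]

lemma sum_sp_sub_tens (x z : Cfg n) : ∑ k, (sp (x k) - sp (z k)) ^ 2 ≤ 4 * n := by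
  have : ∀ k, (sp (x k) - sp (z k)) ^ 2 ≤ 4 := by
    intro k
    nlinarith [sp_sq (x k), sp_sq (z k), sq_nonneg (sp (x k) + sp (z k))]
  calc ∑ k, (sp (x k) - sp (z k)) ^ 2 ≤ ∑ _k : Fin n, (4 : ℝ) := sum_le_sum fun k _ => this k
    _ = 4 * n := by simp [mul_comm]

lemma step_tens {B : Matrix (Fin n) (Fin n) ℝ} (hΛ : 0 ≤ Λ)
    (hop : ∀ u : Fin n → ℝ, |∑ i, ∑ j, J i j * u i * u j| ≤ Λ * ∑ i, u i ^ 2) (hκ : 0 < κ)
    (hB : ∀ u : Fin n → ℝ,
      ∑ l, (∑ k, B l k * u k) ^ 2 = ∑ i, ∑ j, J i j * u i * u j + Λ * ∑ i, u i ^ 2)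
    {s ε C : ℝ} (hε : 0 ≤ ε) (hC : 0 ≤ C) (hδ : 8 * Λ * n * ε ≤ 1)
    (hx : 4 * Λ * ε / κ + 4 * (8 * Λ * n * ε) ^ 2 ≤ 1 / 2)
    (hP : ∀ h, Poi (Wt ((s + ε) • J) h) κ) (hA : ∀ h, AT (Wt (s • J) h) C) (h : Fin n → ℝ) :
    AT (Wt ((s + ε) • J) h) (C * exp (2 * (4 * Λ * ε / κ + 4 * (8 * Λ * n * ε) ^ 2))) := by
  have hw : Pos (Wt ((s + ε) • J) h) := Wt_pos
  have hB2 : ∀ u : Fin n → ℝ, ∑ l, (∑ k, B l k * u k) ^ 2 ≤ 2 * Λ * ∑ i, u i ^ 2 := by
    intro u
    have := (abs_le.1 (hop u)).2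
    rw [hB]
    linarith
  have hsq : √ε ^ 2 = ε := sq_sqrt hε
  refine AT.of_one hw fun f hf h1 => ?_
  set a : Cfg n → Fin n → ℝ := fun x l => √ε * ∑ k, B l k * sp (x k) with ha
  have hker : ∀ y : Fin n → ℝ, (fun x => Wt ((s + ε) • J) h x * ker a x y) =
      fun x => exp (-(ε * Λ * n / 2)) * Wt (s • J) (h + fun k => √ε * ∑ l, y l * B l k) x := by
    intro y
    funext x
    unfold Wt ker
    rw [← exp_add, ← exp_add]
    congr 1
    have e1 : ∑ l, a x l ^ 2 = ε * (∑ i, ∑ j, J i j * sp (x i) * sp (x j) + Λ * n) := by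
      simp only [ha, mul_pow, hsq]
      rw [← mul_sum, hB, sum_sp_sq_tens]
    have e2 : ∑ l, y l * a x l = ∑ k, (√ε * ∑ l, y l * B l k) * sp (x k) := by
      simp only [ha, mul_sum, sum_mul]
      rw [sum_comm]
      exact sum_congr rfl fun k _ => sum_congr rfl fun l _ => by ring
    have e3 : ∀ t : ℝ, ∑ i, ∑ j, (t • J) i j * sp (x i) * sp (x j) =
        t * ∑ i, ∑ j, J i j * sp (x i) * sp (x j) := by
      intro t
      simp only [Matrix.smul_apply, smul_eq_mul, mul_sum, mul_assoc]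
    rw [e1, e2, e3, e3]
    simp only [Pi.add_apply, add_mul, sum_add_distrib]
    ring
  have hst := step hw a (δ := 8 * Λ * n * ε) hC hδ
    (fun y => by rw [hker y]; exact (hA _).scale (exp_ne_zero _)) (fun x x' z => by
      have e : ∀ u l, a u l - a z l = √ε * ∑ k, B l k * (sp (u k) - sp (z k)) := by
        intro u l
        simp only [ha, mul_sub, sum_sub_distrib]
      simp only [e]
      have b1 := hB2 fun k => sp (x k) - sp (z k)
      have b2 := hB2 fun k => sp (x' k) - sp (z k)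
      have c1 := mul_le_mul_of_nonneg_left (sum_sp_sub_tens x z) hΛ
      have c2 := mul_le_mul_of_nonneg_left (sum_sp_sub_tens x' z) hΛ
      set p : Fin n → ℝ := fun l => ∑ k, B l k * (sp (x k) - sp (z k)) with hp
      set q : Fin n → ℝ := fun l => ∑ k, B l k * (sp (x' k) - sp (z k)) with hq
      have d : |∑ l, p l * q l| ≤ 8 * Λ * n := by
        refine (abs_sum_le_sum_abs _ _).trans ?_
        have : ∀ l, |p l * q l| ≤ (p l ^ 2 + q l ^ 2) / 2 := by
          intro l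
          rw [abs_le]
          constructor <;> nlinarith [sq_nonneg (p l + q l), sq_nonneg (p l - q l)]
        refine (sum_le_sum fun l _ => this l).trans ?_
        rw [← sum_div, sum_add_distrib]
        change ∑ l, p l ^ 2 ≤ _ at b1
        change ∑ l, q l ^ 2 ≤ _ at b2
        linarith
      have e2 : ∑ l, √ε * p l * (√ε * q l) = ε * ∑ l, p l * q l := by
        rw [mul_sum]
        refine sum_congr rfl fun l _ => ?_
        calc √ε * p l * (√ε * q l) = √ε ^ 2 * (p l * q l) := by ring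
          _ = _ := by rw [hsq]
      change |∑ l, √ε * p l * (√ε * q l)| ≤ _
      rw [e2, abs_mul, abs_of_nonneg hε, mul_comm]
      exact mul_le_mul_of_nonneg_right d hε) hf h1
  have hE := Ent_nonneg hw hf
  have hD := DE_nonneg hw hf
  have hhell := hell hw hf h1
  have hstab := stab hκ hP h hf h1
  have hlin : ∑ l, (Ex (Wt ((s + ε) • J) h) (fun x => f x * a x l) -
      Ex (Wt ((s + ε) • J) h) fun x => a x l) ^ 2 ≤
      4 * Λ * ε / κ * Ent (Wt ((s + ε) • J) h) f := by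
    have e : ∀ l, Ex (Wt ((s + ε) • J) h) (fun x => f x * a x l) -
        Ex (Wt ((s + ε) • J) h) (fun x => a x l) =
        √ε * ∑ k, B l k * (Ex (Wt ((s + ε) • J) h) (fun x => f x * sp (x k)) -
          Ex (Wt ((s + ε) • J) h) fun x => sp (x k)) := by
      intro l
      have e1 : (fun x => f x * a x l) = fun x => √ε * ∑ k, B l k * (f x * sp (x k)) := by
        funext x
        simp only [ha, mul_sum]
        exact sum_congr rfl fun k _ => by ring
      rw [e1]
      simp only [ha]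
      rw [Ex_mul, Ex_mul, Ex_sum, Ex_sum, ← mul_sub, ← sum_sub_distrib]
      congr 1
      refine sum_congr rfl fun k _ => ?_
      rw [Ex_mul, Ex_mul, mul_sub]
    simp only [e, mul_pow, hsq]
    rw [← mul_sum]
    have b := hB2 fun k => Ex (Wt ((s + ε) • J) h) (fun x => f x * sp (x k)) -
          Ex (Wt ((s + ε) • J) h) fun x => sp (x k)
    have b2 := b.trans (mul_le_mul_of_nonneg_left hstab (by positivity))
    refine (mul_le_mul_of_nonneg_left b2 hε).trans (le_of_eq ?_)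
    ring
  set X := 4 * Λ * ε / κ + 4 * (8 * Λ * n * ε) ^ 2 with hX
  have hX0 : 0 ≤ X := by positivity
  have hmain : (1 - X) * Ent (Wt ((s + ε) • J) h) f ≤ C * DE (Wt ((s + ε) • J) h) f := by
    have := mul_le_mul_of_nonneg_left hhell (sq_nonneg (8 * Λ * n * ε))
    rw [hX]
    nlinarith
  have hexp : 1 ≤ exp (2 * X) * (1 - X) := by
    have := add_one_le_exp (2 * X)
    nlinarith
  calc Ent (Wt ((s + ε) • J) h) f ≤ exp (2 * X) * (1 - X) * Ent (Wt ((s + ε) • J) h) f :=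
        le_mul_of_one_le_left hE hexp
    _ = exp (2 * X) * ((1 - X) * Ent (Wt ((s + ε) • J) h) f) := by ring
    _ ≤ exp (2 * X) * (C * DE (Wt ((s + ε) • J) h) f) :=
        mul_le_mul_of_nonneg_left hmain (exp_pos _).le
    _ = _ := by ring

theorem at_of_poi (hs : ∀ i j, J i j = J j i) (hΛ : 0 ≤ Λ)
    (hop : ∀ u : Fin n → ℝ, |∑ i, ∑ j, J i j * u i * u j| ≤ Λ * ∑ i, u i ^ 2) (hκ : 0 < κ)
    (hP : ∀ s : ℝ, 0 ≤ s → s ≤ 1 → ∀ h, Poi (Wt (s • J) h) κ) (h : Fin n → ℝ) :
    AT (Wt J h) (exp (8 * Λ / κ + 2)) := by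
  obtain ⟨B, hB⟩ := factor_tens hs hop
  obtain ⟨N, hN⟩ := exists_nat_ge (16 * Λ / κ + 256 * Λ ^ 2 * (n : ℝ) ^ 2 + 4)
  have p1 : 0 ≤ 16 * Λ / κ := by positivity
  have p2 : 0 ≤ 256 * Λ ^ 2 * (n : ℝ) ^ 2 := by positivity
  have hN0 : (0 : ℝ) < N := by linarith
  set ε : ℝ := 1 / N with hε
  have hε0 : 0 < ε := by positivity
  have hNε : N * ε = 1 := by rw [hε]; field_simp
  have hε4 : ε ≤ 1 / 4 := by nlinarith
  have q1 : 4 * Λ * ε / κ ≤ 1 / 4 := by
    have : 16 * Λ / κ * ε ≤ N * ε := mul_le_mul_of_nonneg_right (by linarith) hε0.le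
    have e : 4 * Λ * ε / κ = 16 * Λ / κ * ε / 4 := by ring
    rw [e]
    linarith
  have q2 : 4 * (8 * Λ * n * ε) ^ 2 ≤ ε := by
    have : 256 * Λ ^ 2 * (n : ℝ) ^ 2 * ε ≤ N * ε := mul_le_mul_of_nonneg_right (by linarith) hε0.le
    have e : 4 * (8 * Λ * n * ε) ^ 2 = 256 * Λ ^ 2 * (n : ℝ) ^ 2 * ε * ε := by ring
    rw [e]
    nlinarith
  have q3 : 8 * Λ * n * ε ≤ 1 := by nlinarith
  set X := 4 * Λ * ε / κ + 4 * (8 * Λ * n * ε) ^ 2 with hX
  have key : ∀ m : ℕ, m ≤ N → ∀ h, AT (Wt ((m * ε) • J) h) (exp (2 * X * m)) := by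
    intro m
    induction m with
    | zero =>
      intro _ h
      simpa using at_prod h
    | succ m ih =>
      intro hm h
      have hm' : ((m + 1 : ℕ) : ℝ) ≤ N := by exact_mod_cast hm
      have e : ((m + 1 : ℕ) : ℝ) * ε = m * ε + ε := by push_cast; ring
      have hs1 : m * ε + ε ≤ 1 := by
        rw [← e, ← hNε]
        exact mul_le_mul_of_nonneg_right hm' hε0.le
      have := step_tens hΛ hop hκ hB hε0.le (exp_pos _).le q3 (by linarith)
        (hP (m * ε + ε) (by positivity) hs1) (ih (by omega)) h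
      rw [← exp_add] at this
      have e2 : 2 * X * ((m + 1 : ℕ) : ℝ) = 2 * X * m + 2 * X := by push_cast; ring
      rw [e, e2]
      exact this
  have hfin := key N le_rfl h
  rw [hNε, one_smul] at hfin
  intro f hf
  refine (hfin f hf).trans (mul_le_mul_of_nonneg_right (exp_le_exp.2 ?_) (DE_nonneg Wt_pos hf))
  have e : 2 * X * N = 8 * Λ / κ * (N * ε) + 2 * (4 * (8 * Λ * n * ε) ^ 2) * N := by
    rw [hX]; ring
  rw [e, hNε]
  nlinarith

end Vale.Agent.P150
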